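import Mathlib

/-! Sums over a subgroup of a finite group. -/

namespace Vale.Agent.P067

open Finset

variable {G : Type} [Group G] [Fintype G]

open Classical in
/-- The elements of a subgroup, as a finset. -/
noncomputable def elts (K : Subgroup G) : Finset G := univ.filter (fun g => g ∈ K)

@[simp] theorem mem_elts {K : Subgroup G} {g : G} : g ∈ elts K ↔ g ∈ K := by
  simp [elts]

theorem card_elts (K : Subgroup G) : (elts K).card = Nat.card K := by
  classical
  rw [Nat.card_eq_fintype_card, Fintype.card_subtype]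
  congr 1

theorem card_elts_pos (K : Subgroup G) : 0 < (elts K).card :=
  Finset.card_pos.mpr ⟨1, mem_elts.mpr K.one_mem⟩

theorem sum_elts_mul_left {A : Type} [AddCommMonoid A] {K : Subgroup G} {k : G} (hk : k ∈ K)
    (f : G → A) : ∑ h ∈ elts K, f (k * h) = ∑ h ∈ elts K, f h := by
  refine Finset.sum_nbij' (fun h => k * h) (fun h => k⁻¹ * h) ?_ ?_ ?_ ?_ ?_
  · intro h hh; simpa using K.mul_mem hk (by simpa using hh)
  · intro h hh; simpa using K.mul_mem (K.inv_mem hk) (by simpa using hh)
  · intro h _; simp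
  · intro h _; simp
  · intro h _; rfl

theorem sum_elts_mul_right {A : Type} [AddCommMonoid A] {K : Subgroup G} {k : G} (hk : k ∈ K)
    (f : G → A) : ∑ h ∈ elts K, f (h * k) = ∑ h ∈ elts K, f h := by
  refine Finset.sum_nbij' (fun h => h * k) (fun h => h * k⁻¹) ?_ ?_ ?_ ?_ ?_
  · intro h hh; simpa using K.mul_mem (by simpa using hh) hk
  · intro h hh; simpa using K.mul_mem (by simpa using hh) (K.inv_mem hk)
  · intro h _; simp
  · intro h _; simp
  · intro h _; rfl

theorem sum_elts_inv {A : Type} [AddCommMonoid A] (K : Subgroup G)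
    (f : G → A) : ∑ h ∈ elts K, f h⁻¹ = ∑ h ∈ elts K, f h := by
  refine Finset.sum_nbij' (fun h => h⁻¹) (fun h => h⁻¹) ?_ ?_ ?_ ?_ ?_
  · intro h hh; simpa using hh
  · intro h hh; simpa using hh
  · intro h _; simp
  · intro h _; simp
  · intro h _; rfl

theorem odd_card_of_le {K L : Subgroup G} (h : K ≤ L) (hL : Odd (Nat.card L)) :
    Odd (Nat.card K) :=
  Odd.of_dvd_nat hL (Subgroup.card_dvd_of_le h)

/-- An odd number of copies of `v` sum to `v` in characteristic two. -/
theorem odd_smul_two {V : Type} [AddCommGroup V] [Module (ZMod 2) V] {n : ℕ} (hn : Odd n)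
    (v : V) : n • v = v := by
  obtain ⟨k, rfl⟩ := hn
  have h2 : (2 : ℕ) • v = 0 := ZModModule.char_nsmul_eq_zero 2 v
  rw [add_smul, one_smul, mul_comm, mul_smul, h2, smul_zero, zero_add]

/-- Right invariance under a subgroup. -/
def RInv {A : Type} (K : Subgroup G) (φ : G → A) : Prop := ∀ g, ∀ h ∈ K, φ (g * h) = φ g

end Vale.Agent.P067
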