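import Vale.Agent.P067.Sys
import Vale.Agent.P067.Basic

/-! Fixed-point systems, bounded cones, and their consequences. -/

set_option linter.unusedSectionVars false
set_option linter.unusedVariables false

namespace Vale.Agent.P067

open Finset

variable {ι : Type} [DecidableEq ι]

/-- Vectors fixed by every element of the set `s`. -/
def Fix {G V : Type} [Group G] [AddCommGroup V] [Module (ZMod 2) V]
    (ρ : Representation (ZMod 2) G V) (s : Set G) : Submodule (ZMod 2) V where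
  carrier := {v | ∀ g ∈ s, ρ g v = v}
  add_mem' := fun {a b} ha hb g hg => by rw [map_add, ha g hg, hb g hg]
  zero_mem' := fun g _ => map_zero _
  smul_mem' := fun c v hv g hg => by rw [map_smul, hv g hg]

theorem mem_Fix {G V : Type} [Group G] [AddCommGroup V] [Module (ZMod 2) V]
    {ρ : Representation (ZMod 2) G V} {s : Set G} {v : V} :
    v ∈ Fix ρ s ↔ ∀ g ∈ s, ρ g v = v := Iff.rfl

theorem Fix_anti {G V : Type} [Group G] [AddCommGroup V] [Module (ZMod 2) V]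
    (ρ : Representation (ZMod 2) G V) {s t : Set G} (h : s ⊆ t) : Fix ρ t ≤ Fix ρ s :=
  fun _ hv g hg => hv g (h hg)

/-- The stabiliser of a vector, as a subgroup. -/
def stabv {G V : Type} [Group G] [AddCommGroup V] [Module (ZMod 2) V]
    (ρ : Representation (ZMod 2) G V) (v : V) : Subgroup G where
  carrier := {g | ρ g v = v}
  mul_mem' := fun {a b} ha hb => by
    simp only [Set.mem_ofPred_eq] at ha hb ⊢
    rw [map_mul, Module.End.mul_apply, hb, ha]
  one_mem' := by simp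
  inv_mem' := fun {a} ha => by
    simp only [Set.mem_ofPred_eq] at ha ⊢
    conv_lhs => rw [← ha]
    rw [← Module.End.mul_apply, ← map_mul, inv_mul_cancel, map_one, Module.End.one_apply]

theorem mem_Fix_iff_le_stabv {G V : Type} [Group G] [AddCommGroup V] [Module (ZMod 2) V]
    {ρ : Representation (ZMod 2) G V} {K : Subgroup G} {v : V} :
    v ∈ Fix ρ (K : Set G) ↔ K ≤ stabv ρ v := Iff.rfl

/-- The right regular representation on `A`-valued functions. -/
def rreg (G A : Type) [Group G] [AddCommGroup A] [Module (ZMod 2) A] :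
    Representation (ZMod 2) G (G → A) where
  toFun g :=
    { toFun := fun w x => w (x * g)
      map_add' := fun _ _ => rfl
      map_smul' := fun _ _ => rfl }
  map_one' := by ext w x; simp
  map_mul' := fun a b => by ext w x; simp [mul_assoc]

@[simp] theorem rreg_apply {G A : Type} [Group G] [AddCommGroup A] [Module (ZMod 2) A]
    (g : G) (w : G → A) (x : G) : rreg G A g w x = w (x * g) := rfl

theorem mem_Fix_rreg {G A : Type} [Group G] [Fintype G] [AddCommGroup A] [Module (ZMod 2) A]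
    {K : Subgroup G} {w : G → A} : w ∈ Fix (rreg G A) (K : Set G) ↔ RInv K w := by
  constructor
  · intro h g k hk
    exact congrFun (h k hk) g
  · intro h k hk
    funext g
    exact h g k hk

/-- A bounded cone for the link of the face of type `σ` of the coset complex of `K`, at spot `j`:
every invariant cochain equals a coboundary up to at most `R` values of its own coboundary. -/
def HasCone {Γ : Type} [Group Γ] (K : Finset ι → Subgroup Γ) (I σ : Finset ι) (j R : ℕ) : Prop :=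
  ∃ Λ : Finset ι → Γ → Finset (Finset ι × Γ),
    (∀ τ h, (Λ τ h).card ≤ R) ∧
    (∀ τ h, ∀ p ∈ Λ τ h, σ ⊆ p.1 ∧ p.1 ⊆ I ∧ p.1.card = j + 1 ∧ p.2 ∈ K σ) ∧
    ∀ (A : Type) [AddCommGroup A] [Module (ZMod 2) A] (g : Finset ι → Γ → A),
      (∀ τ, σ ⊆ τ → τ ⊆ I → τ.card = j → ∀ h ∈ K σ, ∀ k ∈ K τ, g τ (h * k) = g τ h) →
      ∃ ψ : Finset ι → Γ → A,
        (∀ τ, σ ⊆ τ → τ ⊆ I → τ.card + 1 = j → ∀ h ∈ K σ, ∀ k ∈ K τ, ψ τ (h * k) = ψ τ h) ∧
        ∀ τ, σ ⊆ τ → τ ⊆ I → τ.card = j → ∀ h ∈ K σ,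
          g τ h + dd σ ψ τ h = ∑ p ∈ Λ τ h, dd σ g p.1 p.2

theorem HasCone.mono {Γ : Type} [Group Γ] {K : Finset ι → Subgroup Γ} {I σ : Finset ι}
    {j R R' : ℕ} (h : HasCone K I σ j R) (hR : R ≤ R') : HasCone K I σ j R' := by
  obtain ⟨Λ, h1, h2, h3⟩ := h
  exact ⟨Λ, fun τ h => (h1 τ h).trans hR, h2, h3⟩

/-- Transfer of a cone along an isomorphism of the link groups. -/
theorem HasCone.map {Γ G : Type} [Group Γ] [Group G] {K : Finset ι → Subgroup Γ}
    {K' : Finset ι → Subgroup G} {I σ : Finset ι} {j R : ℕ} (hK : Antitone K) (φ : Γ → G)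
    (hmul : ∀ x ∈ K σ, ∀ y ∈ K σ, φ (x * y) = φ x * φ y) (hinj : Set.InjOn φ (K σ))
    (himg : ∀ τ, σ ⊆ τ → τ ⊆ I → (K' τ : Set G) = φ '' (K τ))
    (hσI : σ ⊆ I) (h : HasCone K I σ j R) : HasCone K' I σ j R := by
  classical
  obtain ⟨Λ, hΛ1, hΛ2, hΛ3⟩ := h
  let inv : G → Γ := Function.invFunOn φ (K σ : Set Γ)
  have hex : ∀ x ∈ K' σ, ∃ k ∈ (K σ : Set Γ), φ k = x := by
    intro x hx
    have : x ∈ (K' σ : Set G) := hx
    rw [himg σ subset_rfl hσI] at this
    exact this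
  have hinv1 : ∀ x ∈ K' σ, inv x ∈ K σ := fun x hx => Function.invFunOn_mem (hex x hx)
  have hinv2 : ∀ x ∈ K' σ, φ (inv x) = x := fun x hx => Function.invFunOn_eq (hex x hx)
  have hφmem : ∀ τ, σ ⊆ τ → τ ⊆ I → ∀ k ∈ K τ, φ k ∈ K' τ := by
    intro τ h1 h2 k hk
    have : φ k ∈ (K' τ : Set G) := by
      rw [himg τ h1 h2]; exact ⟨k, hk, rfl⟩
    exact this
  refine ⟨fun τ x => (Λ τ (inv x)).image (fun p => (p.1, φ p.2)),
    fun τ x => Finset.card_image_le.trans (hΛ1 _ _), ?_, ?_⟩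
  · intro τ x p hp
    obtain ⟨q, hq, rfl⟩ := Finset.mem_image.mp hp
    obtain ⟨k1, k2, k3, k4⟩ := hΛ2 _ _ q hq
    exact ⟨k1, k2, k3, hφmem σ subset_rfl hσI _ k4⟩
  · intro A _ _ g hg
    obtain ⟨ψ, hψ1, hψ2⟩ := hΛ3 A (fun τ h => g τ (φ h)) (fun τ h1 h2 h3 h hh k hk => by
      rw [hmul h hh k (hK h1 hk)]
      exact hg τ h1 h2 h3 _ (hφmem σ subset_rfl hσI _ hh) _ (hφmem τ h1 h2 _ hk))
    refine ⟨fun τ x => ψ τ (inv x), ?_, ?_⟩
    · intro τ h1 h2 h3 x hx k' hk'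
      have hk'' : k' ∈ (K' τ : Set G) := hk'
      rw [himg τ h1 h2] at hk''
      obtain ⟨k, hk, rfl⟩ := hk''
      have hkσ : k ∈ K σ := hK h1 hk
      have hxk : x * φ k ∈ K' σ := (K' σ).mul_mem hx (hφmem σ subset_rfl hσI _ hkσ)
      have e : inv (x * φ k) = inv x * k := by
        refine hinj (hinv1 _ hxk) ((K σ).mul_mem (hinv1 _ hx) hkσ) ?_
        rw [hinv2 _ hxk, hmul _ (hinv1 _ hx) _ hkσ, hinv2 _ hx]
      simp only [e]
      exact hψ1 τ h1 h2 h3 _ (hinv1 _ hx) k hk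
    · intro τ h1 h2 h3 x hx
      have e := hψ2 τ h1 h2 h3 (inv x) (hinv1 _ hx)
      rw [hinv2 _ hx] at e
      rw [Finset.sum_image]
      · simp only [dd_apply] at e ⊢
        exact e
      · intro p hp q hq hpq
        simp only [Prod.mk.injEq] at hpq
        exact Prod.ext hpq.1 (hinj (hΛ2 _ _ p hp).2.2.2 (hΛ2 _ _ q hq).2.2.2 hpq.2)

/-- A cone for a group of odd order gives exactness of the fixed-point system. -/
theorem HasCone.exact {Γ G V : Type} [Group Γ] [Fintype Γ] [Group G] [AddCommGroup V]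
    [Module (ZMod 2) V] {K : Finset ι → Subgroup Γ} {I σ : Finset ι} {j R : ℕ}
    (hK : Antitone K) (φ : Γ → G)
    (hmul : ∀ x ∈ K σ, ∀ y ∈ K σ, φ (x * y) = φ x * φ y)
    (hodd : Odd (Nat.card (K σ))) (ρ : Representation (ZMod 2) G V)
    (W : Submodule (ZMod 2) V) (hW : ∀ x ∈ K σ, ∀ v ∈ W, ρ (φ x) v ∈ W)
    (h : HasCone K I σ j R) : Exact I σ (fun τ => W ⊓ Fix ρ (φ '' (K τ))) j := by
  classical
  obtain ⟨Λ, _, hΛ2, hΛ3⟩ := h
  have hφ1 : φ 1 = 1 := by
    have := hmul 1 (K σ).one_mem 1 (K σ).one_mem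
    rw [one_mul] at this
    exact (mul_eq_left.mp this.symm)
  have hact : ∀ a ∈ K σ, ∀ b ∈ K σ, ∀ v, ρ (φ a) (ρ (φ b) v) = ρ (φ (a * b)) v := by
    intro a ha b hb v
    rw [hmul a ha b hb, map_mul, Module.End.mul_apply]
  refine Exact.intro (fun x hx hc => ?_)
  let g : Finset ι → Γ → W := fun τ h =>
    if hh : ρ (φ h) (x τ) ∈ W then ⟨ρ (φ h) (x τ), hh⟩ else 0
  have hg : ∀ τ, σ ⊆ τ → τ ⊆ I → τ.card = j → ∀ h ∈ K σ, (g τ h : V) = ρ (φ h) (x τ) := by
    intro τ h1 h2 h3 h hh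
    have : ρ (φ h) (x τ) ∈ W := hW h hh _ (hx τ h1 h2 h3).1
    simp [g, this]
  obtain ⟨ψ, hψ1, hψ2⟩ := hΛ3 W g (fun τ h1 h2 h3 h hh k hk => by
    apply Subtype.ext
    have hkσ : k ∈ K σ := hK h1 hk
    rw [hg τ h1 h2 h3 _ ((K σ).mul_mem hh hkσ), hg τ h1 h2 h3 _ hh, ← hact h hh k hkσ,
      (hx τ h1 h2 h3).2 (φ k) ⟨k, hk, rfl⟩])
  have hddg : ∀ π, σ ⊆ π → π ⊆ I → π.card = j + 1 → ∀ h ∈ K σ, dd σ g π h = 0 := by
    intro π h1 h2 h3 h hh
    apply Subtype.ext
    have e1 : ((dd σ g π h : W) : V) = dd σ (fun τ => (g τ h : V)) π := by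
      rw [dd_apply]
      exact dd_map (W.subtype.toAddMonoidHom) σ _ π
    have e2 : dd σ (fun τ => (g τ h : V)) π = ρ (φ h) (dd σ x π) := by
      have := dd_map (ρ (φ h)).toAddMonoidHom σ x π
      simp only [LinearMap.toAddMonoidHom_coe] at this
      rw [this]
      refine dd_congr _ (fun b hb hbσ => ?_)
      obtain ⟨k1, k2, k3⟩ := erase_mem_range h1 h2 hb hbσ
      exact hg _ k1 k2 (by omega) h hh
    rw [e1, e2, hc π h1 h2 h3, map_zero]
    rfl
  have hmain : ∀ τ, σ ⊆ τ → τ ⊆ I → τ.card = j → ∀ h ∈ K σ,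
      dd σ (fun π => (ψ π h : V)) τ = ρ (φ h) (x τ) := by
    intro τ h1 h2 h3 h hh
    have e := hψ2 τ h1 h2 h3 h hh
    rw [Finset.sum_eq_zero (fun p hp => by
      obtain ⟨k1, k2, k3, k4⟩ := hΛ2 _ _ p hp
      exact hddg _ k1 k2 k3 _ k4)] at e
    have e' := eq_of_add_eq_zero_two e
    rw [← hg τ h1 h2 h3 h hh, e', dd_apply]
    exact (dd_map (W.subtype.toAddMonoidHom) σ _ τ).symm
  refine ⟨fun τ => ∑ h ∈ elts (K σ), ρ (φ h⁻¹) (ψ τ h : V), ?_, ?_⟩
  · intro τ h1 h2 h3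
    refine ⟨Submodule.sum_mem _ (fun h hh => hW _ ((K σ).inv_mem (mem_elts.mp hh)) _ (ψ τ h).2), ?_⟩
    rintro _ ⟨k, hk, rfl⟩
    have hkσ : k ∈ K σ := hK h1 hk
    rw [map_sum, ← sum_elts_mul_right hkσ]
    refine Finset.sum_congr rfl (fun h hh => ?_)
    have hh' := mem_elts.mp hh
    rw [hact k hkσ _ ((K σ).inv_mem ((K σ).mul_mem hh' hkσ)), hψ1 τ h1 h2 h3 h hh' k hk]
    congr 3
    group
  · intro τ h1 h2 h3
    have e : dd σ (fun τ => ∑ h ∈ elts (K σ), ρ (φ h⁻¹) (ψ τ h : V)) τ =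
        ∑ h ∈ elts (K σ), ρ (φ h⁻¹) (dd σ (fun π => (ψ π h : V)) τ) := by
      simp only [dd, map_sum]
      exact Finset.sum_comm
    rw [e, Finset.sum_congr rfl (fun h hh => by
      rw [hmain τ h1 h2 h3 h (mem_elts.mp hh),
        hact _ ((K σ).inv_mem (mem_elts.mp hh)) _ (mem_elts.mp hh), inv_mul_cancel, hφ1, map_one,
        Module.End.one_apply])]
    rw [Finset.sum_const, card_elts, odd_smul_two hodd]

/-- Averaging over `L` or over a subgroup `H` with `L = H K'` agree on `K'`-invariant functions. -/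
theorem sum_elts_factor {G V : Type} [Group G] [Fintype G] [AddCommGroup V] [Module (ZMod 2) V]
    {L H K' : Subgroup G} (hH : H ≤ L) (hK : K' ≤ L) (hodd : Odd (Nat.card L))
    (hfac : ∀ g ∈ L, ∃ h ∈ H, ∃ k ∈ K', g = h * k) (f : G → V)
    (hf : ∀ g, ∀ k ∈ K', f (g * k) = f g) :
    ∑ h ∈ elts H, f h = ∑ g ∈ elts L, f g := by
  classical
  have e1 : ∑ p ∈ elts H ×ˢ elts K', f (p.1 * p.2) = ∑ h ∈ elts H, f h := by
    rw [Finset.sum_product]
    refine Finset.sum_congr rfl (fun h _ => ?_)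
    rw [Finset.sum_congr rfl (fun k hk => hf h k (mem_elts.mp hk)), Finset.sum_const, card_elts,
      odd_smul_two (odd_card_of_le hK hodd)]
  rw [← e1, ← Finset.sum_fiberwise_of_maps_to (t := elts L) (g := fun p : G × G => p.1 * p.2)
    (fun p hp => by
      rw [Finset.mem_product] at hp
      exact mem_elts.mpr (L.mul_mem (hH (mem_elts.mp hp.1)) (hK (mem_elts.mp hp.2))))]
  refine Finset.sum_congr rfl (fun g hg => ?_)
  rw [Finset.sum_congr rfl (fun p hp => by rw [(Finset.mem_filter.mp hp).2]), Finset.sum_const]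
  obtain ⟨h0, hh0, k0, hk0, rfl⟩ := hfac g (mem_elts.mp hg)
  have hc : ((elts H ×ˢ elts K').filter (fun p : G × G => p.1 * p.2 = h0 * k0)).card =
      (elts (H ⊓ K')).card := by
    symm
    refine Finset.card_nbij' (fun c => (h0 * c, c⁻¹ * k0)) (fun p => h0⁻¹ * p.1) ?_ ?_ ?_ ?_
    · intro c hc
      have hc' : c ∈ H ⊓ K' := mem_elts.mp hc
      simp only [Finset.coe_filter, Finset.mem_product, mem_elts, Set.mem_ofPred_eq]
      exact ⟨⟨H.mul_mem hh0 hc'.1, K'.mul_mem (K'.inv_mem hc'.2) hk0⟩, by group⟩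
    · intro p hp
      simp only [Finset.coe_filter, Finset.mem_product, mem_elts, Set.mem_ofPred_eq] at hp
      refine mem_elts.mpr ⟨H.mul_mem (H.inv_mem hh0) hp.1.1, ?_⟩
      have : h0⁻¹ * p.1 = k0 * p.2⁻¹ := by
        have h3 : p.1 = h0 * k0 * p.2⁻¹ := by rw [← hp.2]; group
        rw [h3]; group
      change h0⁻¹ * p.1 ∈ K'
      rw [this]
      exact K'.mul_mem hk0 (K'.inv_mem hp.1.2)
    · intro c _
      simp
    · intro p hp
      simp only [Finset.coe_filter, Finset.mem_product, mem_elts, Set.mem_ofPred_eq] at hp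
      have h3 : p.2 = p.1⁻¹ * (h0 * k0) := by rw [← hp.2]; group
      refine Prod.ext (by simp) ?_
      simp only
      rw [h3]; group
  rw [hc, card_elts, odd_smul_two (odd_card_of_le (inf_le_left.trans hH) hodd)]

/-- Join-like systems of fixed points are exact. -/
theorem exact_join_group {G V : Type} [Group G] [Fintype G] [AddCommGroup V]
    [Module (ZMod 2) V] {K : Finset ι → Subgroup G} {J : Finset ι} (hK : Antitone K)
    (hodd : Odd (Nat.card (K ∅))) (ρ : Representation (ZMod 2) G V)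
    (W : Submodule (ZMod 2) V) (hW : ∀ x ∈ K ∅, ∀ v ∈ W, ρ x v ∈ W) (N : ℕ)
    (hfac : ∀ π a b, π ⊆ J → a ∈ J → a ∉ π → b ∈ π → π.card ≤ N →
      ∀ g ∈ K (π.erase b), ∃ h ∈ K π, ∃ k ∈ K (insert a (π.erase b)), g = h * k)
    (c : ℕ) (hc : c ≤ N) (hcJ : c + 1 ≤ J.card) :
    Exact J ∅ (fun π => W ⊓ Fix ρ (K π)) c := by
  let r : Finset ι → V →+ V := fun π => ∑ k ∈ elts (K π), (ρ k).toAddMonoidHom
  have hr : ∀ π v, r π v = ∑ k ∈ elts (K π), ρ k v := by
    intro π v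
    simp [r, AddMonoidHom.finsetSum_apply]
  have hodd' : ∀ π, Odd (Nat.card (K π)) := fun π =>
    odd_card_of_le (hK (Finset.empty_subset π)) hodd
  refine exact_join (fun π π' h => inf_le_inf_left _ (Fix_anti ρ (hK h))) r N ?_ ?_ ?_ ∅
    (Finset.empty_subset _) c hc hcJ
  · intro π a v hv
    rw [hr]
    refine ⟨Submodule.sum_mem _ (fun k hk => hW k (hK (Finset.empty_subset π) (mem_elts.mp hk)) v hv.1),
      fun g hg => ?_⟩
    rw [map_sum, ← sum_elts_mul_left hg (fun k => ρ k v)]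
    refine Finset.sum_congr rfl (fun k _ => ?_)
    rw [map_mul, Module.End.mul_apply]
  · intro π v hv
    rw [hr, Finset.sum_congr rfl (fun k hk => hv.2 k (mem_elts.mp hk)), Finset.sum_const, card_elts,
      odd_smul_two (hodd' π)]
  · intro π a b v h1 h2 h3 h4 h5 hv
    rw [hr, hr]
    refine sum_elts_factor (hK (Finset.erase_subset b π)) (hK (Finset.subset_insert a _))
      (hodd' _) (hfac π a b h1 h2 h3 h4 h5) (fun g => ρ g v) (fun g k hk => ?_)
    rw [map_mul, Module.End.mul_apply, hv.2 k hk]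

end Vale.Agent.P067
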