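import Vale.Agent.P067.Spec
import Vale.Agent.P067.Cone

/-! Local to global: the improvement step and the locally minimal case. -/

namespace Vale.Agent.P067

open Finset

set_option linter.unusedSectionVars false

variable {Γ : Type} [Group Γ] [Fintype Γ] {ι : Type} [Fintype ι] [DecidableEq ι]

/-- Faces of cardinality `n` containing `σ`. -/
def upf (σ : Finset ι) (n : ℕ) : Finset (Finset ι) :=
  (powersetCard n (univ : Finset ι)).filter (σ ⊆ ·)

theorem mem_upf {σ τ : Finset ι} {n : ℕ} : τ ∈ upf σ n ↔ τ.card = n ∧ σ ⊆ τ := by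
  simp [upf, Finset.mem_powersetCard]

theorem card_pc_le (n : ℕ) : (powersetCard n (univ : Finset ι)).card ≤ 2 ^ Fintype.card ι := by
  simpa using Finset.card_le_univ (powersetCard n (univ : Finset ι))

theorem card_upf_le (σ : Finset ι) (n : ℕ) : (upf σ n).card ≤ 2 ^ Fintype.card ι := by
  simpa using Finset.card_le_univ (upf σ n)

/-- Indicator of being nonzero. -/
def nz (a : ZMod 2) : ℕ := if a ≠ 0 then 1 else 0

theorem nz_sum_le {α : Type} (s : Finset α) (f : α → ZMod 2) :
    nz (∑ a ∈ s, f a) ≤ ∑ a ∈ s, nz (f a) := by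
  by_cases h : ∑ a ∈ s, f a = 0
  · simp [nz, h]
  · obtain ⟨a, ha, h1⟩ := Finset.exists_ne_zero_of_sum_ne_zero h
    have : nz (f a) ≤ ∑ a ∈ s, nz (f a) :=
      Finset.single_le_sum (f := fun a => nz (f a)) (fun _ _ => Nat.zero_le _) ha
    simp only [nz, h, h1, ne_eq, not_false_eq_true, if_true] at this ⊢
    exact this

theorem nz_le_one (a : ZMod 2) : nz a ≤ 1 := by unfold nz; split_ifs <;> simp

/-- The total support size as a sum of indicators. -/
def cnt' (j : ℕ) (x : Finset ι → Γ → ZMod 2) : ℕ :=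
  ∑ τ ∈ powersetCard j (univ : Finset ι), ∑ g, nz (x τ g)

theorem dd_apply' (σ : Finset ι) (x : Finset ι → Γ → ZMod 2) (ρ : Finset ι) (g : Γ) :
    dd σ x ρ g = ∑ b ∈ ρ \ σ, x (ρ.erase b) g := by
  simp [dd, Finset.sum_apply]

theorem sum_coset (K : Subgroup Γ) (w : Γ) [DecidablePred fun g => w⁻¹ * g ∈ K] (f : Γ → ℕ) :
    ∑ g ∈ univ.filter (fun g => w⁻¹ * g ∈ K), f g = ∑ h ∈ elts K, f (w * h) := by
  refine Finset.sum_nbij' (fun g => w⁻¹ * g) (fun h => w * h) ?_ ?_ ?_ ?_ ?_
  · intro g hg; simpa using hg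
  · intro h hh; simpa using hh
  · intro g _; simp
  · intro g _; simp
  · intro g _; simp

theorem coset_split (K : Subgroup Γ) (w : Γ) (f f' : Γ → ℕ)
    (h : ∀ g, w⁻¹ * g ∉ K → f' g = f g) :
    ∑ g, f' g + ∑ h ∈ elts K, f (w * h) = ∑ g, f g + ∑ h ∈ elts K, f' (w * h) := by
  classical
  rw [← Finset.sum_filter_add_sum_filter_not univ (fun g => w⁻¹ * g ∈ K) f,
    ← Finset.sum_filter_add_sum_filter_not univ (fun g => w⁻¹ * g ∈ K) f', sum_coset, sum_coset]
  have : ∑ g ∈ univ.filter (fun g => ¬ w⁻¹ * g ∈ K), f' g =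
      ∑ g ∈ univ.filter (fun g => ¬ w⁻¹ * g ∈ K), f g :=
    Finset.sum_congr rfl fun g hg => h g (by simpa using hg)
  rw [this]; ring

theorem improve {H : Finset ι → Subgroup Γ} (hH : Antitone H) {j R : ℕ} {σ : Finset ι}
    (hc : HasCone H univ σ (j + 1) R) (x : Finset ι → Γ → ZMod 2)
    (hx : ∀ τ : Finset ι, τ.card = j + 1 → RInv (H τ) (x τ)) (w : Γ)
    (hlt : 2 ^ Fintype.card ι * R * ∑ ρ ∈ upf σ (j + 2), ∑ h ∈ elts (H σ), nz (dd σ x ρ (w * h)) <
      ∑ τ ∈ upf σ (j + 1), ∑ h ∈ elts (H σ), nz (x τ (w * h))) :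
    ∃ y : Finset ι → Γ → ZMod 2, (∀ τ : Finset ι, τ.card = j → RInv (H τ) (y τ)) ∧
      cnt' j y ≤ 2 ^ Fintype.card ι * Nat.card (H σ) ∧
      cnt' (j + 1) (x + dd ∅ y) < cnt' (j + 1) x := by
  classical
  obtain ⟨Λ, hΛ1, hΛ2, hΛ3⟩ := hc
  have hψ := fun γ : Γ => hΛ3 (ZMod 2) (fun τ h => x τ (w * γ * h))
    (fun τ _ _ hτ h _ k hk => by rw [← mul_assoc, hx τ hτ _ k hk])
  choose ψ hψ1 hψ2 using hψ
  set b := ∑ ρ ∈ upf σ (j + 2), ∑ h ∈ elts (H σ), nz (dd σ x ρ (w * h)) with hb
  have hsum : ∑ γ ∈ elts (H σ), ∑ τ ∈ upf σ (j + 1), ∑ h ∈ elts (H σ),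
      nz (x τ (w * γ * h) + dd σ (ψ γ) τ h) ≤
      ∑ _γ ∈ elts (H σ), 2 ^ Fintype.card ι * R * b := by
    calc _ ≤ ∑ γ ∈ elts (H σ), ∑ τ ∈ upf σ (j + 1), ∑ h ∈ elts (H σ), ∑ p ∈ Λ τ h,
            nz (dd σ x p.1 (w * (γ * p.2))) := by
          refine Finset.sum_le_sum fun γ _ => Finset.sum_le_sum fun τ hτ =>
            Finset.sum_le_sum fun h hh => ?_
          rw [mem_upf] at hτ
          rw [hψ2 γ τ hτ.2 (Finset.subset_univ _) hτ.1 h (mem_elts.mp hh)]
          refine (nz_sum_le _ _).trans (le_of_eq (Finset.sum_congr rfl fun p _ => ?_))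
          simp only [dd_apply', mul_assoc]
      _ = ∑ τ ∈ upf σ (j + 1), ∑ h ∈ elts (H σ), ∑ p ∈ Λ τ h, ∑ γ ∈ elts (H σ),
            nz (dd σ x p.1 (w * (γ * p.2))) := by
          rw [Finset.sum_comm]
          refine Finset.sum_congr rfl fun τ _ => ?_
          rw [Finset.sum_comm]
          refine Finset.sum_congr rfl fun h _ => ?_
          rw [Finset.sum_comm]
      _ ≤ ∑ _τ ∈ upf σ (j + 1), ∑ _h ∈ elts (H σ), R * b := by
          refine Finset.sum_le_sum fun τ _ => Finset.sum_le_sum fun h _ => ?_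
          calc _ ≤ ∑ _p ∈ Λ τ h, b := by
                refine Finset.sum_le_sum fun p hp => ?_
                obtain ⟨h1, -, h3, h4⟩ := hΛ2 τ h p hp
                rw [sum_elts_mul_right h4 (fun γ => nz (dd σ x p.1 (w * γ)))]
                exact Finset.single_le_sum
                  (f := fun ρ => ∑ h ∈ elts (H σ), nz (dd σ x ρ (w * h)))
                  (fun _ _ => Nat.zero_le _) (mem_upf.mpr ⟨h3, h1⟩)
            _ ≤ R * b := by
                rw [Finset.sum_const, smul_eq_mul]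
                exact Nat.mul_le_mul_right _ (hΛ1 τ h)
      _ ≤ _ := by
          simp only [Finset.sum_const, smul_eq_mul]
          have := card_upf_le σ (j + 1)
          calc _ ≤ 2 ^ Fintype.card ι * ((elts (H σ)).card * (R * b)) :=
                Nat.mul_le_mul_right _ this
            _ = _ := by ring
  obtain ⟨γ, hγ, hγ2⟩ := Finset.exists_le_of_sum_le
    (Finset.card_pos.mp (card_elts_pos (H σ))) hsum
  rw [mem_elts] at hγ
  set y : Finset ι → Γ → ZMod 2 := fun τ g =>
    if σ ⊆ τ ∧ (w * γ)⁻¹ * g ∈ H σ then ψ γ τ ((w * γ)⁻¹ * g) else 0 with hy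
  have hdd : ∀ ρ g, dd ∅ y ρ g =
      if σ ⊆ ρ ∧ (w * γ)⁻¹ * g ∈ H σ then dd σ (ψ γ) ρ ((w * γ)⁻¹ * g) else 0 := by
    intro ρ g
    rw [dd_apply', Finset.sdiff_empty]
    split_ifs with h
    · rw [dd_apply']
      symm
      refine Finset.sum_subset_zero_on_sdiff Finset.sdiff_subset ?_ ?_
      · intro a ha
        have ha' : a ∈ σ := by
          simp only [Finset.mem_sdiff, not_and, not_not] at ha
          exact ha.2 ha.1
        simp only [hy]
        rw [if_neg]
        rintro ⟨h1, -⟩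
        simpa using h1 ha'
      · intro a ha
        simp only [Finset.mem_sdiff] at ha
        simp only [hy]
        rw [if_pos ⟨Finset.subset_erase.mpr ⟨h.1, ha.2⟩, h.2⟩]
    · refine Finset.sum_eq_zero fun a _ => ?_
      simp only [hy]
      rw [if_neg]
      rintro ⟨h1, h2⟩
      exact h ⟨h1.trans (Finset.erase_subset _ _), h2⟩
  refine ⟨y, fun τ hτ g k hk => ?_, ?_, ?_⟩
  · simp only [hy]
    by_cases h1 : σ ⊆ τ
    · have hk' : k ∈ H σ := hH h1 hk
      rw [← mul_assoc]
      by_cases h2 : (w * γ)⁻¹ * g ∈ H σ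
      · rw [if_pos ⟨h1, (H σ).mul_mem h2 hk'⟩, if_pos ⟨h1, h2⟩,
          hψ1 γ τ h1 (Finset.subset_univ _) (by rw [hτ]) _ h2 k hk]
      · rw [if_neg (fun h => h2 (((H σ).mul_mem_cancel_right hk').mp h.2)),
          if_neg (fun h => h2 h.2)]
    · rw [if_neg (fun h => h1 h.1), if_neg (fun h => h1 h.1)]
  · calc cnt' j y ≤ ∑ _τ ∈ powersetCard j (univ : Finset ι), Nat.card (H σ) := by
          refine Finset.sum_le_sum fun τ _ => ?_
          calc ∑ g, nz (y τ g) ≤ ∑ g, if (w * γ)⁻¹ * g ∈ H σ then 1 else 0 := by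
                refine Finset.sum_le_sum fun g _ => ?_
                split_ifs with h
                · exact nz_le_one _
                · simp only [hy]
                  rw [if_neg (fun h' => h h'.2)]; simp [nz]
            _ = _ := by
                rw [← Finset.sum_filter, sum_coset (H σ) (w * γ) (fun _ => 1), ← card_elts]
                simp
      _ ≤ _ := by
          rw [Finset.sum_const, smul_eq_mul]
          exact Nat.mul_le_mul_right _ (card_pc_le j)
  · have key : cnt' (j + 1) (x + dd ∅ y) +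
        ∑ τ ∈ upf σ (j + 1), ∑ h ∈ elts (H σ), nz (x τ (w * h)) = cnt' (j + 1) x +
        ∑ τ ∈ upf σ (j + 1), ∑ h ∈ elts (H σ), nz (x τ (w * γ * h) + dd σ (ψ γ) τ h) := by
      simp only [cnt', upf, Finset.sum_filter, ← Finset.sum_add_distrib]
      refine Finset.sum_congr rfl fun τ _ => ?_
      by_cases h1 : σ ⊆ τ
      · rw [if_pos h1, if_pos h1, ← sum_elts_mul_left hγ (fun h => nz (x τ (w * h)))]
        have := coset_split (H σ) (w * γ) (fun g => nz (x τ g)) (fun g => nz ((x + dd ∅ y) τ g))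
          (fun g hg => by rw [Pi.add_apply, Pi.add_apply, hdd, if_neg (fun h' => hg h'.2), add_zero])
        simp only [← mul_assoc]
        rw [this]
        congr 1
        refine Finset.sum_congr rfl fun h hh => ?_
        have : (w * γ)⁻¹ * (w * γ * h) = h := by group
        simp only [Pi.add_apply, hdd, this]
        rw [if_pos ⟨h1, mem_elts.mp hh⟩]
      · simp [h1, hdd]
    omega

theorem dd_cocyc {j : ℕ} {x : Finset ι → Γ → ZMod 2} (hc : IsCocyc univ ∅ (j + 1) x)
    {σ ρ : Finset ι} (hσ : σ ⊆ ρ) (hρ : ρ.card = j + 2) (g : Γ) :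
    dd σ x ρ g = ∑ b ∈ σ, x (ρ.erase b) g := by
  have h := congrFun (hc ρ (Finset.empty_subset _) (Finset.subset_univ _) hρ) g
  rw [dd_apply', Finset.sdiff_empty, ← Finset.sum_sdiff hσ] at h
  rw [dd_apply']
  have : ∀ a b : ZMod 2, a + b = 0 → a = b := by decide
  exact this _ _ h

set_option maxHeartbeats 1600000 in
theorem minimal_zero {H : Finset ι → Subgroup Γ} (hH : Antitone H) {j K : ℕ} {lam ε B : ℝ}
    (hS : Spec H lam) (hj : j + 2 ≤ Fintype.card ι) (hε0 : 0 < ε) (hε1 : ε ≤ 1) (hB1 : 1 ≤ B)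
    (hB : (K : ℝ) * 4 ^ Fintype.card ι * Fintype.card ι ≤ B)
    (hε : ε * (4 * Fintype.card ι * B ^ Fintype.card ι) ≤ 1)
    (hlam : Fintype.card ι * lam ^ 2 ≤ ε ^ (Fintype.card ι + 2))
    (x : Finset ι → Γ → ZMod 2)
    (hx : ∀ τ : Finset ι, τ.card = j + 1 → RInv (H τ) (x τ)) (hc : IsCocyc univ ∅ (j + 1) x)
    (hsmall : (cnt' (j + 1) x : ℝ) < ε ^ Fintype.card ι * Nat.card (H ∅))
    (hmin : ∀ σ : Finset ι, σ.Nonempty → σ.card ≤ j + 1 → ∀ w,
      ∑ τ ∈ upf σ (j + 1), ∑ h ∈ elts (H σ), nz (x τ (w * h)) ≤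
        K * ∑ ρ ∈ upf σ (j + 2), ∑ h ∈ elts (H σ), nz (dd σ x ρ (w * h))) :
    cnt' (j + 1) x = 0 := by
  classical
  set m := Fintype.card ι with hm
  set ind : Finset ι → Γ → ℝ := fun τ g => nz (x τ g) with hind
  have ind0 : ∀ τ g, 0 ≤ ind τ g := fun τ g => by simp only [hind]; positivity
  have ind1 : ∀ τ g, ind τ g ≤ 1 := fun τ g => by
    simp only [hind]; exact_mod_cast nz_le_one _
  have indinv : ∀ τ : Finset ι, τ.card = j + 1 → RInv (H τ) (ind τ) := fun τ hτ g k hk => by
    simp only [hind, hx τ hτ g k hk]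
  obtain ⟨n, hn⟩ : ∃ n : ℝ, n = (cnt' (j + 1) x : ℝ) := ⟨_, rfl⟩
  rw [← hn] at hsmall
  have hn' : n = ∑ τ ∈ powersetCard (j + 1) (univ : Finset ι), ∑ g, ind τ g := by
    simp [hn, cnt', hind]
  have n0 : 0 ≤ n := by rw [hn]; positivity
  have hup : ∀ σ, ∑ τ ∈ upf σ (j + 1), ∑ g, ind τ g ≤ n := fun σ => by
    rw [hn']
    exact Finset.sum_le_sum_of_subset_of_nonneg (Finset.filter_subset _ _)
      fun _ _ _ => Finset.sum_nonneg fun _ _ => ind0 _ _
  have hone : ∀ τ : Finset ι, τ.card = j + 1 → ∑ g, ind τ g ≤ n := fun τ hτ =>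
    (Finset.single_le_sum (f := fun τ => ∑ g, ind τ g)
      (fun _ _ => Finset.sum_nonneg fun _ _ => ind0 _ _)
      (mem_upf.mpr ⟨hτ, subset_rfl⟩)).trans (hup τ)
  have avg0 : ∀ (L : Subgroup Γ) (φ : Γ → ℝ), (∀ g, 0 ≤ φ g) → ∀ g, 0 ≤ avg L φ g :=
    fun L φ h g => div_nonneg (Finset.sum_nonneg fun _ _ => h _) (card_elts_pos' L).le
  set u : Finset ι → Γ → ℝ := fun σ w => ∑ τ ∈ upf σ (j + 1), avg (H σ) (ind τ) w with hu
  have u0 : ∀ σ w, 0 ≤ u σ w := fun σ w => Finset.sum_nonneg fun τ _ => avg0 _ _ (ind0 τ) w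
  set fat : Finset ι → Γ → ℝ := fun σ w => if ε ^ (j + 1 - σ.card) ≤ u σ w then 1 else 0
    with hfat
  have fat0 : ∀ σ w, 0 ≤ fat σ w := fun σ w => by simp only [hfat]; split_ifs <;> norm_num
  have fat1 : ∀ σ w, fat σ w ≤ 1 := fun σ w => by simp only [hfat]; split_ifs <;> norm_num
  have fatinv : ∀ σ, RInv (H σ) (fat σ) := fun σ g k hk => by
    simp only [hfat, hu, avg_rinv _ _ g k hk]
  have fatu : ∀ σ w, ε ^ (j + 1 - σ.card) * fat σ w ≤ u σ w := fun σ w => by
    simp only [hfat]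
    split_ifs with h
    · simpa using h
    · simpa using u0 σ w
  have fatsum : ∀ σ, ε ^ m * ∑ w, fat σ w ≤ n := fun σ => by
    calc ε ^ m * ∑ w, fat σ w ≤ ε ^ (j + 1 - σ.card) * ∑ w, fat σ w :=
          mul_le_mul_of_nonneg_right (pow_le_pow_of_le_one hε0.le hε1 (by omega))
            (Finset.sum_nonneg fun _ _ => fat0 _ _)
      _ ≤ ∑ w, u σ w := by
          rw [Finset.mul_sum]; exact Finset.sum_le_sum fun w _ => fatu σ w
      _ = ∑ τ ∈ upf σ (j + 1), ∑ g, ind τ g := by
          simp only [hu]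
          rw [Finset.sum_comm]
          exact Finset.sum_congr rfl fun τ _ => sum_avg _ _
      _ ≤ n := hup σ
  set F : ℕ → ℝ := fun l => ∑ σ ∈ powersetCard l (univ : Finset ι),
    ∑ τ ∈ upf σ (j + 1), ∑ w, fat σ w * ind τ w with hF
  have term0 : ∀ σ τ, 0 ≤ ∑ w, fat σ w * ind τ w := fun σ τ =>
    Finset.sum_nonneg fun _ _ => mul_nonneg (fat0 _ _) (ind0 _ _)
  have F0 : F 0 = 0 := by
    simp only [hF, Finset.powersetCard_zero, Finset.sum_singleton]
    refine Finset.sum_eq_zero fun τ _ => Finset.sum_eq_zero fun w _ => ?_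
    have hp := card_elts_pos' (H ∅)
    have h1 : u ∅ w ≤ n / (elts (H ∅)).card := by
      simp only [hu, avg, ← Finset.sum_div]
      refine div_le_div_of_nonneg_right (le_trans (Finset.sum_le_sum fun τ _ => ?_) (hup ∅)) hp.le
      calc ∑ h ∈ elts (H ∅), ind τ (w * h) ≤ ∑ h, ind τ (w * h) :=
            Finset.sum_le_sum_of_subset_of_nonneg (Finset.subset_univ _) fun _ _ _ => ind0 _ _
        _ = _ := Fintype.sum_equiv (Equiv.mulLeft w) _ _ fun _ => rfl
    have h2 : n / (elts (H ∅)).card < ε ^ m := by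
      rw [div_lt_iff₀ hp, card_elts]; exact hsmall
    have h3 : ε ^ m ≤ ε ^ (j + 1 - (∅ : Finset ι).card) :=
      pow_le_pow_of_le_one hε0.le hε1 (by simp; omega)
    simp only [hfat]
    rw [if_neg (by linarith), zero_mul]
  have Ftop : n ≤ F (j + 1) := by
    rw [hn']
    refine Finset.sum_le_sum fun τ hτ => ?_
    have hτ' : τ.card = j + 1 := (Finset.mem_powersetCard.mp hτ).2
    refine le_trans ?_ (Finset.single_le_sum (f := fun τ' => ∑ w, fat τ w * ind τ' w)
      (fun _ _ => term0 _ _) (mem_upf.mpr ⟨hτ', subset_rfl⟩))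
    refine Finset.sum_le_sum fun w _ => ?_
    by_cases h : x τ w = 0
    · simp [hind, nz, h]
    · have h1 : ind τ w = 1 := by simp [hind, nz, h]
      have h2 : ind τ w ≤ u τ w := by
        have := Finset.single_le_sum (f := fun τ' => avg (H τ) (ind τ') w)
          (fun τ' _ => avg0 _ _ (ind0 τ') w) (mem_upf.mpr ⟨hτ', subset_rfl⟩)
        rwa [avg_of_rinv (indinv τ hτ')] at this
      simp only [hfat]
      rw [if_pos (by rw [hτ']; simpa [h1] using h2), one_mul]
  have hterm : ∀ (σ' τ' : Finset ι) (b : ι), τ'.card = j + 1 → σ' ⊆ τ' → b ∉ τ' →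
      σ'.card ≤ j → ∑ w, fat (insert b σ') w * ind τ' w ≤ F σ'.card + 2 * ε * n := by
    intro σ' τ' b hτ' hστ hb hσ'
    have hbσ : b ∉ σ' := fun h => hb (hστ h)
    have h1 : ∑ w, fat σ' w * ind τ' w ≤ F σ'.card :=
      le_trans (Finset.single_le_sum (f := fun τ' => ∑ w, fat σ' w * ind τ' w)
        (fun _ _ => term0 _ _) (mem_upf.mpr ⟨hτ', hστ⟩))
        (Finset.single_le_sum (f := fun σ => ∑ τ ∈ upf σ (j + 1), ∑ w, fat σ w * ind τ w)
          (fun _ _ => Finset.sum_nonneg fun _ _ => term0 _ _)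
          (Finset.mem_powersetCard.mpr ⟨Finset.subset_univ _, rfl⟩))
    set nf : Γ → ℝ := fun w => 1 - fat σ' w with hnf
    have nf0 : ∀ w, 0 ≤ nf w := fun w => by simp only [hnf]; linarith [fat1 σ' w]
    have nf1 : ∀ w, nf w ≤ 1 := fun w => by simp only [hnf]; linarith [fat0 σ' w]
    have nfinv : RInv (H σ') nf := fun g k hk => by simp only [hnf, fatinv σ' g k hk]
    set φ : Γ → ℝ := fun w => nf w * fat (insert b σ') w with hφ
    set χ : Γ → ℝ := fun w => nf w * ind τ' w with hχ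
    have χ0 : ∀ w, 0 ≤ χ w := fun w => mul_nonneg (nf0 w) (ind0 _ _)
    have χ1 : ∀ w, χ w ≤ ind τ' w := fun w => mul_le_of_le_one_left (ind0 _ _) (nf1 w)
    have φinv : RInv (H (insert b σ')) φ := fun g k hk => by
      simp only [hφ, fatinv _ g k hk, nfinv g k (hH (Finset.subset_insert _ _) hk)]
    have χinv : RInv (H τ') χ := fun g k hk => by
      simp only [hχ, indinv τ' hτ' g k hk, nfinv g k (hH hστ hk)]
    have h2 : ∑ w, fat (insert b σ') w * ind τ' w ≤
        ∑ w, fat σ' w * ind τ' w + ∑ w, φ w * χ w := by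
      rw [← Finset.sum_add_distrib]
      refine Finset.sum_le_sum fun w _ => ?_
      have a0 := fat0 (insert b σ') w
      have a1 := fat1 (insert b σ') w
      have a2 := ind0 τ' w
      simp only [hφ, hχ, hnf]
      by_cases h : ε ^ (j + 1 - σ'.card) ≤ u σ' w
      · have : fat σ' w = 1 := by simp only [hfat]; rw [if_pos h]
        rw [this]; nlinarith
      · have : fat σ' w = 0 := by simp only [hfat]; rw [if_neg h]
        rw [this]; nlinarith
    have h3 : ∑ w, φ w * χ w = ∑ w, (avg (H τ') φ w - avg (H σ') φ w) * χ w +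
        ∑ w, avg (H σ') φ w * χ w := by
      have := sum_mul_avg (H τ') φ χ
      rw [avg_of_rinv χinv] at this
      rw [this, ← Finset.sum_add_distrib]
      exact Finset.sum_congr rfl fun w _ => by ring
    have h4 : ∀ w, avg (H σ') φ w ≤ ε := fun w => by
      rw [hφ, avg_mul_of_rinv nfinv]
      by_cases h : ε ^ (j + 1 - σ'.card) ≤ u σ' w
      · have : nf w = 0 := by simp only [hnf, hfat]; rw [if_pos h, sub_self]
        rw [this, zero_mul]; exact hε0.le
      · have e : nf w = 1 := by simp only [hnf, hfat]; rw [if_neg h, sub_zero]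
        rw [e, one_mul]
        have hp : 0 < ε ^ (j + 1 - (insert b σ').card) := by positivity
        refine le_of_mul_le_mul_left ?_ hp
        have a1 := avg_mul_of_rinv (K := H σ') (χ := fun _ => ε ^ (j + 1 - (insert b σ').card))
          (fun _ _ _ => rfl) (fat (insert b σ')) w
        rw [← a1]
        refine (avg_mono _ (fatu (insert b σ')) w).trans ?_
        have a2 : avg (H σ') (u (insert b σ')) w ≤ u σ' w := by
          simp only [hu]
          rw [avg_sum]
          simp only [avg_avg_of_le (hH (Finset.subset_insert b σ'))]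
          refine Finset.sum_le_sum_of_subset_of_nonneg (fun τ hτ => ?_)
            fun τ _ _ => avg0 _ _ (ind0 τ) w
          rw [mem_upf] at hτ ⊢
          exact ⟨hτ.1, (Finset.subset_insert _ _).trans hτ.2⟩
        rw [← pow_succ, Finset.card_insert_of_notMem hbσ,
          show j + 1 - (σ'.card + 1) + 1 = j + 1 - σ'.card by omega]
        linarith [not_le.mp h]
    have h5 : ∑ w, χ w ≤ n := (Finset.sum_le_sum fun w _ => χ1 w).trans (hone τ' hτ')
    have h6 : ∑ w, avg (H σ') φ w * χ w ≤ ε * n := by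
      calc _ ≤ ∑ w, ε * χ w :=
            Finset.sum_le_sum fun w _ => mul_le_mul_of_nonneg_right (h4 w) (χ0 w)
        _ ≤ ε * n := by rw [← Finset.mul_sum]; exact mul_le_mul_of_nonneg_left h5 hε0.le
    have h7 := hS.face hH hστ hb φinv
    have h8 : ε ^ m * ∑ w, φ w ^ 2 ≤ n := by
      refine le_trans (mul_le_mul_of_nonneg_left (Finset.sum_le_sum fun w _ => ?_)
        (by positivity)) (fatsum (insert b σ'))
      have a0 := fat0 (insert b σ') w
      have a1 := fat1 (insert b σ') w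
      have a2 := nf0 w
      have a3 := nf1 w
      have a4 : φ w ≤ fat (insert b σ') w := mul_le_of_le_one_left a0 a3
      have a5 : 0 ≤ φ w := mul_nonneg a2 a0
      nlinarith
    have h9 : ∑ w, (avg (H τ') φ w - avg (H σ') φ w) ^ 2 ≤ ε ^ 2 * n := by
      have a0 : 0 ≤ ∑ w, φ w ^ 2 := Finset.sum_nonneg fun _ _ => sq_nonneg _
      calc _ ≤ (m : ℝ) * lam ^ 2 * ∑ w, φ w ^ 2 := h7
        _ ≤ ε ^ (m + 2) * ∑ w, φ w ^ 2 := mul_le_mul_of_nonneg_right hlam a0
        _ = ε ^ 2 * (ε ^ m * ∑ w, φ w ^ 2) := by ring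
        _ ≤ _ := mul_le_mul_of_nonneg_left h8 (by positivity)
    have h10 : ∑ w, (avg (H τ') φ w - avg (H σ') φ w) * χ w ≤ ε * n := by
      refine le_of_mul_le_mul_left ?_ (show 0 < 2 * ε by positivity)
      calc 2 * ε * ∑ w, (avg (H τ') φ w - avg (H σ') φ w) * χ w
          ≤ ∑ w, ((avg (H τ') φ w - avg (H σ') φ w) ^ 2 + ε ^ 2 * χ w) := by
            rw [Finset.mul_sum]
            refine Finset.sum_le_sum fun w _ => ?_
            have a0 := χ0 w
            have a1 := (χ1 w).trans (ind1 τ' w)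
            have a2 : ε ^ 2 * χ w ^ 2 ≤ ε ^ 2 * χ w :=
              mul_le_mul_of_nonneg_left (by nlinarith) (by positivity)
            nlinarith [sq_nonneg (avg (H τ') φ w - avg (H σ') φ w - ε * χ w)]
        _ ≤ ε ^ 2 * n + ε ^ 2 * n := by
            rw [Finset.sum_add_distrib, ← Finset.mul_sum]
            exact add_le_add h9 (mul_le_mul_of_nonneg_left h5 (by positivity))
        _ = _ := by ring
    linarith
  have Fnn : ∀ l, 0 ≤ F l := fun l =>
    Finset.sum_nonneg fun _ _ => Finset.sum_nonneg fun _ _ => term0 _ _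
  have hrec : ∀ l ≤ j, F (l + 1) ≤ B * (F l + 2 * ε * n) := by
    intro l hl
    have hT : 0 ≤ F l + 2 * ε * n := by have := Fnn l; positivity
    have hσ : ∀ σ ∈ powersetCard (l + 1) (univ : Finset ι),
        ∑ τ ∈ upf σ (j + 1), ∑ w, fat σ w * ind τ w ≤
          K * (2 ^ m * (m * (F l + 2 * ε * n))) := by
      intro σ hσ
      have hσc : σ.card = l + 1 := (Finset.mem_powersetCard.mp hσ).2
      have hp := card_elts_pos' (H σ)
      have e1 : ∀ φ : Γ → ℝ, ∑ w, fat σ w * φ w = ∑ w, fat σ w * avg (H σ) φ w := fun φ => by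
        rw [sum_mul_avg, avg_of_rinv (fatinv σ)]
      calc ∑ τ ∈ upf σ (j + 1), ∑ w, fat σ w * ind τ w
          = ∑ w, fat σ w * ∑ τ ∈ upf σ (j + 1), avg (H σ) (ind τ) w := by
            simp only [e1 (ind _), Finset.mul_sum]
            rw [Finset.sum_comm]
        _ ≤ ∑ w, fat σ w * (K * ∑ ρ ∈ upf σ (j + 2),
              avg (H σ) (fun g => (nz (dd σ x ρ g) : ℝ)) w) := by
            refine Finset.sum_le_sum fun w _ => mul_le_mul_of_nonneg_left ?_ (fat0 _ _)
            simp only [avg, ← Finset.sum_div, ← mul_div_assoc]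
            refine div_le_div_of_nonneg_right ?_ hp.le
            have := hmin σ (Finset.card_pos.mp (by omega)) (by omega) w
            simp only [hind]
            exact_mod_cast this
        _ = K * ∑ ρ ∈ upf σ (j + 2), ∑ w, fat σ w * (nz (dd σ x ρ w) : ℝ) := by
            simp only [e1 (fun g => (nz (dd σ x _ g) : ℝ)), Finset.mul_sum]
            rw [Finset.sum_comm]
            exact Finset.sum_congr rfl fun _ _ => Finset.sum_congr rfl fun _ _ => by ring
        _ ≤ K * ∑ _ρ ∈ upf σ (j + 2), m * (F l + 2 * ε * n) := by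
            refine mul_le_mul_of_nonneg_left (Finset.sum_le_sum fun ρ hρ => ?_) (by positivity)
            rw [mem_upf] at hρ
            calc ∑ w, fat σ w * (nz (dd σ x ρ w) : ℝ)
                ≤ ∑ w, fat σ w * ∑ b ∈ σ, ind (ρ.erase b) w := by
                  refine Finset.sum_le_sum fun w _ => mul_le_mul_of_nonneg_left ?_ (fat0 _ _)
                  rw [dd_cocyc hc hρ.2 hρ.1]
                  simp only [hind]
                  exact_mod_cast nz_sum_le _ _
              _ = ∑ b ∈ σ, ∑ w, fat σ w * ind (ρ.erase b) w := by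
                  simp only [Finset.mul_sum]; rw [Finset.sum_comm]
              _ ≤ ∑ _b ∈ σ, (F l + 2 * ε * n) := by
                  refine Finset.sum_le_sum fun b hb => ?_
                  have hc' : (σ.erase b).card = l := by rw [Finset.card_erase_of_mem hb]; omega
                  have := hterm (σ.erase b) (ρ.erase b) b
                    (by rw [Finset.card_erase_of_mem (hρ.2 hb)]; omega)
                    (Finset.erase_subset_erase _ hρ.2) (by simp) (by omega)
                  rwa [Finset.insert_erase hb, hc'] at this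
              _ ≤ _ := by
                  rw [Finset.sum_const, nsmul_eq_mul]
                  exact mul_le_mul_of_nonneg_right (by exact_mod_cast Finset.card_le_univ σ) hT
        _ ≤ _ := by
            rw [Finset.sum_const, nsmul_eq_mul]
            refine mul_le_mul_of_nonneg_left (mul_le_mul_of_nonneg_right ?_ (by positivity))
              (by positivity)
            exact_mod_cast card_upf_le σ (j + 2)
    calc F (l + 1) ≤ ∑ _σ ∈ powersetCard (l + 1) (univ : Finset ι),
          K * (2 ^ m * (m * (F l + 2 * ε * n))) := Finset.sum_le_sum hσ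
      _ ≤ 2 ^ m * (K * (2 ^ m * (m * (F l + 2 * ε * n)))) := by
          rw [Finset.sum_const, nsmul_eq_mul]
          refine mul_le_mul_of_nonneg_right ?_ (by positivity)
          exact_mod_cast card_pc_le (l + 1)
      _ = (K * 4 ^ m * m) * (F l + 2 * ε * n) := by
          rw [show (4 : ℝ) = 2 * 2 by norm_num, mul_pow]; ring
      _ ≤ _ := mul_le_mul_of_nonneg_right hB hT
  have hind2 : ∀ l ≤ j + 1, F l ≤ 2 * ε * n * (l * B ^ l) := by
    intro l
    induction l with
    | zero => simp [F0]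
    | succ l ih =>
      intro hl
      have h1 := hrec l (by omega)
      have h2 := ih (by omega)
      have h3 : (1 : ℝ) ≤ B ^ l := one_le_pow₀ hB1
      have h4 : 0 ≤ 2 * ε * n := by positivity
      calc F (l + 1) ≤ B * (2 * ε * n * (l * B ^ l) + 2 * ε * n * B ^ l) := by
            refine h1.trans (mul_le_mul_of_nonneg_left (add_le_add h2 ?_) (by linarith))
            exact le_mul_of_one_le_right h4 h3
        _ = _ := by push_cast; ring
  have h1 := Ftop.trans (hind2 (j + 1) le_rfl)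
  have h2 : ((j + 1 : ℕ) : ℝ) * B ^ (j + 1) ≤ m * B ^ m :=
    mul_le_mul (by exact_mod_cast (by omega : j + 1 ≤ m)) (pow_le_pow_right₀ hB1 (by omega))
      (by positivity) (by positivity)
  have h3 : 2 * ε * n * (((j + 1 : ℕ) : ℝ) * B ^ (j + 1)) ≤ n / 2 := by
    calc _ ≤ 2 * ε * n * (m * B ^ m) := mul_le_mul_of_nonneg_left h2 (by positivity)
      _ = n / 2 * (ε * (4 * m * B ^ m)) := by ring
      _ ≤ n / 2 := mul_le_of_le_one_right (by positivity) hε
  have h4 : n = 0 := by linarith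
  rw [hn] at h4
  exact_mod_cast h4

end Vale.Agent.P067
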