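import Vale.Agent.P067.Spec
import Vale.Agent.P067.Cone
import Vale.Agent.P067.L2G1

/-! Local to global: small cocycles are coboundaries of small cochains. -/

namespace Vale.Agent.P067

open Finset

variable {Γ : Type} [Group Γ] [Fintype Γ] {ι : Type} [Fintype ι] [DecidableEq ι]

/-- The total support size of a cochain at spot `j`. -/
def cnt (j : ℕ) (x : Finset ι → Γ → ZMod 2) : ℕ :=
  ∑ τ ∈ powersetCard j (univ : Finset ι), (univ.filter (fun g => x τ g ≠ 0)).card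

/-- Invariance of a cochain at spot `j`. -/
def Inv (H : Finset ι → Subgroup Γ) (j : ℕ) (x : Finset ι → Γ → ZMod 2) : Prop :=
  ∀ τ : Finset ι, τ.card = j → RInv (H τ) (x τ)

/-- Small cocycles at spot `j + 1` are coboundaries of small cochains. -/
def SmallFill (H : Finset ι → Subgroup Γ) (j : ℕ) (θ : ℝ) (C : ℕ) : Prop :=
  ∀ x : Finset ι → Γ → ZMod 2, Inv H (j + 1) x → IsCocyc univ ∅ (j + 1) x →
    (cnt (j + 1) x : ℝ) < θ * Nat.card (H ∅) →
    ∃ y : Finset ι → Γ → ZMod 2, Inv H j y ∧ cnt j y ≤ C * cnt (j + 1) x ∧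
      ∀ τ : Finset ι, τ.card = j + 1 → x τ = dd ∅ y τ

theorem cnt_eq (j : ℕ) (x : Finset ι → Γ → ZMod 2) : cnt j x = cnt' j x := by
  simp only [cnt, cnt', nz, Finset.card_filter]

theorem cnt'_add_le (j : ℕ) (x y : Finset ι → Γ → ZMod 2) :
    cnt' j (x + y) ≤ cnt' j x + cnt' j y := by
  simp only [cnt', ← Finset.sum_add_distrib]
  refine Finset.sum_le_sum fun τ _ => Finset.sum_le_sum fun g _ => ?_
  have : ∀ a b : ZMod 2, nz (a + b) ≤ nz a + nz b := by decide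
  exact this _ _

theorem local_to_global (m R : ℕ) : ∃ (N : ℕ) (θ : ℝ), 1 ≤ N ∧ 0 < θ ∧
    ∀ (Γ : Type) [Group Γ] [Fintype Γ] (ι : Type) [Fintype ι] [DecidableEq ι],
      Fintype.card ι = m → ∀ H : Finset ι → Subgroup Γ, Antitone H → Spec H (1 / (N : ℝ)) →
      ∀ hmax : ℕ, (∀ σ : Finset ι, σ.Nonempty → Nat.card (H σ) ≤ hmax) →
      ∀ j : ℕ, j + 2 ≤ m →
      (∀ σ : Finset ι, σ.Nonempty → σ.card ≤ j + 1 → HasCone H univ σ (j + 1) R) →
      SmallFill H j θ (2 ^ m * hmax) := by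
  obtain ⟨B, hB1, hB⟩ : ∃ B : ℝ, 1 ≤ B ∧ ((2 ^ m * R : ℕ) : ℝ) * 4 ^ m * m ≤ B :=
    ⟨_, le_max_left _ _, le_max_right _ _⟩
  obtain ⟨ε, hε0, hε1, hε⟩ : ∃ ε : ℝ, 0 < ε ∧ ε ≤ 1 ∧ ε * (4 * m * B ^ m) ≤ 1 := by
    have : (0 : ℝ) ≤ 4 * m * B ^ m := by positivity
    refine ⟨1 / (4 * m * B ^ m + 1), by positivity, ?_, ?_⟩
    · rw [div_le_one (by positivity)]; linarith
    · rw [div_mul_eq_mul_div, div_le_one (by positivity)]; linarith
  obtain ⟨N, hN⟩ := exists_nat_ge (m / ε ^ (m + 2) + 1)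
  have hq : (0 : ℝ) ≤ m / ε ^ (m + 2) := by positivity
  have hN1 : (1 : ℝ) ≤ N := by linarith
  have hlam : (m : ℝ) * (1 / (N : ℝ)) ^ 2 ≤ ε ^ (m + 2) := by
    have h1 : (m : ℝ) ≤ N * ε ^ (m + 2) := by
      rw [← div_le_iff₀ (by positivity)]; linarith
    rw [one_div, inv_pow, ← div_eq_mul_inv, div_le_iff₀ (by positivity)]
    have : (0 : ℝ) < ε ^ (m + 2) := by positivity
    nlinarith [mul_le_mul_of_nonneg_left hN1 (show (0 : ℝ) ≤ N * ε ^ (m + 2) by positivity)]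
  refine ⟨N, ε ^ m, by exact_mod_cast hN1, by positivity, ?_⟩
  intro Γ _ _ ι _ _ hm H hH hS hmax hhmax j hj hcone
  subst hm
  have key : ∀ n : ℕ, ∀ x : Finset ι → Γ → ZMod 2, cnt' (j + 1) x = n → Inv H (j + 1) x →
      IsCocyc univ ∅ (j + 1) x → (n : ℝ) < ε ^ Fintype.card ι * Nat.card (H ∅) →
      ∃ y : Finset ι → Γ → ZMod 2, Inv H j y ∧ cnt' j y ≤ 2 ^ Fintype.card ι * hmax * n ∧
        ∀ τ : Finset ι, τ.card = j + 1 → x τ = dd ∅ y τ := by
    intro n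
    induction n using Nat.strong_induction_on with
    | _ n ih =>
    intro x hn hx hc hsmall
    by_cases hmin : ∀ σ : Finset ι, σ.Nonempty → σ.card ≤ j + 1 → ∀ w,
        ∑ τ ∈ upf σ (j + 1), ∑ h ∈ elts (H σ), nz (x τ (w * h)) ≤
          2 ^ Fintype.card ι * R *
            ∑ ρ ∈ upf σ (j + 2), ∑ h ∈ elts (H σ), nz (dd σ x ρ (w * h))
    · have h0 := minimal_zero hH hS hj hε0 hε1 hB1 hB hε hlam x hx hc (by rw [hn]; exact hsmall)
        hmin
      refine ⟨0, fun _ _ _ _ _ => rfl, by simp [cnt', nz], fun τ hτ => ?_⟩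
      funext g
      have h1 := (Finset.sum_eq_zero_iff.mp ((Finset.sum_eq_zero_iff.mp h0) τ
        (Finset.mem_powersetCard.mpr ⟨Finset.subset_univ _, hτ⟩))) g (Finset.mem_univ _)
      have h2 : x τ g = 0 := by simpa [nz] using h1
      simp [h2, dd_apply']
    · push Not at hmin
      obtain ⟨σ, hσ1, hσ2, w, hlt⟩ := hmin
      obtain ⟨y0, hy1, hy2, hy3⟩ := improve hH (hcone σ hσ1 hσ2) x hx w hlt
      rw [hn] at hy3
      have hinv : Inv H (j + 1) (x + dd ∅ y0) := fun τ hτ g k hk => by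
        simp only [Pi.add_apply, hx τ hτ g k hk, dd_apply', Finset.sdiff_empty]
        congr 1
        refine Finset.sum_congr rfl fun b hb => ?_
        exact hy1 _ (by rw [Finset.card_erase_of_mem hb]; omega) g k
          (hH (Finset.erase_subset _ _) hk)
      have hcoc : IsCocyc univ ∅ (j + 1) (x + dd ∅ y0) := fun ρ h1 h2 h3 => by
        rw [dd_add, hc ρ h1 h2 h3, dd_dd, add_zero]
      have hlt' : ((cnt' (j + 1) (x + dd ∅ y0) : ℕ) : ℝ) < n := by exact_mod_cast hy3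
      obtain ⟨y, hy4, hy5, hy6⟩ := ih _ hy3 _ rfl hinv hcoc (hlt'.trans hsmall)
      refine ⟨y + y0, fun τ hτ g k hk => ?_, ?_, fun τ hτ => ?_⟩
      · simp only [Pi.add_apply, hy4 τ hτ g k hk, hy1 τ hτ g k hk]
      · have h1 := cnt'_add_le j y y0
        have h2 := Nat.mul_le_mul_left (2 ^ Fintype.card ι) (hhmax σ hσ1)
        have h3 := Nat.mul_le_mul_left (2 ^ Fintype.card ι * hmax) (Nat.succ_le_of_lt hy3)
        rw [Nat.mul_succ] at h3
        omega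
      · rw [dd_add, ← hy6 τ hτ, Pi.add_apply, add_assoc, add_self_two, add_zero]
  intro x hx hc hsmall
  rw [cnt_eq] at hsmall
  simpa only [cnt_eq] using key _ x rfl hx hc hsmall

end Vale.Agent.P067
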