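import Vale.Agent.P067.Defs
import Vale.Agent.P067.L2G

/-! From a system of subgroups to a bounded-degree coboundary expander. -/

set_option linter.unusedSectionVars false
set_option linter.unusedVariables false

namespace Vale.Agent.P067

open Finset

theorem asm_mem_facesOf {V : Type} [Fintype V] [DecidableEq V]
    {X : AbstractSimplicialComplex V} {i : ℕ} {σ : Finset V} :
    σ ∈ facesOf X i ↔ σ ∈ X.faces ∧ σ.card = i + 1 := by
  simp [facesOf]

theorem asm_cofaces_le {V : Type} [Fintype V] [DecidableEq V]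
    (X : AbstractSimplicialComplex V) (d : ℕ) {σ : Finset V} (hσ : σ.Nonempty) :
    cofaces X d σ ≤ degree X d := by
  obtain ⟨v, hv⟩ := hσ
  refine le_trans ?_ (Finset.le_sup (f := fun v : V => cofaces X d {v}) (Finset.mem_univ v))
  unfold cofaces
  refine Finset.card_le_card (fun τ hτ => ?_)
  rw [Finset.mem_filter] at hτ ⊢
  exact ⟨hτ.1, (Finset.singleton_subset_iff.mpr hv).trans hτ.2⟩

theorem asm_cnorm_nonneg {V : Type} [Fintype V] [DecidableEq V]
    (X : AbstractSimplicialComplex V) (d i : ℕ) (f : Cochain X i) : 0 ≤ cnorm X d i f := by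
  unfold cnorm weight
  exact Finset.sum_nonneg (fun _ _ => by positivity)

/-- Unnormalised expansion of a pure bounded-degree complex gives weighted expansion. -/
theorem isCoboundaryExpander_of_count {V : Type} [Fintype V] [DecidableEq V]
    (X : AbstractSimplicialComplex V) (d D : ℕ) (C : ℝ) (hC : 0 < C) (hD : 0 < D)
    (hpure : IsPure X d) (hdeg : degree X d ≤ D)
    (h : ∀ i < d, ∀ f : Cochain X i, ∃ b ∈ coboundaries X i,
      ((univ.filter (fun σ => (f - b) σ ≠ 0)).card : ℝ) ≤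
        C * (univ.filter (fun τ => cobdry X i f τ ≠ 0)).card) :
    IsCoboundaryExpander X d (1 / (C * D * 2 ^ (d + 1))) := by
  intro i hi f
  obtain ⟨b, hb, hle⟩ := h i hi f
  set N : ℝ := ((facesOf X d).card : ℝ) with hN
  have hN0 : 0 ≤ N⁻¹ := by positivity
  have hD' : (0 : ℝ) < D := by exact_mod_cast hD
  have h1 : cdist X d i f (coboundaries X i) ≤ cnorm X d i (f - b) := by
    unfold cdist
    refine csInf_le ⟨0, ?_⟩ ⟨b, hb, rfl⟩
    rintro _ ⟨a, _, rfl⟩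
    exact asm_cnorm_nonneg X d i _
  have h2 : cnorm X d i (f - b) ≤
      ((univ.filter (fun σ => (f - b) σ ≠ 0)).card : ℝ) * (D * N⁻¹) := by
    unfold cnorm
    rw [← nsmul_eq_mul]
    refine Finset.sum_le_card_nsmul _ _ _ (fun σ _ => ?_)
    unfold weight
    have hc : (1 : ℝ) ≤ ((d + 1).choose (i + 1) : ℝ) := by
      exact_mod_cast Nat.choose_pos (by omega)
    have hσ : σ.1.Nonempty := Finset.card_pos.mp (by rw [(asm_mem_facesOf.mp σ.2).2]; omega)
    have hcf : (cofaces X d σ.1 : ℝ) ≤ D := by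
      exact_mod_cast (asm_cofaces_le X d hσ).trans hdeg
    rw [div_eq_mul_inv, mul_inv, ← mul_assoc]
    refine mul_le_mul_of_nonneg_right ?_ hN0
    calc (cofaces X d σ.1 : ℝ) * (((d + 1).choose (i + 1) : ℝ))⁻¹ ≤ (cofaces X d σ.1 : ℝ) * 1 :=
          mul_le_mul_of_nonneg_left (inv_le_one_of_one_le₀ hc) (by positivity)
      _ ≤ D := by rw [mul_one]; exact hcf
  have h3 : ((univ.filter (fun τ => cobdry X i f τ ≠ 0)).card : ℝ) * ((2 ^ (d + 1))⁻¹ * N⁻¹) ≤
      cnorm X d (i + 1) (cobdry X i f) := by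
    unfold cnorm
    rw [← nsmul_eq_mul]
    refine Finset.card_nsmul_le_sum _ _ _ (fun σ _ => ?_)
    unfold weight
    have hc0 : (0 : ℝ) < ((d + 1).choose (i + 1 + 1) : ℝ) := by
      exact_mod_cast Nat.choose_pos (by omega)
    have hc : ((d + 1).choose (i + 1 + 1) : ℝ) ≤ 2 ^ (d + 1) := by
      exact_mod_cast Nat.choose_le_two_pow (d + 1) (i + 1 + 1)
    have hcf : (1 : ℝ) ≤ (cofaces X d σ.1 : ℝ) := by
      obtain ⟨τ, hτ, hs⟩ := hpure σ.1 (asm_mem_facesOf.mp σ.2).1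
      have : 0 < cofaces X d σ.1 := Finset.card_pos.mpr ⟨τ, Finset.mem_filter.mpr ⟨hτ, hs⟩⟩
      exact_mod_cast this
    rw [div_eq_mul_inv, mul_inv, ← mul_assoc]
    refine mul_le_mul_of_nonneg_right ?_ hN0
    calc ((2 : ℝ) ^ (d + 1))⁻¹ ≤ (((d + 1).choose (i + 1 + 1) : ℝ))⁻¹ := inv_anti₀ hc0 hc
      _ = 1 * (((d + 1).choose (i + 1 + 1) : ℝ))⁻¹ := (one_mul _).symm
      _ ≤ _ := mul_le_mul_of_nonneg_right hcf (by positivity)
  refine le_trans ?_ h3
  have h4 : cdist X d i f (coboundaries X i) ≤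
      C * ((univ.filter (fun τ => cobdry X i f τ ≠ 0)).card : ℝ) * (D * N⁻¹) :=
    h1.trans (h2.trans (mul_le_mul_of_nonneg_right hle (by positivity)))
  refine (mul_le_mul_of_nonneg_left h4 (by positivity)).trans (le_of_eq ?_)
  field_simp

section Coset

variable {Γ : Type} [Group Γ] [Fintype Γ] {ι : Type} [Fintype ι] [DecidableEq ι]
  {V : Type} [Fintype V] [DecidableEq V]

/-- The data of a coset complex with vertex set `V`. -/
structure CosetData (H : Finset ι → Subgroup Γ) (vtx : ι → Γ → V) : Prop where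
  anti : Antitone H
  inter : ∀ τ : Finset ι, τ.Nonempty → ∀ g, (∀ a ∈ τ, g ∈ H {a}) → g ∈ H τ
  eq_iff : ∀ a b g g', g ∈ H ∅ → g' ∈ H ∅ → (vtx a g = vtx b g' ↔ a = b ∧ g⁻¹ * g' ∈ H {a})
  surj : ∀ v, ∃ a g, g ∈ H ∅ ∧ vtx a g = v

/-- The face of type `τ` at the group element `g`. -/
def cface (vtx : ι → Γ → V) (τ : Finset ι) (g : Γ) : Finset V := τ.image (fun a => vtx a g)

/-- The coset complex, truncated at dimension `d`. -/
def cosetCx {H : Finset ι → Subgroup Γ} {vtx : ι → Γ → V} (hv : CosetData H vtx) (d : ℕ) :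
    AbstractSimplicialComplex V where
  faces := {σ | ∃ τ : Finset ι, ∃ g, τ.Nonempty ∧ τ.card ≤ d + 1 ∧ g ∈ H ∅ ∧ σ = cface vtx τ g}
  isRelLowerSet_faces := by
    rintro σ ⟨τ, g, h1, h2, h3, rfl⟩
    refine ⟨Finset.image_nonempty.mpr h1, fun s hs hne => ?_⟩
    obtain ⟨τ', hτ', rfl⟩ := Finset.subset_image_iff.mp hs
    exact ⟨τ', g, Finset.image_nonempty.mp hne, (Finset.card_le_card hτ').trans h2, h3, rfl⟩
  singleton_mem := by
    intro v
    obtain ⟨a, g, hg, rfl⟩ := hv.surj v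
    exact ⟨{a}, g, Finset.singleton_nonempty a, by simp, hg, by simp [cface]⟩

variable {H : Finset ι → Subgroup Γ} {vtx : ι → Γ → V}

theorem CosetData.le_top (hv : CosetData H vtx) (τ : Finset ι) : H τ ≤ H ∅ :=
  hv.anti (Finset.empty_subset τ)

theorem CosetData.inj (hv : CosetData H vtx) {g : Γ} (hg : g ∈ H ∅) :
    Function.Injective (fun a => vtx a g) :=
  fun a b h => ((hv.eq_iff a b g g hg hg).mp h).1

theorem CosetData.card_cface (hv : CosetData H vtx) (τ : Finset ι) {g : Γ} (hg : g ∈ H ∅) :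
    (cface vtx τ g).card = τ.card :=
  Finset.card_image_of_injective _ (hv.inj hg)

theorem CosetData.cface_mul (hv : CosetData H vtx) {τ : Finset ι} {g h : Γ} (hg : g ∈ H ∅)
    (hh : h ∈ H τ) : cface vtx τ (g * h) = cface vtx τ g := by
  unfold cface
  refine Finset.image_congr (fun a ha => ?_)
  have ha' : h ∈ H {a} := hv.anti (Finset.singleton_subset_iff.mpr ha) hh
  exact ((hv.eq_iff a a g (g * h) hg ((H ∅).mul_mem hg (hv.le_top τ hh))).mpr
    ⟨rfl, by simpa using ha'⟩).symm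

theorem CosetData.of_cface_subset (hv : CosetData H vtx) {τ τ' : Finset ι} {g g' : Γ}
    (hg : g ∈ H ∅) (hg' : g' ∈ H ∅) (h : cface vtx τ g ⊆ cface vtx τ' g') :
    ∀ a ∈ τ, a ∈ τ' ∧ g⁻¹ * g' ∈ H {a} := by
  intro a ha
  obtain ⟨b, hb, hab⟩ := Finset.mem_image.mp (h (Finset.mem_image_of_mem _ ha))
  obtain ⟨rfl, h2⟩ := (hv.eq_iff a b g g' hg hg').mp hab.symm
  exact ⟨hb, h2⟩

theorem CosetData.of_cface_eq (hv : CosetData H vtx) {τ τ' : Finset ι} {g g' : Γ}
    (hτ : τ.Nonempty) (hg : g ∈ H ∅) (hg' : g' ∈ H ∅) (h : cface vtx τ g = cface vtx τ' g') :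
    τ = τ' ∧ g⁻¹ * g' ∈ H τ := by
  have h1 := hv.of_cface_subset hg hg' h.subset
  have h2 := hv.of_cface_subset hg' hg h.symm.subset
  exact ⟨Finset.Subset.antisymm (fun a ha => (h1 a ha).1) (fun a ha => (h2 a ha).1),
    hv.inter τ hτ _ (fun a ha => (h1 a ha).2)⟩

theorem CosetData.mem_facesOf (hv : CosetData H vtx) {d i : ℕ} (hi : i ≤ d) {σ : Finset V} :
    σ ∈ facesOf (cosetCx hv d) i ↔
      ∃ τ : Finset ι, ∃ g, τ.card = i + 1 ∧ g ∈ H ∅ ∧ σ = cface vtx τ g := by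
  rw [asm_mem_facesOf]
  constructor
  · rintro ⟨⟨τ, g, h1, h2, h3, rfl⟩, h4⟩
    exact ⟨τ, g, by rw [← h4, hv.card_cface τ h3], h3, rfl⟩
  · rintro ⟨τ, g, h1, h2, rfl⟩
    exact ⟨⟨τ, g, Finset.card_pos.mp (by omega), by omega, h2, rfl⟩,
      by rw [hv.card_cface τ h2, h1]⟩

theorem CosetData.pure (hv : CosetData H vtx) {d : ℕ} (hd : d + 1 ≤ Fintype.card ι) :
    IsPure (cosetCx hv d) d := by
  rintro σ ⟨τ, g, h1, h2, h3, rfl⟩
  obtain ⟨τ', k1, k2⟩ := Finset.exists_superset_card_eq (s := τ) h2 hd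
  exact ⟨cface vtx τ' g, (hv.mem_facesOf le_rfl).mpr ⟨τ', g, k2, h3, rfl⟩,
    Finset.image_subset_image k1⟩

theorem CosetData.degree_le (hv : CosetData H vtx) (d : ℕ) {hmax : ℕ}
    (hH : ∀ σ : Finset ι, σ.Nonempty → Nat.card (H σ) ≤ hmax) :
    degree (cosetCx hv d) d ≤ 2 ^ Fintype.card ι * hmax := by
  refine Finset.sup_le (fun v _ => ?_)
  obtain ⟨a, g, hg, rfl⟩ := hv.surj v
  unfold cofaces
  have hsub : (facesOf (cosetCx hv d) d).filter (fun τ => {vtx a g} ⊆ τ) ⊆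
      ((univ : Finset (Finset ι)) ×ˢ elts (H {a})).image (fun p => cface vtx p.1 (g * p.2)) := by
    intro σ hσ
    obtain ⟨h1, h2⟩ := Finset.mem_filter.mp hσ
    obtain ⟨τ, g', _, hg', rfl⟩ := (hv.mem_facesOf le_rfl).mp h1
    have h3 : cface vtx {a} g ⊆ cface vtx τ g' := by simpa [cface] using h2
    have h4 := (hv.of_cface_subset hg hg' h3 a (Finset.mem_singleton_self a)).2
    exact Finset.mem_image.mpr ⟨(τ, g⁻¹ * g'), by simpa using h4, by simp⟩
  refine (Finset.card_le_card hsub).trans (Finset.card_image_le.trans ?_)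
  rw [Finset.card_product, Finset.card_univ, Fintype.card_finset, card_elts]
  exact Nat.mul_le_mul_left _ (hH _ (Finset.singleton_nonempty a))

theorem CosetData.conn (hv : CosetData H vtx) {d : ℕ} (hd : 1 ≤ d) {a b : ι}
    (hab : H ∅ ≤ H {a} ⊔ H {b}) : IsConn (cosetCx hv d) := by
  unfold IsConn
  set Gr := SimpleGraph.fromRel (fun u v : V => ({u, v} : Finset V) ∈ (cosetCx hv d).faces)
    with hGr
  have h1 : ∀ g ∈ H ∅, ∀ c e : ι, Gr.Reachable (vtx c g) (vtx e g) := by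
    intro g hg c e
    by_cases hce : vtx c g = vtx e g
    · rw [hce]
    · refine SimpleGraph.Adj.reachable ?_
      rw [hGr, SimpleGraph.fromRel_adj]
      refine ⟨hce, Or.inl ⟨{c, e}, g, Finset.insert_nonempty _ _, ?_, hg, by simp [cface]⟩⟩
      exact Finset.card_le_two.trans (by omega)
  let K : Subgroup Γ :=
    { carrier := {h | h ∈ H ∅ ∧ ∀ g ∈ H ∅, Gr.Reachable (vtx a g) (vtx a (g * h))}
      one_mem' := ⟨(H ∅).one_mem, fun g _ => by rw [mul_one]⟩
      mul_mem' := fun {x y} hx hy => ⟨(H ∅).mul_mem hx.1 hy.1, fun g hg => by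
        rw [← mul_assoc]
        exact (hx.2 g hg).trans (hy.2 _ ((H ∅).mul_mem hg hx.1))⟩
      inv_mem' := fun {x} hx => ⟨(H ∅).inv_mem hx.1, fun g hg => by
        have := hx.2 (g * x⁻¹) ((H ∅).mul_mem hg ((H ∅).inv_mem hx.1))
        rw [inv_mul_cancel_right] at this
        exact this.symm⟩ }
  have h2 : ∀ c : ι, H {c} ≤ K := by
    intro c h hh
    have hh' : h ∈ H ∅ := hv.le_top _ hh
    refine ⟨hh', fun g hg => ?_⟩
    have e : vtx c g = vtx c (g * h) :=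
      (hv.eq_iff c c g (g * h) hg ((H ∅).mul_mem hg hh')).mpr ⟨rfl, by simpa using hh⟩
    exact (h1 g hg a c).trans (e ▸ h1 (g * h) ((H ∅).mul_mem hg hh') c a)
  have h3 : H ∅ ≤ K := hab.trans (sup_le (h2 a) (h2 b))
  have h4 : ∀ v, Gr.Reachable (vtx a 1) v := by
    intro v
    obtain ⟨c, g, hg, rfl⟩ := hv.surj v
    have := (h3 hg).2 1 (H ∅).one_mem
    rw [one_mul] at this
    exact this.trans (h1 g hg a c)
  have : Nonempty V := ⟨vtx a 1⟩
  exact ⟨fun u v => (h4 u).symm.trans (h4 v)⟩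

theorem CosetData.card_le (hv : CosetData H vtx) (a : ι) {hmax : ℕ}
    (hH : ∀ σ : Finset ι, σ.Nonempty → Nat.card (H σ) ≤ hmax) :
    Nat.card (H ∅) ≤ hmax * Fintype.card V := by
  classical
  rw [← card_elts]
  refine (Finset.card_le_mul_card_image (f := fun g => vtx a g) _ hmax (fun v hv' => ?_)).trans
    (Nat.mul_le_mul_left _ (Finset.card_le_univ _))
  obtain ⟨g, hg, rfl⟩ := Finset.mem_image.mp hv'
  rw [mem_elts] at hg
  refine le_trans ?_ (hH {a} (Finset.singleton_nonempty a))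
  rw [← card_elts]
  refine Finset.card_le_card_of_injOn (fun g' => g⁻¹ * g') (fun g' hg' => ?_) ?_
  · obtain ⟨k1, k2⟩ := Finset.mem_filter.mp hg'
    rw [mem_elts] at k1
    exact mem_elts.mpr ((hv.eq_iff a a g g' hg k1).mp k2.symm).2
  · intro x _ y _ hxy
    exact mul_left_cancel hxy

/-- The coboundary, computed on a face of the coset complex. -/
theorem CosetData.sum_subfaces (hv : CosetData H vtx) {d i : ℕ} (hi : i ≤ d)
    (F : Finset V → ZMod 2) {ρ : Finset ι} (hρ : ρ.card = i + 2) {g : Γ} (hg : g ∈ H ∅) :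
    ∑ σ ∈ univ.filter (fun σ : {σ : Finset V // σ ∈ facesOf (cosetCx hv d) i} =>
        σ.1 ⊆ cface vtx ρ g), F σ.1 = ∑ b ∈ ρ, F (cface vtx (ρ.erase b) g) := by
  symm
  refine Finset.sum_bij (fun b hb => ⟨cface vtx (ρ.erase b) g, (hv.mem_facesOf hi).mpr
    ⟨ρ.erase b, g, by rw [Finset.card_erase_of_mem hb]; omega, hg, rfl⟩⟩) ?_ ?_ ?_ ?_
  · intro b hb
    exact Finset.mem_filter.mpr ⟨Finset.mem_univ _,
      Finset.image_subset_image (Finset.erase_subset _ _)⟩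
  · intro b hb c hc h
    have h1 : cface vtx (ρ.erase b) g = cface vtx (ρ.erase c) g := congrArg Subtype.val h
    have h2 : ρ.erase b = ρ.erase c := Finset.image_injective (hv.inj hg) h1
    exact (Finset.erase_inj ρ hb).mp h2
  · rintro ⟨σ, hσ⟩ h
    have h1 : σ ⊆ cface vtx ρ g := (Finset.mem_filter.mp h).2
    obtain ⟨τ, hτ, rfl⟩ := Finset.subset_image_iff.mp h1
    have h2 : τ.card = i + 1 := by
      rw [← hv.card_cface τ hg]
      exact (asm_mem_facesOf.mp hσ).2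
    obtain ⟨b, hb, hbe⟩ : ∃ b ∈ ρ, τ = ρ.erase b := by
      obtain ⟨b, hb1, hb2⟩ := Finset.exists_mem_notMem_of_card_lt_card (s := τ) (t := ρ) (by omega)
      refine ⟨b, hb1, Finset.eq_of_subset_of_card_le (fun c hc => Finset.mem_erase.mpr
        ⟨fun h => hb2 (h ▸ hc), hτ hc⟩) ?_⟩
      rw [Finset.card_erase_of_mem hb1]; omega
    exact ⟨b, hb, Subtype.ext (by simp only [hbe]; rfl)⟩
  · intro b hb
    rfl

theorem asm_cnt_eq (j : ℕ) (x : Finset ι → Γ → ZMod 2) :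
    cnt j x = (univ.filter (fun p : Finset ι × Γ => p.1.card = j ∧ x p.1 p.2 ≠ 0)).card := by
  unfold cnt
  rw [Finset.card_eq_sum_card_fiberwise (f := fun p : Finset ι × Γ => p.1)
    (t := powersetCard j (univ : Finset ι))]
  · refine Finset.sum_congr rfl (fun τ hτ => ?_)
    have hτ' : τ.card = j := (Finset.mem_powersetCard.mp hτ).2
    refine Finset.card_bij (fun g _ => (τ, g)) ?_ ?_ ?_
    · intro g hg
      simpa [hτ'] using hg
    · intro g _ g' _ h
      exact congrArg Prod.snd h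
    · rintro ⟨τ', g⟩ hp
      simp only [Finset.mem_filter, Finset.mem_univ, true_and] at hp
      obtain ⟨⟨_, h2⟩, rfl⟩ := hp
      exact ⟨g, by simpa using h2, rfl⟩
  · intro p hp
    simp only [Finset.coe_filter, Finset.mem_univ, true_and, Set.mem_ofPred_eq] at hp
    exact Finset.mem_coe.mpr (Finset.mem_powersetCard.mpr ⟨Finset.subset_univ _, hp.1⟩)

/-- A cochain on the complex has support at most that of any function dominating its lift. -/
theorem CosetData.supp_le_cnt (hv : CosetData H vtx) {d i : ℕ} (hi : i ≤ d)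
    (f : Cochain (cosetCx hv d) i) (y : Finset ι → Γ → ZMod 2)
    (hy : ∀ τ g (h : cface vtx τ g ∈ facesOf (cosetCx hv d) i), τ.card = i + 1 → g ∈ H ∅ →
      f ⟨_, h⟩ ≠ 0 → y τ g ≠ 0) :
    (univ.filter (fun σ => f σ ≠ 0)).card ≤ cnt (i + 1) y := by
  rw [asm_cnt_eq]
  have h1 : (univ.filter (fun σ => f σ ≠ 0)).card =
      ((univ.filter (fun σ => f σ ≠ 0)).image Subtype.val).card :=
    (Finset.card_image_of_injective _ Subtype.val_injective).symm
  rw [h1]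
  refine le_trans (Finset.card_le_card ?_)
    (Finset.card_image_le (f := fun p : Finset ι × Γ => cface vtx p.1 p.2))
  intro σ hσ
  obtain ⟨⟨σ', hσ'⟩, h2, rfl⟩ := Finset.mem_image.mp hσ
  obtain ⟨τ, g, k1, k2, rfl⟩ := (hv.mem_facesOf hi).mp hσ'
  refine Finset.mem_image.mpr ⟨(τ, g), ?_, rfl⟩
  exact Finset.mem_filter.mpr ⟨Finset.mem_univ _, k1, hy τ g hσ' k1 k2 (Finset.mem_filter.mp h2).2⟩

/-- A lifted cochain has support at most `hmax` times that of the cochain. -/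
theorem CosetData.cnt_le_supp (hv : CosetData H vtx) {d i : ℕ} (hi : i ≤ d) {hmax : ℕ}
    (hH : ∀ σ : Finset ι, σ.Nonempty → Nat.card (H σ) ≤ hmax)
    (f : Cochain (cosetCx hv d) i) (x : Finset ι → Γ → ZMod 2)
    (hx : ∀ τ g, τ.card = i + 1 → x τ g ≠ 0 → g ∈ H ∅ ∧
      ∀ h : cface vtx τ g ∈ facesOf (cosetCx hv d) i, f ⟨_, h⟩ ≠ 0) :
    cnt (i + 1) x ≤ hmax * (univ.filter (fun σ => f σ ≠ 0)).card := by
  classical
  rw [asm_cnt_eq]
  have h1 : (univ.filter (fun σ => f σ ≠ 0)).card =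
      ((univ.filter (fun σ => f σ ≠ 0)).image Subtype.val).card :=
    (Finset.card_image_of_injective _ Subtype.val_injective).symm
  rw [h1]
  refine (Finset.card_le_mul_card_image (f := fun p : Finset ι × Γ => cface vtx p.1 p.2) _ hmax
    (fun σ hσ => ?_)).trans (Nat.mul_le_mul_left _ (Finset.card_le_card ?_))
  · obtain ⟨⟨τ, g⟩, hp, rfl⟩ := Finset.mem_image.mp hσ
    obtain ⟨k1, k2⟩ := (Finset.mem_filter.mp hp).2
    have hτ : τ.Nonempty := Finset.card_pos.mp (by simp only at k1; omega)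
    have hg : g ∈ H ∅ := (hx τ g k1 k2).1
    refine le_trans ?_ (hH τ hτ)
    rw [← card_elts]
    refine Finset.card_le_card_of_injOn (fun p => g⁻¹ * p.2) (fun p hp' => ?_) ?_
    · obtain ⟨l1, l2⟩ := Finset.mem_filter.mp hp'
      obtain ⟨l3, l4⟩ := (Finset.mem_filter.mp l1).2
      exact mem_elts.mpr (hv.of_cface_eq hτ hg (hx _ _ l3 l4).1 l2.symm).2
    · intro p hp1 q hq1 hpq
      obtain ⟨l1, l2⟩ := Finset.mem_filter.mp hp1
      obtain ⟨l3, l4⟩ := (Finset.mem_filter.mp l1).2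
      obtain ⟨m1, m2⟩ := Finset.mem_filter.mp hq1
      obtain ⟨m3, m4⟩ := (Finset.mem_filter.mp m1).2
      refine Prod.ext ?_ (mul_left_cancel hpq)
      rw [← (hv.of_cface_eq hτ hg (hx _ _ l3 l4).1 l2.symm).1,
        ← (hv.of_cface_eq hτ hg (hx _ _ m3 m4).1 m2.symm).1]
  · intro σ hσ
    obtain ⟨⟨τ, g⟩, hp, rfl⟩ := Finset.mem_image.mp hσ
    obtain ⟨k1, k2⟩ := (Finset.mem_filter.mp hp).2
    obtain ⟨hg, h3⟩ := hx τ g k1 k2
    have hm : cface vtx τ g ∈ facesOf (cosetCx hv d) i :=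
      (hv.mem_facesOf hi).mpr ⟨τ, g, k1, hg, rfl⟩
    exact Finset.mem_image.mpr ⟨⟨_, hm⟩, Finset.mem_filter.mpr ⟨Finset.mem_univ _, h3 hm⟩, rfl⟩

/-- An invariant cochain descends to a coboundary on the complex. -/
theorem CosetData.descend (hv : CosetData H vtx) {d i : ℕ} (hi : i ≤ d)
    (u : Finset ι → Γ → ZMod 2) (hu : Inv H i u) :
    ∃ b ∈ coboundaries (cosetCx hv d) i, ∀ τ g (h : cface vtx τ g ∈ facesOf (cosetCx hv d) i),
      τ.card = i + 1 → g ∈ H ∅ → b ⟨_, h⟩ = dd ∅ u τ g := by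
  classical
  cases i with
  | zero =>
    refine ⟨fun _ => u ∅ 1, ⟨_, rfl⟩, fun τ g _ h1 hg => ?_⟩
    obtain ⟨a, rfl⟩ := Finset.card_eq_one.mp h1
    have := hu ∅ rfl 1 g hg
    rw [one_mul] at this
    simp [dd, this]
  | succ i =>
    let F : Finset V → ZMod 2 := fun σ =>
      if h : ∃ p : Finset ι × Γ, p.1.card = i + 1 ∧ p.2 ∈ H ∅ ∧ σ = cface vtx p.1 p.2 then
        u h.choose.1 h.choose.2 else 0
    have hF : ∀ τ g, τ.card = i + 1 → g ∈ H ∅ → F (cface vtx τ g) = u τ g := by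
      intro τ g h1 hg
      have h : ∃ p : Finset ι × Γ, p.1.card = i + 1 ∧ p.2 ∈ H ∅ ∧
          cface vtx τ g = cface vtx p.1 p.2 := ⟨(τ, g), h1, hg, rfl⟩
      have e : F (cface vtx τ g) = u h.choose.1 h.choose.2 := dif_pos h
      obtain ⟨k1, k2, k3⟩ := h.choose_spec
      obtain ⟨l1, l2⟩ := hv.of_cface_eq (Finset.card_pos.mp (by omega)) hg k2 k3
      rw [e, ← l1, ← hu τ h1 g _ l2, mul_inv_cancel_left]
    refine ⟨cobdry _ i (fun σ => F σ.1), ⟨_, rfl⟩, fun τ g _ h1 hg => ?_⟩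
    unfold cobdry
    rw [hv.sum_subfaces (by omega) F h1 hg, dd_apply]
    unfold dd
    rw [Finset.sdiff_empty]
    refine Finset.sum_congr rfl (fun b hb => hF _ g ?_ hg)
    rw [Finset.card_erase_of_mem hb]; omega

theorem CosetData.count (hv : CosetData H vtx) {d : ℕ} {hmax C : ℕ} {θ : ℝ} (hθ : 0 < θ)
    (hH : ∀ σ : Finset ι, σ.Nonempty → Nat.card (H σ) ≤ hmax)
    (hE : ∀ j, 1 ≤ j → j ≤ d → Exact univ ∅ (fun τ => Fix (rreg Γ (ZMod 2)) (H τ)) j)
    (hS : ∀ j, 1 ≤ j → j ≤ d → SmallFill H j θ C) {i : ℕ} (hi : i < d)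
    (f : Cochain (cosetCx hv d) i) :
    ∃ b ∈ coboundaries (cosetCx hv d) i, ((univ.filter (fun σ => (f - b) σ ≠ 0)).card : ℝ) ≤
      (hmax * (C + 2 ^ Fintype.card ι / θ) + 1) *
        (univ.filter (fun τ => cobdry _ i f τ ≠ 0)).card := by
  classical
  let F : Finset V → ZMod 2 := fun σ =>
    if h : σ ∈ facesOf (cosetCx hv d) i then f ⟨σ, h⟩ else 0
  have hF : ∀ σ : {σ : Finset V // σ ∈ facesOf (cosetCx hv d) i}, F σ.1 = f σ :=
    fun σ => dif_pos σ.2
  let ft : Finset ι → Γ → ZMod 2 := fun τ g => if g ∈ H ∅ then F (cface vtx τ g) else 0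
  have hM : Monotone (fun τ => Fix (rreg Γ (ZMod 2)) (H τ : Set Γ)) :=
    fun τ τ' h => Fix_anti _ (hv.anti h)
  have hft : Inv H (i + 1) ft := by
    intro τ _ g h hh
    by_cases hg : g ∈ H ∅
    · have hg' : g * h ∈ H ∅ := (H ∅).mul_mem hg (hv.le_top τ hh)
      simp only [ft, hg, hg', if_true, hv.cface_mul hg hh]
    · have hg' : g * h ∉ H ∅ := fun k => hg (((H ∅).mul_mem_cancel_right (hv.le_top τ hh)).mp k)
      simp only [ft, hg, hg', if_false]
  have hx : Inv H (i + 1 + 1) (dd ∅ ft) := fun τ hτ =>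
    mem_Fix_rreg.mp (dd_mem (I := univ) (σ := ∅) hM (j := i + 1 + 1)
      (fun π _ _ k => mem_Fix_rreg.mpr (hft π (by omega))) τ (Finset.empty_subset _)
      (Finset.subset_univ _) hτ)
  have hxc : IsCocyc univ ∅ (i + 1 + 1) (dd ∅ ft) := fun ρ _ _ _ => dd_dd ∅ ft ρ
  have hcnt : cnt (i + 1 + 1) (dd ∅ ft) ≤
      hmax * (univ.filter (fun τ => cobdry _ i f τ ≠ 0)).card := by
    refine hv.cnt_le_supp (by omega) hH _ _ (fun τ g h1 h2 => ?_)
    have hg : g ∈ H ∅ := by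
      by_contra hg
      refine h2 ?_
      rw [dd_apply]
      exact dd_eq_zero ∅ (fun b _ _ => if_neg hg)
    refine ⟨hg, fun h h3 => h2 ?_⟩
    rw [← h3]
    unfold cobdry
    rw [← Finset.sum_congr rfl (fun σ _ => hF σ), hv.sum_subfaces hi.le F h1 hg, dd_apply]
    unfold dd
    rw [Finset.sdiff_empty]
    exact Finset.sum_congr rfl (fun b _ => if_pos hg)
  set S : ℝ := ((univ.filter (fun τ => cobdry _ i f τ ≠ 0)).card : ℝ) with hSdef
  have hS0 : 0 ≤ S := by positivity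
  have hcnt' : (cnt (i + 1 + 1) (dd ∅ ft) : ℝ) ≤ hmax * S := by
    rw [hSdef]; exact_mod_cast hcnt
  have hq : (0 : ℝ) ≤ 2 ^ Fintype.card ι / θ := by positivity
  by_cases hsmall : (cnt (i + 1 + 1) (dd ∅ ft) : ℝ) < θ * Nat.card (H ∅)
  · obtain ⟨y, hy1, hy2, hy3⟩ := hS (i + 1) (by omega) (by omega) _ hx hxc hsmall
    obtain ⟨u, hu1, hu2⟩ := (hE (i + 1) (by omega) (by omega)).elim (ft + y)
      (fun τ _ _ k => Submodule.add_mem _ (mem_Fix_rreg.mpr (hft τ k))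
        (mem_Fix_rreg.mpr (hy1 τ k)))
      (fun ρ _ _ k => by rw [dd_add, ← hy3 ρ k, add_self_two])
    obtain ⟨b, hb1, hb2⟩ := hv.descend hi.le u (fun τ k =>
      mem_Fix_rreg.mp (hu1 τ (Finset.empty_subset _) (Finset.subset_univ _) (by omega)))
    refine ⟨b, hb1, ?_⟩
    have h1 : (univ.filter (fun σ => (f - b) σ ≠ 0)).card ≤ cnt (i + 1) y := by
      refine hv.supp_le_cnt hi.le _ _ (fun τ g h k hg h2 h3 => h2 ?_)
      rw [Pi.sub_apply, hb2 τ g h k hg,
        ← hu2 τ (Finset.empty_subset _) (Finset.subset_univ _) k, Pi.add_apply, Pi.add_apply, h3,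
        add_zero, ← hF]
      simp only [ft, hg, if_true, sub_self]
    have h2 : ((univ.filter (fun σ => (f - b) σ ≠ 0)).card : ℝ) ≤
        C * (cnt (i + 1 + 1) (dd ∅ ft) : ℝ) := by exact_mod_cast h1.trans hy2
    have h3 := mul_le_mul_of_nonneg_left hcnt' (Nat.cast_nonneg C)
    have h4 : (0 : ℝ) ≤ hmax * (2 ^ Fintype.card ι / θ) * S := by positivity
    nlinarith
  · obtain ⟨b, hb1, hb2⟩ := hv.descend hi.le (fun _ _ => 0) (fun τ k g h _ => rfl)
    refine ⟨b, hb1, ?_⟩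
    have h1 : (univ.filter (fun σ => (f - b) σ ≠ 0)).card ≤
        cnt (i + 1) (fun (_ : Finset ι) (g : Γ) => if g ∈ H ∅ then (1 : ZMod 2) else 0) :=
      hv.supp_le_cnt hi.le _ _ (fun τ g h k hg _ => by simp [hg])
    have h2 : cnt (i + 1) (fun (_ : Finset ι) (g : Γ) => if g ∈ H ∅ then (1 : ZMod 2) else 0) ≤
        2 ^ Fintype.card ι * Nat.card (H ∅) := by
      rw [asm_cnt_eq, ← card_elts, ← Fintype.card_finset, ← Finset.card_univ,
        ← Finset.card_product]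
      refine Finset.card_le_card (fun p hp => ?_)
      have := (Finset.mem_filter.mp hp).2.2
      refine Finset.mem_product.mpr ⟨Finset.mem_univ _, mem_elts.mpr ?_⟩
      by_contra hg
      exact this (if_neg hg)
    have h3 : ((univ.filter (fun σ => (f - b) σ ≠ 0)).card : ℝ) ≤
        2 ^ Fintype.card ι * (Nat.card (H ∅) : ℝ) := by exact_mod_cast h1.trans h2
    have h4 : (Nat.card (H ∅) : ℝ) ≤ hmax * S / θ := by
      rw [le_div_iff₀ hθ, mul_comm]
      exact (not_lt.mp hsmall).trans hcnt'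
    have h5 : (2 : ℝ) ^ Fintype.card ι * (Nat.card (H ∅) : ℝ) ≤
        hmax * (2 ^ Fintype.card ι / θ) * S := by
      refine (mul_le_mul_of_nonneg_left h4 (by positivity)).trans (le_of_eq ?_)
      ring
    have h6 : (0 : ℝ) ≤ hmax * C * S := by positivity
    nlinarith

theorem exists_cosetData (H : Finset ι → Subgroup Γ) (h1 : Antitone H)
    (h2 : ∀ τ : Finset ι, τ.Nonempty → ∀ g, (∀ a ∈ τ, g ∈ H {a}) → g ∈ H τ) :
    ∃ (n : ℕ) (vtx : ι → Γ → Fin n), CosetData H vtx := by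
  classical
  let v0 : ι × Γ → ι × Set Γ := fun p => (p.1, {x | p.2⁻¹ * x ∈ H {p.1}})
  let S : Finset (ι × Set Γ) := (univ ×ˢ elts (H ∅)).image v0
  have hmem : ∀ a g, g ∈ H ∅ → v0 (a, g) ∈ S := fun a g hg =>
    Finset.mem_image_of_mem _ (Finset.mem_product.mpr ⟨Finset.mem_univ _, mem_elts.mpr hg⟩)
  have hif : ∀ g : Γ, (if g ∈ H ∅ then g else 1) ∈ H ∅ := by
    intro g
    split_ifs with h
    · exact h
    · exact (H ∅).one_mem
  refine ⟨S.card, fun a g => S.equivFin ⟨v0 (a, if g ∈ H ∅ then g else 1), hmem a _ (hif g)⟩,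
    h1, h2, fun a b g g' hg hg' => ?_, fun v => ?_⟩
  · rw [S.equivFin.injective.eq_iff, Subtype.mk.injEq, if_pos hg, if_pos hg']
    constructor
    · intro h
      have k1 : a = b := congrArg Prod.fst h
      subst k1
      have k2 : {x | g⁻¹ * x ∈ H {a}} = {x | g'⁻¹ * x ∈ H {a}} := congrArg Prod.snd h
      have k3 : g' ∈ {x | g⁻¹ * x ∈ H {a}} := by
        rw [k2]
        simp
      exact ⟨rfl, k3⟩
    · rintro ⟨rfl, h⟩
      refine Prod.ext rfl (Set.ext (fun x => ?_))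
      change g⁻¹ * x ∈ H {a} ↔ g'⁻¹ * x ∈ H {a}
      rw [← (H {a}).mul_mem_cancel_left h (y := g'⁻¹ * x)]
      simp [mul_assoc]
  · obtain ⟨⟨s, hs⟩, rfl⟩ := S.equivFin.surjective v
    obtain ⟨⟨a, g⟩, hp, rfl⟩ := Finset.mem_image.mp hs
    have hg : g ∈ H ∅ := mem_elts.mp (Finset.mem_product.mp hp).2
    refine ⟨a, g, hg, congrArg S.equivFin (Subtype.ext ?_)⟩
    simp only [if_pos hg]

end Coset

theorem assembly (d m hmax C : ℕ) (θ : ℝ) (hθ : 0 < θ) (hd : 1 ≤ d) (hm : d + 2 ≤ m) :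
    ∃ (D : ℕ) (ε : ℝ), 0 < ε ∧
      ∀ (Γ : Type) [Group Γ] [Fintype Γ] (ι : Type) [Fintype ι] [DecidableEq ι],
        Fintype.card ι = m → ∀ H : Finset ι → Subgroup Γ, Antitone H →
        (∀ τ : Finset ι, τ.Nonempty → ∀ g, (∀ a ∈ τ, g ∈ H {a}) → g ∈ H τ) →
        (∀ σ : Finset ι, σ.Nonempty → Nat.card (H σ) ≤ hmax) →
        (∀ a b : ι, a ≠ b → H ∅ ≤ H {a} ⊔ H {b}) →
        (∀ j, 1 ≤ j → j ≤ d → Exact univ ∅ (fun τ => Fix (rreg Γ (ZMod 2)) (H τ)) j) →
        (∀ j, 1 ≤ j → j ≤ d → SmallFill H j θ C) →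
        ∃ (n : ℕ) (X : AbstractSimplicialComplex (Fin n)), Nat.card (H ∅) ≤ hmax * n ∧
          IsPure X d ∧ IsConn X ∧ degree X d ≤ D ∧ IsCoboundaryExpander X d ε := by
  have hC : (0 : ℝ) < hmax * (C + 2 ^ m / θ) + 1 := by positivity
  refine ⟨2 ^ m * hmax + 1,
    1 / ((hmax * (C + 2 ^ m / θ) + 1) * ((2 ^ m * hmax + 1 : ℕ) : ℝ) * 2 ^ (d + 1)),
    by positivity, ?_⟩
  intro Γ _ _ ι _ _ hι H h1 h2 h3 h4 h5 h6
  obtain ⟨n, vtx, hv⟩ := exists_cosetData H h1 h2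
  obtain ⟨a, b, hab⟩ := Fintype.exists_pair_of_one_lt_card (α := ι) (by omega)
  have hp : IsPure (cosetCx hv d) d := hv.pure (by omega)
  have hdeg : degree (cosetCx hv d) d ≤ 2 ^ m * hmax + 1 :=
    (hι ▸ hv.degree_le d h3).trans (Nat.le_succ _)
  refine ⟨n, cosetCx hv d, by simpa using hv.card_le a h3, hp, hv.conn hd (h4 a b hab), hdeg, ?_⟩
  exact isCoboundaryExpander_of_count _ d _ _ hC (Nat.succ_pos _) hp hdeg
    (fun i hi f => hι ▸ hv.count hθ h3 h5 h6 hi f)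

end Vale.Agent.P067
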