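import Vale.Agent.P067.Net
import Vale.Agent.P067.Cone

/-! Linear pattern groups over a field. -/

set_option linter.unusedSectionVars false
set_option linter.unusedVariables false

namespace Vale.Agent.P067

open Finset Matrix

variable {ι : Type} [Fintype ι] [DecidableEq ι]

/-- The allowed off-diagonal entries: columns in `T`, increasing key, no cut in `τ` crossed. -/
def LinRel (key : ι → ℤ) (T τ : Finset ι) (i j : ι) : Prop :=
  j ∈ T ∧ i ≠ j ∧ key i ≤ key j ∧ ∀ a ∈ τ, ¬ (key i ≤ key a ∧ key a < key j)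

open Classical in
/-- The net of a linear pattern. -/
noncomputable def LinNet (F : Type) [Field F] (key : ι → ℤ) (T τ : Finset ι) (i j : ι) :
    AddSubgroup F :=
  if LinRel key T τ i j then ⊤ else ⊥

/-- The linear pattern group. -/
noncomputable def LinG (F : Type) [Field F] (key : ι → ℤ) (T τ : Finset ι) :
    Subgroup (SpecialLinearGroup ι F) :=
  grp (LinNet F key T τ)

variable {F : Type} [Field F]

theorem mem_LinNet {key : ι → ℤ} {T τ : Finset ι} {i j : ι} {c : F} :
    c ∈ LinNet F key T τ i j ↔ (c ≠ 0 → LinRel key T τ i j) := by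
  unfold LinNet
  split_ifs with h
  · simp [h]
  · simp [h]

theorem LinRel.trans {key : ι → ℤ} {T : Finset ι} (hkey : Set.InjOn key T) {τ : Finset ι}
    {i j l : ι} (h1 : LinRel key T τ i j) (h2 : LinRel key T τ j l) :
    LinRel key T τ i l ∧ key j < key l := by
  obtain ⟨a1, a2, a3, a4⟩ := h1
  obtain ⟨b1, b2, b3, b4⟩ := h2
  have hlt : key j < key l := lt_of_le_of_ne b3 (fun h => b2 (hkey a1 b1 h))
  refine ⟨⟨b1, fun h => by subst h; omega, by omega, fun a ha hc => ?_⟩, hlt⟩
  by_cases h : key a < key j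
  · exact a4 a ha ⟨hc.1, h⟩
  · exact b4 a ha ⟨by omega, hc.2⟩

theorem isNet_LinNet {key : ι → ℤ} {T : Finset ι} (hkey : Set.InjOn key T) (τ : Finset ι) :
    IsNet (LinNet F key T τ) := by
  intro i j l x y hx hy
  rw [mem_LinNet] at hx hy ⊢
  intro h
  exact ((hx (left_ne_zero_of_mul h)).trans hkey (hy (right_ne_zero_of_mul h))).1

theorem mem_LinG [Finite F] {key : ι → ℤ} {T : Finset ι} (hkey : Set.InjOn key T)
    {τ : Finset ι} {g : SpecialLinearGroup ι F} :
    g ∈ LinG F key T τ ↔ (∀ i, g i i = 1) ∧ ∀ i j, i ≠ j → g i j ≠ 0 → LinRel key T τ i j := by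
  rw [LinG, mem_grp (isNet_LinNet hkey τ)]
  constructor
  · intro h
    refine ⟨fun i => ?_, fun i j hij hg => ?_⟩
    · have := mem_LinNet.mp (h i i)
      by_contra hne
      rw [Matrix.one_apply_eq] at this
      exact (this (sub_ne_zero.mpr hne)).2.1 rfl
    · have := mem_LinNet.mp (h i j)
      rw [Matrix.one_apply_ne hij, sub_zero] at this
      exact this hg
  · rintro ⟨h1, h2⟩ i j
    rw [mem_LinNet]
    by_cases hij : i = j
    · subst hij; simp [h1]
    · rw [Matrix.one_apply_ne hij, sub_zero]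
      exact h2 i j hij

theorem LinG_anti (key : ι → ℤ) (T : Finset ι) : Antitone (LinG F key T) := by
  intro τ τ' h
  refine grp_mono (fun i j c hc => ?_)
  rw [mem_LinNet] at hc ⊢
  intro h0
  obtain ⟨a1, a2, a3, a4⟩ := hc h0
  exact ⟨a1, a2, a3, fun a ha => a4 a (h ha)⟩

theorem odd_card_LinG [Finite F] (h2 : (2 : F) ≠ 0) {key : ι → ℤ} {T : Finset ι}
    (hkey : Set.InjOn key T) (τ : Finset ι) : Odd (Nat.card (LinG F key T τ)) := by
  classical
  obtain ⟨M, hM⟩ : ∃ M : ℕ, ∀ i j, key j - key i ≤ M := by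
    obtain ⟨M, hM⟩ := (Set.finite_range (fun p : ι × ι => key p.2 - key p.1)).bddAbove
    exact ⟨M.toNat, fun i j => (hM ⟨(i, j), rfl⟩).trans (Int.self_le_toNat M)⟩
  have hw : ∀ i j, LinRel key T τ i j →
      1 ≤ 2 * (key j - key i) + (if i ∈ T then (0 : ℤ) else 1) := by
    intro i j h
    have h3 := h.2.2.1
    split_ifs with hi
    · have : key i ≠ key j := fun e => h.2.1 (hkey hi h.1 e)
      omega
    · omega
  refine odd_card_grp (Ne.isUnit h2) (isNet_LinNet hkey τ)
    (fun k i j => if LinRel key T τ i j ∧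
      (k : ℤ) + 1 ≤ 2 * (key j - key i) + (if i ∈ T then (0 : ℤ) else 1) then ⊤ else ⊥)
    ?_ ?_ (2 * M + 1) ?_
  · intro i j c hc
    rw [mem_LinNet] at hc
    by_cases h0 : c = 0
    · rw [h0]; exact AddSubgroup.zero_mem _
    · have := hc h0
      rw [if_pos ⟨this, by simpa using hw i j this⟩]
      exact AddSubgroup.mem_top _
  · intro k i j l x y hx hy
    rw [mem_LinNet] at hx
    by_cases h0 : x * y = 0
    · rw [h0]; exact AddSubgroup.zero_mem _
    have h1 := hx (left_ne_zero_of_mul h0)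
    by_cases h2 : LinRel key T τ j l ∧
      (k : ℤ) + 1 ≤ 2 * (key l - key j) + (if j ∈ T then (0 : ℤ) else 1)
    · have h3 := hw i j h1
      have h4 := h2.2
      rw [if_pos h1.1] at h4
      rw [if_pos ⟨(h1.trans hkey h2.1).1, by push_cast; omega⟩]
      exact AddSubgroup.mem_top _
    · rw [if_neg h2, AddSubgroup.mem_bot] at hy
      exact absurd hy (right_ne_zero_of_mul h0)
  · intro i j
    rw [if_neg]
    rintro ⟨_, h⟩
    have := hM i j
    push_cast at h
    split_ifs at h <;> omega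

theorem LinG_le_of_elem [Finite F] {key : ι → ℤ} {T : Finset ι} (hkey : Set.InjOn key T)
    (τ : Finset ι) (K : Subgroup (SpecialLinearGroup ι F))
    (hK : ∀ i j c, LinRel key T τ i j → elem i j c ∈ K) : LinG F key T τ ≤ K := by
  have hbot : ∀ i, ∀ d ∈ LinNet F key T τ i i, d = 0 := by
    intro i d hd
    by_contra h
    exact (mem_LinNet.mp hd h).2.1 rfl
  refine grp_le_of_elem (isNet_LinNet hkey τ) univ (by simp) ?_ ?_ K ?_
  · intro i d hd
    simp [hbot i d hd]
  · intro i _ l _ _ d hd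
    exact ⟨0, AddSubgroup.zero_mem _, 0, AddSubgroup.zero_mem _, by simp [hbot i d hd]⟩
  · intro i j _ r hr
    by_cases h0 : r = 0
    · rw [h0, elem_zero]; exact K.one_mem
    · exact hK i j r (mem_LinNet.mp hr h0)

theorem elem_mem_LinG {key : ι → ℤ} {T τ : Finset ι} {i j : ι} (h : LinRel key T τ i j) (c : F) :
    elem i j c ∈ LinG F key T τ :=
  elem_mem_grp (mem_LinNet.mpr (fun _ => h))

/-- All linear pattern groups on `ι` over `F` have cones of size at most `R`. -/
def LinCones (F : Type) [Field F] (ι : Type) [Fintype ι] [DecidableEq ι] (R : ℕ) : Prop :=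
  ∀ (key : ι → ℤ) (T : Finset ι), Set.InjOn key T → ∀ top ∈ T, (∀ u ∈ T, key u ≤ key top) →
    ∀ σ : Finset ι, top ∈ σ → σ ⊆ T → ∀ j : ℕ, σ.card ≤ j → j + 1 ≤ T.card →
      HasCone (LinG F key T) T σ j R

end Vale.Agent.P067
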