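import Vale.Agent.P067.Trunc
import Vale.Agent.P067.Lin

/-! Path patterns on the cyclic quiver. -/

set_option linter.unusedSectionVars false
set_option linter.unusedVariables false

namespace Vale.Agent.P067

open Finset Matrix

variable {ι : Type} [Fintype ι] [DecidableEq ι]

/-- Strict lexicographic order of positions on the universal cover. -/
def Lt2 (pos : ι → ℤ) (n : ℕ) (a : ι) (e : ℕ) (j : ι) : Prop := n < e ∨ (n = e ∧ pos a < pos j)

/-- Weak lexicographic order of positions on the universal cover. -/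
def Le2 (pos : ι → ℤ) (n : ℕ) (a : ι) (e : ℕ) (j : ι) : Prop := n < e ∨ (n = e ∧ pos a ≤ pos j)

/-- The path from `i` to `j` winding `e` times uses the arrow leaving `a`. -/
def Cross (pos : ι → ℤ) (a i j : ι) (e : ℕ) : Prop := ∃ n, Le2 pos 0 i n a ∧ Lt2 pos n a e j

/-- Paths from `S` to `T` avoiding the arrows leaving the vertices in `τ`. -/
def Pat (pos : ι → ℤ) (S T τ : Finset ι) (i j : ι) (e : ℕ) : Prop :=
  i ∈ S ∧ j ∈ T ∧ Lt2 pos 0 i e j ∧ ∀ a ∈ τ, ¬ Cross pos a i j e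

/-- The pattern group. -/
noncomputable def HH (F : Type) [Field F] (s : ℕ) (pos : ι → ℤ) (S T τ : Finset ι) :
    Subgroup (SpecialLinearGroup ι (Rs F s)) :=
  grp (mono F s (Pat pos S T τ))

theorem cross_split {pos : ι → ℤ} {a i l : ι} (j : ι) {e e' : ℕ} (h : Cross pos a i l (e + e')) :
    Cross pos a i j e ∨ Cross pos a j l e' := by
  obtain ⟨n, h1, h2⟩ := h
  by_cases h : Lt2 pos n a e j
  · exact Or.inl ⟨n, h1, h⟩
  · refine Or.inr ⟨n - e, ?_, ?_⟩ <;> unfold Lt2 Le2 at * <;> omega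

theorem cross_left {pos : ι → ℤ} {a i j l : ι} {e e' : ℕ} (h : Cross pos a i j e)
    (h' : Lt2 pos 0 j e' l) : Cross pos a i l (e + e') := by
  obtain ⟨n, h1, h2⟩ := h
  refine ⟨n, h1, ?_⟩
  unfold Lt2 Le2 at *; omega

theorem cross_right {pos : ι → ℤ} {a i j l : ι} {e e' : ℕ} (h' : Lt2 pos 0 i e j)
    (h : Cross pos a j l e') : Cross pos a i l (e + e') := by
  obtain ⟨n, h1, h2⟩ := h
  refine ⟨n + e, ?_, ?_⟩ <;> unfold Lt2 Le2 at * <;> omega

theorem lt2_trans {pos : ι → ℤ} {i j l : ι} {e e' : ℕ} (h : Lt2 pos 0 i e j)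
    (h' : Lt2 pos 0 j e' l) : Lt2 pos 0 i (e + e') l := by
  unfold Lt2 at *; omega

theorem cross_self {pos : ι → ℤ} {i j : ι} {e : ℕ} (h : Lt2 pos 0 i e j) : Cross pos i i j e :=
  ⟨0, Or.inr ⟨rfl, le_rfl⟩, h⟩

theorem cross_loop {pos : ι → ℤ} (a : ι) {i : ι} {e : ℕ} (h : Lt2 pos 0 i e i) :
    Cross pos a i i e := by
  by_cases ha : pos i ≤ pos a
  · exact ⟨0, by unfold Le2; omega, by unfold Lt2 at *; omega⟩
  · exact ⟨1, by unfold Le2; omega, by unfold Lt2 at *; omega⟩

theorem closed_Pat (pos : ι → ℤ) (S T τ : Finset ι) : Closed (Pat pos S T τ) := by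
  rintro i j l e e' ⟨a1, _, a3, a4⟩ ⟨_, b2, b3, b4⟩
  exact ⟨a1, b2, lt2_trans a3 b3, fun a ha hc => (cross_split j hc).elim (a4 a ha) (b4 a ha)⟩

theorem pat_exp {pos : ι → ℤ} {S T τ : Finset ι} {a i j : ι} {e : ℕ} (ha : a ∈ τ)
    (h : Pat pos S T τ i j e) : e = if pos i < pos j then 0 else 1 := by
  obtain ⟨_, _, h3, h4⟩ := h
  have k0 : ¬ (Le2 pos 0 i 0 a ∧ Lt2 pos 0 a e j) := fun h => h4 a ha ⟨0, h⟩
  have k1 : ¬ (Le2 pos 0 i 1 a ∧ Lt2 pos 1 a e j) := fun h => h4 a ha ⟨1, h⟩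
  unfold Lt2 Le2 at *
  split_ifs <;> omega

theorem not_pat_self {pos : ι → ℤ} {S T τ : Finset ι} {a : ι} (ha : a ∈ τ) (i : ι) (e : ℕ) :
    ¬ Pat pos S T τ i i e := fun h => h.2.2.2 a ha (cross_loop a h.2.2.1)

theorem exists_pos_bound (pos : ι → ℤ) : ∃ M : ℕ, ∀ i j, pos j - pos i ≤ M := by
  obtain ⟨M, hM⟩ := (Set.finite_range (fun p : ι × ι => pos p.2 - pos p.1)).bddAbove
  exact ⟨M.toNat, fun i j => (hM ⟨(i, j), rfl⟩).trans (Int.self_le_toNat M)⟩

/-- The length of a path. -/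
def wt (pos : ι → ℤ) (M : ℕ) (i j : ι) (e : ℕ) : ℤ := (e : ℤ) * (M + 1) + pos j - pos i

theorem wt_add (pos : ι → ℤ) (M : ℕ) (i j l : ι) (e e' : ℕ) :
    wt pos M i l (e + e') = wt pos M i j e + wt pos M j l e' := by
  unfold wt; push_cast; ring

theorem wt_pos {pos : ι → ℤ} {M : ℕ} (hM : ∀ i j, pos j - pos i ≤ M) {i j : ι} {e : ℕ}
    (h : Lt2 pos 0 i e j) : 1 ≤ wt pos M i j e := by
  unfold wt
  rcases h with h | ⟨h1, h2⟩
  · have h1 : (1 : ℤ) ≤ e := by exact_mod_cast h
    have h2 := hM j i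
    nlinarith [Int.natCast_nonneg M]
  · subst h1; simp; omega

variable {F : Type} [Field F] {s : ℕ} {pos : ι → ℤ}

theorem HH_mono {S T τ S' T' τ' : Finset ι} (hS : S ⊆ S') (hT : T ⊆ T') (hτ : τ' ⊆ τ) :
    HH F s pos S T τ ≤ HH F s pos S' T' τ' := by
  refine grp_mono (fun i j => mono_le (fun e _ h => ?_))
  exact ⟨hS h.1, hT h.2.1, h.2.2.1, fun a ha => h.2.2.2 a (hτ ha)⟩

theorem HH_anti (S T : Finset ι) : Antitone (HH F s pos S T) :=
  fun _ _ h => HH_mono subset_rfl subset_rfl h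

theorem elem_mem_HH {S T τ : Finset ι} {i j : ι} {e : ℕ} (h : Pat pos S T τ i j e) (c : F) :
    elem i j (mon s c e) ∈ HH F s pos S T τ :=
  elem_mem_grp (mon_mem_mono h c)

/-- Any closed pattern of positive paths gives a group of odd order. -/
theorem odd_card_of_pos [Finite F] (h2 : (2 : F) ≠ 0) {P : ι → ι → ℕ → Prop} (hP : Closed P)
    (hpos : ∀ i j e, P i j e → Lt2 pos 0 i e j) : Odd (Nat.card (grp (mono F s P))) := by
  obtain ⟨M, hM⟩ := exists_pos_bound pos
  refine odd_card_grp (isUnit_two_Rs h2) (isNet_mono hP)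
    (fun k => mono F s (fun i j e => (k : ℤ) + 1 ≤ wt pos M i j e)) ?_ ?_ (s * (M + 1) + M) ?_
  · intro i j
    exact mono_le (fun e _ h => by simpa using wt_pos hM (hpos i j e h))
  · intro k i j l x y hx hy
    refine mono_mul (fun e e' h1 h2 => ?_) hx hy
    have := wt_pos hM (hpos i j e h1)
    rw [wt_add pos M i j l]
    push_cast
    omega
  · intro i j
    refine mono_eq_bot (fun e he h => ?_)
    unfold wt at h
    have h1 : (e : ℤ) ≤ s := by exact_mod_cast he.le
    have h2 := hM i j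
    push_cast at h
    nlinarith [Int.natCast_nonneg M]

theorem odd_card_HH [Finite F] (h2 : (2 : F) ≠ 0) (S T τ : Finset ι) :
    Odd (Nat.card (HH F s pos S T τ)) :=
  odd_card_of_pos h2 (closed_Pat pos S T τ) (fun _ _ _ h => h.2.2.1)

/-- Generation of `HH A A τ` by monomial elementary matrices. -/
theorem HH_le_of_elem [Finite F] (hpos : Function.Injective pos) (A τ : Finset ι)
    (K : Subgroup (SpecialLinearGroup ι (Rs F s)))
    (hK : ∀ i j e c, i ≠ j → Pat pos A A τ i j e → elem i j (mon s c e) ∈ K) :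
    HH F s pos A A τ ≤ K := by
  have hco : ∀ i, ∀ d ∈ mono F s (Pat pos A A τ) i i, co 0 d = 0 := by
    intro i d hd
    by_contra h
    have := (hd 0 h).2.2.1
    unfold Lt2 at this; omega
  refine grp_le_of_elem (isNet_mono (closed_Pat pos A A τ)) A ?_ ?_ ?_ K ?_
  · intro i j hij
    exact mono_eq_bot (fun e _ h => hij.elim (fun h' => h' h.1) (fun h' => h' h.2.1))
  · intro i d hd
    exact isUnit_one_add (hco i d hd)
  · intro i hi l hl hil d hd
    rcases τ.eq_empty_or_nonempty with rfl | ⟨a, ha⟩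
    · have hne : pos i ≠ pos l := fun h => hil (hpos h)
      have hd' : ∀ a b, a ∈ A → b ∈ A → d ∈ mono F s (Pat pos A A ∅) a b := by
        intro a b ha hb e he
        refine ⟨ha, hb, Or.inl (Nat.pos_of_ne_zero ?_), by simp⟩
        rintro rfl
        exact he (hco i d hd)
      have h1 : ∀ a b, a ∈ A → b ∈ A → pos a < pos b → (1 : Rs F s) ∈ mono F s (Pat pos A A ∅) a b := by
        intro a b ha hb hab
        rw [← mon_one_zero]
        exact mon_mem_mono (show Pat pos A A ∅ a b 0 from ⟨ha, hb, Or.inr ⟨rfl, hab⟩, by simp⟩) _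
      rcases lt_or_gt_of_ne hne with h | h
      · exact ⟨1, h1 i l hi hl h, d, hd' l i hl hi, (one_mul d).symm⟩
      · exact ⟨d, hd' i l hi hl, 1, h1 l i hl hi h, (mul_one d).symm⟩
    · rw [mono_eq_bot (fun e _ => not_pat_self ha i e), AddSubgroup.mem_bot] at hd
      exact ⟨0, AddSubgroup.zero_mem _, 0, AddSubgroup.zero_mem _, by simp [hd]⟩
  · intro i j hij r hr
    exact elem_mem_of_mon hr K (fun e c _ hp => hK i j e c hij hp)

theorem mem_HH [Finite F] {S T τ : Finset ι} {g : SpecialLinearGroup ι (Rs F s)} :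
    g ∈ HH F s pos S T τ ↔ InNet (mono F s (Pat pos S T τ)) g :=
  mem_grp (isNet_mono (closed_Pat pos S T τ))

theorem mem_HH_of_forall [Finite F] {S T τ : Finset ι} (hτ : τ.Nonempty)
    {g : SpecialLinearGroup ι (Rs F s)} (h : ∀ a ∈ τ, g ∈ HH F s pos S T {a}) :
    g ∈ HH F s pos S T τ := by
  refine mem_HH.mpr (fun i j e he => ?_)
  obtain ⟨a, ha⟩ := hτ
  obtain ⟨k1, k2, k3, _⟩ := mem_HH.mp (h a ha) i j e he
  exact ⟨k1, k2, k3, fun b hb =>
    (mem_HH.mp (h b hb) i j e he).2.2.2 b (Finset.mem_singleton_self b)⟩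

theorem exists_third (hm : 3 ≤ Fintype.card ι) (i j : ι) : ∃ l, l ≠ i ∧ l ≠ j := by
  by_contra h
  push Not at h
  have : (univ : Finset ι) ⊆ {i, j} := by
    intro l _
    by_cases hl : l = i
    · simp [hl]
    · simp [h l hl]
  have h1 := Finset.card_le_card this
  have h2 : ({i, j} : Finset ι).card ≤ 2 := Finset.card_le_two
  rw [Finset.card_univ] at h1
  omega

theorem exists_mid (hpos : Function.Injective pos) (hm : 3 ≤ Fintype.card ι) {a b i j : ι}
    {e : ℕ} (hab : a ≠ b) (ha : Cross pos a i j e) (hb : Cross pos b i j e) :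
    ∃ l e₁ e₂, l ≠ i ∧ l ≠ j ∧ e₁ + e₂ = e ∧ Lt2 pos 0 i e₁ l ∧ Lt2 pos 0 l e₂ j := by
  have aux : ∀ (c : ι) (n : ℕ), Lt2 pos 0 i n c → Lt2 pos n c e j →
      ∃ l e₁ e₂, l ≠ i ∧ l ≠ j ∧ e₁ + e₂ = e ∧ Lt2 pos 0 i e₁ l ∧ Lt2 pos 0 l e₂ j := by
    intro c n h1 h2
    obtain ⟨l, hli, hlj⟩ := exists_third hm i j
    have k1 : pos l ≠ pos i := fun h => hli (hpos h)
    have k2 : pos l ≠ pos j := fun h => hlj (hpos h)
    by_cases hci : c = i
    · subst hci
      by_cases h : pos c < pos l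
      · refine ⟨l, 0, e, hli, hlj, by omega, ?_, ?_⟩ <;> unfold Lt2 at * <;> omega
      · refine ⟨l, 1, e - 1, hli, hlj, ?_, ?_, ?_⟩ <;> unfold Lt2 at * <;> omega
    by_cases hcj : c = j
    · subst hcj
      by_cases h : pos l < pos c
      · refine ⟨l, e, 0, hli, hlj, by omega, ?_, ?_⟩ <;> unfold Lt2 at * <;> omega
      · refine ⟨l, e - 1, 1, hli, hlj, ?_, ?_, ?_⟩ <;> unfold Lt2 at * <;> omega
    · refine ⟨c, n, e - n, hci, hcj, ?_, h1, ?_⟩ <;> unfold Lt2 at * <;> omega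
  obtain ⟨n, h1, h2⟩ := ha
  obtain ⟨n', h1', h2'⟩ := hb
  have hne : pos a ≠ pos b := fun h => hab (hpos h)
  by_cases h : Lt2 pos n a n' b
  · exact aux b n' (by unfold Lt2 Le2 at *; omega) h2'
  · exact aux a n (by unfold Lt2 Le2 at *; omega) h2

theorem elem_eq_comm {R : Type} [CommRing R] {i j l : ι} (hij : i ≠ j) (hjl : j ≠ l) (hil : i ≠ l)
    (r r' : R) : elem i l (r * r') = (elem j l r')⁻¹ * elem i j r * elem j l r' * (elem i j r)⁻¹ := by
  rw [mul_assoc (elem j l r')⁻¹, elem_mul_elem hij hjl hil]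
  group

theorem Pat.left {S T S' T' τ : Finset ι} {i j l : ι} {e₁ e₂ : ℕ}
    (h : Pat pos S T τ i j (e₁ + e₂)) (h1 : Lt2 pos 0 i e₁ l) (h2 : Lt2 pos 0 l e₂ j)
    (hi : i ∈ S') (hl : l ∈ T') : Pat pos S' T' τ i l e₁ :=
  ⟨hi, hl, h1, fun a ha hc => h.2.2.2 a ha (cross_left hc h2)⟩

theorem Pat.right {S T S' T' τ : Finset ι} {i j l : ι} {e₁ e₂ : ℕ}
    (h : Pat pos S T τ i j (e₁ + e₂)) (h1 : Lt2 pos 0 i e₁ l) (h2 : Lt2 pos 0 l e₂ j)
    (hl : l ∈ S') (hj : j ∈ T') : Pat pos S' T' τ l j e₂ :=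
  ⟨hl, hj, h2, fun a ha hc => h.2.2.2 a ha (cross_right h1 hc)⟩

theorem Pat.insert {S T τ : Finset ι} {a i j : ι} {e : ℕ} (h : Pat pos S T τ i j e)
    (ha : ¬ Cross pos a i j e) : Pat pos S T (insert a τ) i j e :=
  ⟨h.1, h.2.1, h.2.2.1, fun b hb => (Finset.mem_insert.mp hb).elim (fun e => e ▸ ha) (h.2.2.2 b)⟩

/-- Connectivity of all rank two residues. -/
theorem HH_le_sup [Finite F] (hpos : Function.Injective pos) (hm : 3 ≤ Fintype.card ι)
    (σ : Finset ι) {a b : ι} (hab : a ≠ b) :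
    HH F s pos univ univ σ ≤
      HH F s pos univ univ (insert a σ) ⊔ HH F s pos univ univ (insert b σ) := by
  obtain ⟨M, hM⟩ := exists_pos_bound pos
  set K := HH F s pos univ univ (insert a σ) ⊔ HH F s pos univ univ (insert b σ) with hK
  have key : ∀ n : ℕ, ∀ i j e (c : F), i ≠ j → Pat pos univ univ σ i j e → wt pos M i j e ≤ n →
      elem i j (mon s c e) ∈ K := by
    intro n
    induction n with
    | zero =>
      intro i j e c _ h hw
      have := wt_pos hM h.2.2.1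
      push_cast at hw; omega
    | succ n ih =>
      intro i j e c hij h hw
      by_cases ha : Cross pos a i j e
      · by_cases hb : Cross pos b i j e
        · obtain ⟨l, e₁, e₂, hli, hlj, rfl, h1, h2⟩ := exists_mid hpos hm hab ha hb
          have w1 := wt_pos hM h1
          have w2 := wt_pos hM h2
          rw [wt_add pos M i l j] at hw
          push_cast at hw
          have k1 := ih i l e₁ c hli.symm (h.left h1 h2 (mem_univ _) (mem_univ _)) (by omega)
          have k2 := ih l j e₂ 1 hlj (h.right h1 h2 (mem_univ _) (mem_univ _)) (by omega)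
          rw [← mul_one c, ← mon_mul, elem_eq_comm hli.symm hlj hij]
          exact K.mul_mem (K.mul_mem (K.mul_mem (K.inv_mem k2) k1) k2) (K.inv_mem k1)
        · exact Subgroup.mem_sup_right (elem_mem_HH (h.insert hb) c)
      · exact Subgroup.mem_sup_left (elem_mem_HH (h.insert ha) c)
  exact HH_le_of_elem hpos univ σ K
    (fun i j e c hij h => key (wt pos M i j e).toNat i j e c hij h (Int.self_le_toNat _))

/-- The last `T`-vertex cyclically before `b`. -/
theorem exists_prev (hpos : Function.Injective pos) {T : Finset ι} (hT : T.Nonempty) {b : ι}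
    (hb : b ∉ T) : ∃ u ∈ T, ∀ i j e, j ∈ T → Cross pos u i j e → Cross pos b i j e := by
  have hne : ∀ j ∈ T, pos j ≠ pos b := fun j hj h => hb (hpos h ▸ hj)
  rcases (T.filter (fun u => pos u < pos b)).eq_empty_or_nonempty with h | h
  · obtain ⟨u, hu, hmax⟩ := Finset.exists_max_image T pos hT
    refine ⟨u, hu, fun i j e hj ⟨n, h1, h2⟩ => ⟨n + 1, Or.inl (by omega), ?_⟩⟩
    have k1 := hmax j hj
    have k2 := hne j hj
    have k3 : ¬ pos j < pos b := fun h' =>
      Finset.notMem_empty j (h ▸ Finset.mem_filter.mpr ⟨hj, h'⟩)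
    unfold Lt2 at *; omega
  · obtain ⟨u, hu, hmax⟩ := Finset.exists_max_image _ pos h
    rw [Finset.mem_filter] at hu
    refine ⟨u, hu.1, fun i j e hj ⟨n, h1, h2⟩ => ⟨n, ?_, ?_⟩⟩
    · have := hu.2
      unfold Le2 at *; omega
    · have k2 := hne j hj
      have k3 : pos j < pos b → pos j ≤ pos u := fun h' => hmax j (Finset.mem_filter.mpr ⟨hj, h'⟩)
      unfold Lt2 at *; omega

theorem exists_succ (pos : ι → ℤ) {A : Finset ι} {u : ι} (hu : u ∈ A) : ∃ v ∈ A,
    (pos u < pos v ∧ ∀ w ∈ A, pos u < pos w → pos v ≤ pos w) ∨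
      ((∀ w ∈ A, pos w ≤ pos u) ∧ ∀ w ∈ A, pos v ≤ pos w) := by
  rcases (A.filter (fun w => pos u < pos w)).eq_empty_or_nonempty with h | h
  · obtain ⟨v, hv, hmin⟩ := Finset.exists_min_image A pos ⟨u, hu⟩
    refine ⟨v, hv, Or.inr ⟨fun w hw => ?_, hmin⟩⟩
    by_contra h'
    exact Finset.notMem_empty w (h ▸ Finset.mem_filter.mpr ⟨hw, not_le.mp h'⟩)
  · obtain ⟨v, hv, hmin⟩ := Finset.exists_min_image _ pos h
    rw [Finset.mem_filter] at hv
    exact ⟨v, hv.1, Or.inl ⟨hv.2, fun w hw h' => hmin w (Finset.mem_filter.mpr ⟨hw, h'⟩)⟩⟩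

/-- The cyclic successor on `A` exchanges the two crossing conventions. -/
theorem exists_next (hpos : Function.Injective pos) (A : Finset ι) :
    ∃ β : ι → ι, Set.BijOn β A A ∧ ∀ u ∈ A, ∀ i ∈ A, ∀ j ∈ A, ∀ e,
      Cross pos u i j e ↔ Cross (fun x => - pos x) (β u) j i e := by
  have h0 : ∀ u, ∃ v, u ∈ A → v ∈ A ∧
      ((pos u < pos v ∧ ∀ w ∈ A, pos u < pos w → pos v ≤ pos w) ∨
      ((∀ w ∈ A, pos w ≤ pos u) ∧ ∀ w ∈ A, pos v ≤ pos w)) := by
    intro u
    by_cases hu : u ∈ A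
    · obtain ⟨v, hv⟩ := exists_succ pos hu
      exact ⟨v, fun _ => hv⟩
    · exact ⟨u, fun h => absurd h hu⟩
  choose β hβ using h0
  have hmaps : Set.MapsTo β A A := fun u hu => (hβ u hu).1
  refine ⟨β, (A.finite_toSet.injOn_iff_bijOn_of_mapsTo hmaps).mp ?_, ?_⟩
  · intro u hu u' hu' e
    apply hpos
    have k1 := (hβ u hu).2
    have k2 := (hβ u' hu').2
    rw [← e] at k2
    rcases k1 with ⟨a1, a2⟩ | ⟨a1, a2⟩ <;> rcases k2 with ⟨b1, b2⟩ | ⟨b1, b2⟩
    · have := a2 u' hu'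
      have := b2 u hu
      omega
    · have := b2 u hu
      omega
    · have := a2 u' hu'
      omega
    · have := a1 u' hu'
      have := b1 u hu
      omega
  · intro u hu i hi j hj e
    rcases (hβ u hu).2 with ⟨a1, a2⟩ | ⟨a1, a2⟩
    · have k1 := a2 i hi
      have k2 := a2 j hj
      constructor
      · rintro ⟨n, h1, h2⟩
        refine ⟨e - n, ?_, ?_⟩ <;> unfold Lt2 Le2 at * <;> beta_reduce <;> omega
      · rintro ⟨n, h1, h2⟩
        refine ⟨e - n, ?_, ?_⟩ <;> unfold Lt2 Le2 at * <;> beta_reduce at h1 h2 <;> omega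
    · have k1 := a1 i hi
      have k2 := a1 j hj
      have k3 := a2 i hi
      have k4 := a2 j hj
      constructor
      · rintro ⟨n, h1, h2⟩
        refine ⟨e - n - 1, ?_, ?_⟩ <;> unfold Lt2 Le2 at * <;> beta_reduce <;> omega
      · rintro ⟨n, h1, h2⟩
        refine ⟨0, ?_, ?_⟩ <;> unfold Lt2 Le2 at * <;> beta_reduce at h1 h2 <;> omega

/-- The height function attached to the cut `a`. -/
def cutHt (pos : ι → ℤ) (a : ι) (i : ι) : ℤ := if pos a < pos i then 0 else 1

/-- A key that linearises the cyclic order after cutting at `a`. -/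
theorem exists_cutKey (hpos : Function.Injective pos) (a : ι) :
    ∃ key : ι → ℤ, Function.Injective key ∧ (∀ i, key i ≤ key a) ∧
      (∀ i j, key i < key j ↔
        cutHt pos a i < cutHt pos a j ∨ (cutHt pos a i = cutHt pos a j ∧ pos i < pos j)) := by
  obtain ⟨M, hM⟩ := exists_pos_bound pos
  refine ⟨fun i => if pos a < pos i then pos i else pos i + (M + 1), ?_, ?_, ?_⟩
  · intro i j h
    apply hpos
    have := hM i j
    have := hM j i
    simp only at h
    split_ifs at h <;> omega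
  · intro i
    have := hM a i
    simp only [lt_irrefl, if_false]
    split_ifs <;> omega
  · intro i j
    have := hM i j
    have := hM j i
    unfold cutHt
    beta_reduce
    split_ifs <;> omega

theorem pat_iff_linRel (hpos : Function.Injective pos) {a : ι} {key : ι → ℤ}
    (hkey : ∀ i j, key i < key j ↔
      cutHt pos a i < cutHt pos a j ∨ (cutHt pos a i = cutHt pos a j ∧ pos i < pos j))
    {S T τ : Finset ι} (ha : a ∈ τ) {i j : ι} {e : ℕ} :
    Pat pos S T τ i j e ↔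
      i ∈ S ∧ LinRel key T τ i j ∧ (e : ℤ) = cutHt pos a j - cutHt pos a i := by
  constructor
  · rintro ⟨h1, h2, h3, h4⟩
    have k0 : ¬ (Le2 pos 0 i 0 a ∧ Lt2 pos 0 a e j) := fun h => h4 a ha ⟨0, h⟩
    have k1 : ¬ (Le2 pos 0 i 1 a ∧ Lt2 pos 1 a e j) := fun h => h4 a ha ⟨1, h⟩
    have k2 := hkey j i
    have he : (e : ℤ) = cutHt pos a j - cutHt pos a i := by
      unfold Lt2 Le2 cutHt at *
      split_ifs <;> omega
    refine ⟨h1, ⟨h2, ?_, ?_, fun b hb hc => ?_⟩, he⟩
    · rintro rfl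
      exact h4 a ha (cross_loop a h3)
    · unfold Lt2 at h3; omega
    · have l1 := hkey b i
      have l2 := hkey b j
      refine h4 b hb ⟨(cutHt pos a b - cutHt pos a i).toNat, ?_, ?_⟩ <;> unfold Lt2 Le2 at * <;>
        omega
  · rintro ⟨h1, ⟨h2, h3, h4, h5⟩, he⟩
    have hne : pos i ≠ pos j := fun h => h3 (hpos h)
    have k2 := hkey j i
    refine ⟨h1, h2, by unfold Lt2; omega, fun b hb ⟨n, c1, c2⟩ => h5 b hb ?_⟩
    have l1 := hkey b i
    have l2 := hkey b j
    unfold Lt2 Le2 cutHt at *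
    split_ifs at * <;> omega

theorem scale_mem [Finite F] {key ht : ι → ℤ} {T τ : Finset ι} (hkey : Set.InjOn key T)
    {P : ι → ι → ℕ → Prop}
    (h : ∀ i j, LinRel key T τ i j → ht i ≤ ht j ∧ P i j (ht j - ht i).toNat)
    {k : SpecialLinearGroup ι F} (hk : k ∈ LinG F key T τ) :
    GoodFor ht k ∧ scale (xx F s) ht k ∈ grp (mono F s P) := by
  rw [mem_LinG hkey] at hk
  have hg : GoodFor ht k := by
    intro i j hij
    by_cases e : i = j
    · rw [e]
    · exact (h i j (hk.2 i j e hij)).1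
  refine ⟨hg, mem_grp_of_inNet (fun i j => ?_)⟩
  rw [scale_apply _ hg]
  by_cases e : i = j
  · subst e
    simp [hk.1 i]
  · rw [Matrix.one_apply_ne e, sub_zero]
    by_cases h0 : k i j = 0
    · simp [h0]
    · exact mon_mem_mono (h i j (hk.2 i j e h0)).2 (k i j)

theorem exists_img_subgroup {Γ G : Type} [Group Γ] [Group G] (K : Subgroup Γ) (φ : Γ → G)
    (hmul : ∀ x ∈ K, ∀ y ∈ K, φ (x * y) = φ x * φ y) :
    ∃ K' : Subgroup G, (K' : Set G) = φ '' K := by
  have hφ1 : φ 1 = 1 := by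
    have := hmul 1 K.one_mem 1 K.one_mem
    rw [one_mul] at this
    exact (mul_eq_left.mp this.symm)
  refine ⟨{ carrier := φ '' K, mul_mem' := ?_, one_mem' := ⟨1, K.one_mem, hφ1⟩, inv_mem' := ?_ },
    rfl⟩
  · rintro _ _ ⟨x, hx, rfl⟩ ⟨y, hy, rfl⟩
    exact ⟨x * y, K.mul_mem hx hy, hmul x hx y hy⟩
  · rintro _ ⟨x, hx, rfl⟩
    refine ⟨x⁻¹, K.inv_mem hx, eq_inv_of_mul_eq_one_left ?_⟩
    rw [← hmul _ (K.inv_mem hx) _ hx, inv_mul_cancel, hφ1]

theorem card_HH_le [Finite F] (hpos : Function.Injective pos) {σ : Finset ι} (hσ : σ.Nonempty) :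
    Nat.card (HH F s pos univ univ σ) ≤ Nat.card F ^ (Fintype.card ι * Fintype.card ι) := by
  obtain ⟨a, ha⟩ := hσ
  let f : HH F s pos univ univ σ → (ι × ι → F) := fun g p =>
    co (if pos p.1 < pos p.2 then 0 else 1) (g.1 p.1 p.2 - (1 : Matrix ι ι (Rs F s)) p.1 p.2)
  have hf : Function.Injective f := by
    intro g g' h
    apply Subtype.ext
    ext i j
    have : g.1 i j - (1 : Matrix ι ι (Rs F s)) i j = g'.1 i j - (1 : Matrix ι ι (Rs F s)) i j := by
      refine ext_co (fun e _ => ?_)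
      by_cases he : e = if pos i < pos j then 0 else 1
      · rw [he]; exact congrFun h (i, j)
      · have k1 : co e (g.1 i j - (1 : Matrix ι ι (Rs F s)) i j) = 0 := by
          by_contra h0; exact he (pat_exp ha (mem_HH.mp g.2 i j e h0))
        have k2 : co e (g'.1 i j - (1 : Matrix ι ι (Rs F s)) i j) = 0 := by
          by_contra h0; exact he (pat_exp ha (mem_HH.mp g'.2 i j e h0))
        rw [k1, k2]
    exact sub_left_injective this
  have := Nat.card_le_card_of_injective f hf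
  rwa [Nat.card_fun, Nat.card_prod, Nat.card_eq_fintype_card (α := ι)] at this

theorem le_card_HH [Finite F] (hpos : Function.Injective pos) (hm : 2 ≤ Fintype.card ι) :
    s ≤ Nat.card (HH F s pos (univ : Finset ι) univ ∅) := by
  obtain ⟨i, j, hij⟩ : ∃ i j : ι, pos i < pos j := by
    obtain ⟨i, j, h⟩ := Fintype.exists_pair_of_one_lt_card (α := ι) (by omega)
    have : pos i ≠ pos j := fun e => h (hpos e)
    rcases lt_or_gt_of_ne this with h | h
    · exact ⟨i, j, h⟩
    · exact ⟨j, i, h⟩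
  have hne : i ≠ j := fun e => by subst e; omega
  let f : Rs F s → HH F s pos (univ : Finset ι) univ ∅ := fun r => ⟨elem i j r,
    elem_mem_grp (fun e _ => ⟨mem_univ _, mem_univ _, by unfold Lt2; omega, by simp⟩)⟩
  have hf : Function.Injective f := fun r r' h => elem_injective hne (congrArg Subtype.val h)
  exact le_card_Rs.trans (Nat.card_le_card_of_injective f hf)

/-- The links of the cyclic system have bounded cones. -/
theorem hasCone_HH [Finite F] (hpos : Function.Injective pos) (hs : 2 ≤ s) {R : ℕ}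
    (hc : LinCones F ι R) {σ : Finset ι} (hσ : σ.Nonempty) {j : ℕ} (hj : σ.card ≤ j)
    (hjm : j + 1 ≤ Fintype.card ι) : HasCone (HH F s pos univ univ) univ σ j R := by
  obtain ⟨a, ha⟩ := hσ
  obtain ⟨key, hinj, hmax, hkey⟩ := exists_cutKey hpos a
  have hrel : ∀ τ, a ∈ τ → ∀ i j, LinRel key univ τ i j → cutHt pos a i ≤ cutHt pos a j ∧
      Pat pos univ univ τ i j (cutHt pos a j - cutHt pos a i).toNat := by
    intro τ hτ i j h
    have h1 : cutHt pos a i ≤ cutHt pos a j := by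
      have := hkey j i
      have := h.2.2.1
      omega
    exact ⟨h1, (pat_iff_linRel hpos hkey hτ).mpr ⟨mem_univ _, h, by omega⟩⟩
  have hgood : ∀ k ∈ LinG F key univ σ, GoodFor (cutHt pos a) k := fun k hk =>
    (scale_mem (s := s) hinj.injOn (hrel σ ha) hk).1
  have hmul : ∀ x ∈ LinG F key univ σ, ∀ y ∈ LinG F key univ σ,
      scale (xx F s) (cutHt pos a) (x * y) =
        scale (xx F s) (cutHt pos a) x * scale (xx F s) (cutHt pos a) y :=
    fun x hx y hy => scale_mul _ (hgood x hx) (hgood y hy)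
  refine HasCone.map (LinG_anti key univ) (scale (xx F s) (cutHt pos a)) hmul ?_ ?_ (subset_univ _)
    (hc key univ hinj.injOn a (mem_univ _) (fun u _ => hmax u) σ ha (subset_univ _) j hj
      (by simpa using hjm))
  · intro x hx y hy h
    ext i j
    have e := congrArg (fun g : SpecialLinearGroup ι (Rs F s) => g i j) h
    simp only [scale_apply _ (hgood x hx), scale_apply _ (hgood y hy)] at e
    refine mon_injective (s := s) (e := (cutHt pos a j - cutHt pos a i).toNat) ?_ e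
    unfold cutHt
    split_ifs <;> simp <;> omega
  · intro τ h1 _
    have haτ : a ∈ τ := h1 ha
    obtain ⟨K', hK'⟩ := exists_img_subgroup (LinG F key univ τ) (scale (xx F s) (cutHt pos a))
      (fun x hx y hy => hmul x (LinG_anti key univ h1 hx) y (LinG_anti key univ h1 hy))
    apply Set.Subset.antisymm
    · rw [← hK']
      refine grp_mono_le (closed_Pat pos univ univ τ) (not_pat_self haτ) K'
        (fun i j e c _ hp => ?_)
      obtain ⟨_, k2, k3⟩ := (pat_iff_linRel hpos hkey haτ).mp hp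
      have : elem i j (mon s c e) ∈ (K' : Set _) := by
        rw [hK']
        refine ⟨elem i j c, elem_mem_LinG k2 c, ?_⟩
        rw [scale_elem _ (hrel τ haτ i j k2).1, ← k3, Int.toNat_natCast]
        rfl
      exact this
    · rintro _ ⟨k, hk, rfl⟩
      exact (scale_mem hinj.injOn (hrel τ haτ) hk).2

end Vale.Agent.P067
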