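import Vale.Agent.P067.Basic

/-! Averaging operators, angles, the Heisenberg estimate and trickling down. -/

namespace Vale.Agent.P067

open Finset

variable {Γ : Type} [Group Γ] [Fintype Γ]

/-- Averaging over the coset `g K`. -/
noncomputable def avg (K : Subgroup Γ) (φ : Γ → ℝ) (g : Γ) : ℝ :=
  (∑ h ∈ elts K, φ (g * h)) / (elts K).card

theorem card_elts_pos' (K : Subgroup Γ) : (0 : ℝ) < (elts K).card := by
  exact_mod_cast card_elts_pos K

theorem avg_rinv (K : Subgroup Γ) (φ : Γ → ℝ) : RInv K (avg K φ) := by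
  intro g h hh
  simp only [avg, mul_assoc]
  rw [sum_elts_mul_left hh (fun k => φ (g * k))]

theorem avg_of_rinv {K : Subgroup Γ} {φ : Γ → ℝ} (h : RInv K φ) : avg K φ = φ := by
  funext g
  have : ∑ k ∈ elts K, φ (g * k) = ∑ _k ∈ elts K, φ g :=
    Finset.sum_congr rfl fun k hk => h g k (mem_elts.mp hk)
  have hp := card_elts_pos' K
  rw [avg, this, Finset.sum_const, nsmul_eq_mul]
  field_simp

theorem RInv.mono {A : Type} {K L : Subgroup Γ} (h : K ≤ L) {φ : Γ → A} (hφ : RInv L φ) :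
    RInv K φ := fun g k hk => hφ g k (h hk)

theorem sum_mul_avg (K : Subgroup Γ) (φ ψ : Γ → ℝ) :
    ∑ g, φ g * avg K ψ g = ∑ g, avg K φ g * ψ g := by
  have h1 : ∑ g, φ g * ∑ h ∈ elts K, ψ (g * h) = ∑ g, (∑ h ∈ elts K, φ (g * h)) * ψ g := by
    simp only [Finset.mul_sum, Finset.sum_mul]
    rw [Finset.sum_comm, Finset.sum_comm (s := univ),
      ← sum_elts_inv K (fun h => ∑ g, φ (g * h) * ψ g)]
    refine Finset.sum_congr rfl fun h _ => ?_
    exact Fintype.sum_equiv (Equiv.mulRight h) _ _ fun g => by simp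
  simp only [avg, ← mul_div_assoc, div_mul_eq_mul_div, ← Finset.sum_div, h1]

theorem sum_avg (K : Subgroup Γ) (φ : Γ → ℝ) : ∑ g, avg K φ g = ∑ g, φ g := by
  have h := sum_mul_avg K (fun _ => 1) φ
  rw [avg_of_rinv (φ := fun _ => (1 : ℝ)) fun _ _ _ => rfl] at h
  simpa using h

theorem avg_avg_of_le {K L : Subgroup Γ} (h : K ≤ L) (φ : Γ → ℝ) :
    avg L (avg K φ) = avg L φ := by
  funext g
  have hp := card_elts_pos' K
  have : ∑ l ∈ elts L, ∑ k ∈ elts K, φ (g * l * k) = ∑ _k ∈ elts K, ∑ l ∈ elts L, φ (g * l) := by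
    rw [Finset.sum_comm]
    refine Finset.sum_congr rfl fun k hk => ?_
    simp only [mul_assoc]
    exact sum_elts_mul_right (h (mem_elts.mp hk)) (fun l => φ (g * l))
  simp only [avg, ← Finset.sum_div, this, Finset.sum_const, nsmul_eq_mul]
  field_simp

theorem avg_mono (K : Subgroup Γ) {φ ψ : Γ → ℝ} (h : ∀ g, φ g ≤ ψ g) (g : Γ) :
    avg K φ g ≤ avg K ψ g :=
  div_le_div_of_nonneg_right (Finset.sum_le_sum fun _ _ => h _) (card_elts_pos' K).le

theorem avg_mul_of_rinv {K : Subgroup Γ} {χ : Γ → ℝ} (hχ : RInv K χ) (φ : Γ → ℝ) (g : Γ) :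
    avg K (fun x => χ x * φ x) g = χ g * avg K φ g := by
  simp only [avg, ← mul_div_assoc, Finset.mul_sum]
  congr 1
  exact Finset.sum_congr rfl fun k hk => by rw [hχ g k (mem_elts.mp hk)]

theorem avg_sum {α : Type} (K : Subgroup Γ) (s : Finset α) (φ : α → Γ → ℝ) (g : Γ) :
    avg K (fun x => ∑ a ∈ s, φ a x) g = ∑ a ∈ s, avg K (φ a) g := by
  simp only [avg, ← Finset.sum_div]
  rw [Finset.sum_comm]

theorem avg_sub (K : Subgroup Γ) (φ ψ : Γ → ℝ) (g : Γ) :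
    avg K (fun x => φ x - ψ x) g = avg K φ g - avg K ψ g := by
  simp only [avg, Finset.sum_sub_distrib, sub_div]

omit [Fintype Γ] in
theorem RInv.sup {A : Type} {X Y : Subgroup Γ} {φ : Γ → A} (hX : ∀ g, ∀ h ∈ X, φ (g * h) = φ g)
    (hY : ∀ g, ∀ h ∈ Y, φ (g * h) = φ g) : ∀ g, ∀ h ∈ X ⊔ Y, φ (g * h) = φ g := by
  let S : Subgroup Γ :=
    { carrier := {h | ∀ g, φ (g * h) = φ g}
      mul_mem' := fun {a b} ha hb g => by rw [← mul_assoc, hb, ha]
      one_mem' := fun g => by rw [mul_one]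
      inv_mem' := fun {a} ha g => by rw [← ha (g * a⁻¹)]; simp }
  have : X ⊔ Y ≤ S := sup_le (fun h hh g => hX g h hh) (fun h hh g => hY g h hh)
  exact fun g h hh => this hh g

theorem sum_avg_sq (K : Subgroup Γ) (φ : Γ → ℝ) :
    ∑ g, avg K φ g ^ 2 = ∑ g, φ g * avg K φ g := by
  have h := sum_mul_avg K φ (avg K φ)
  rw [avg_of_rinv (avg_rinv K φ)] at h
  rw [h]; simp only [sq]

theorem sum_sub_avg_sq (K : Subgroup Γ) (φ : Γ → ℝ) :
    ∑ g, (φ g - avg K φ g) ^ 2 = ∑ g, φ g ^ 2 - ∑ g, avg K φ g ^ 2 := by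
  have h := sum_avg_sq K φ
  have : ∀ g, (φ g - avg K φ g) ^ 2 = φ g ^ 2 - 2 * (φ g * avg K φ g) + avg K φ g ^ 2 :=
    fun g => by ring
  simp only [this, Finset.sum_add_distrib, Finset.sum_sub_distrib, ← Finset.mul_sum, ← h]
  ring

theorem sum_mul_split (K : Subgroup Γ) (φ ψ : Γ → ℝ) :
    ∑ g, φ g * ψ g = ∑ g, avg K φ g * avg K ψ g +
      ∑ g, (φ g - avg K φ g) * (ψ g - avg K ψ g) := by
  have h1 := sum_mul_avg K φ ψ
  have h2 := sum_mul_avg K φ (avg K ψ)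
  rw [avg_of_rinv (avg_rinv K ψ)] at h2
  have : ∀ g, (φ g - avg K φ g) * (ψ g - avg K ψ g) =
      φ g * ψ g - φ g * avg K ψ g - avg K φ g * ψ g + avg K φ g * avg K ψ g := fun g => by ring
  simp only [this, Finset.sum_add_distrib, Finset.sum_sub_distrib]
  linarith

/-- The angle condition between `X`-invariant and `Y`-invariant functions, relative to `L`. -/
def Ang (X Y L : Subgroup Γ) (lam : ℝ) : Prop :=
  ∀ φ : Γ → ℝ, RInv X φ →
    ∑ g, (avg Y φ g - avg L φ g) ^ 2 ≤ lam ^ 2 * ∑ g, (φ g - avg L φ g) ^ 2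

/-- The Heisenberg estimate (it covers commuting `X`, `Y` with `Z = ⊥`). -/
theorem ang_heis {X Y Z L : Subgroup Γ} (hX : X ≤ L) (hY : Y ≤ L) (hZ : Z ≤ L) (hL : L ≤ X ⊔ Y)
    (hXZ : ∀ x ∈ X, ∀ z ∈ Z, x * z = z * x)
    (hXY : ∀ x ∈ X, ∀ y ∈ Y, ∃ z ∈ Z, x * y = y * z * x)
    (h1 : ∀ y ∈ Y, y ≠ 1 → ∀ z ∈ Z, ∃ x ∈ X, ∃ x' ∈ X, y * z = x * y * x')
    {lam : ℝ} (hlam : 1 ≤ lam ^ 2 * Nat.card Y) : Ang X Y L lam := by
  classical
  intro φ hφ
  set φ0 : Γ → ℝ := fun g => φ g - avg L φ g with hφ0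
  have hX0 : RInv X φ0 := fun g x hx => by
    simp only [hφ0, hφ g x hx, avg_rinv L φ g x (hX hx)]
  have hL0 : ∀ g, avg L φ0 g = 0 := fun g => by
    rw [hφ0, avg_sub, avg_of_rinv (avg_rinv L φ), sub_self]
  have hY0 : ∀ g, avg Y φ g - avg L φ g = avg Y φ0 g := fun g => by
    rw [hφ0, avg_sub, avg_of_rinv ((avg_rinv L φ).mono hY)]
  set c : Γ → ℝ := fun g => ∑ w, φ0 w * φ0 (w * g) with hc
  have hcX : ∀ g, ∀ x ∈ X, ∀ x' ∈ X, c (x * g * x') = c g := by
    intro g x hx x' hx'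
    simp only [hc]
    refine Fintype.sum_equiv (Equiv.mulRight x) _ _ fun w => ?_
    simp only [Equiv.coe_mulRight]
    rw [← mul_assoc, hX0 _ x' hx', hX0 w x hx, mul_assoc]
  have hsum : ∀ K : Subgroup Γ, ∑ k ∈ elts K, c k = (elts K).card * ∑ g, avg K φ0 g ^ 2 := by
    intro K
    have hp := card_elts_pos' K
    rw [sum_avg_sq]
    simp only [hc, avg, ← mul_div_assoc, ← Finset.sum_div]
    rw [Finset.sum_comm, mul_div_cancel_left₀ _ hp.ne']
    simp only [Finset.mul_sum]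
  set ψ : Γ → ℝ := fun w => ∑ y ∈ elts Y, ∑ z ∈ elts Z, φ0 (w * y * z) with hψ
  have hψY : ∀ g, ∀ y ∈ Y, ψ (g * y) = ψ g := fun g y hy => by
    simp only [hψ, mul_assoc g y]
    exact sum_elts_mul_left hy (fun y => ∑ z ∈ elts Z, φ0 (g * y * z))
  have hψX : ∀ g, ∀ x ∈ X, ψ (g * x) = ψ g := fun g x hx => by
    simp only [hψ]
    refine Finset.sum_congr rfl fun y hy => ?_
    obtain ⟨z', hz', e⟩ := hXY x hx y (mem_elts.mp hy)
    rw [← sum_elts_mul_left hz' (fun z => φ0 (g * y * z))]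
    refine Finset.sum_congr rfl fun z hz => ?_
    have : g * x * y * z = g * y * (z' * z) * x := by
      calc g * x * y * z = g * (x * y) * z := by simp only [mul_assoc]
        _ = g * y * z' * (x * z) := by rw [e]; simp only [mul_assoc]
        _ = _ := by rw [hXZ x hx z (mem_elts.mp hz)]; simp only [mul_assoc]
    rw [this, hX0 _ x hx]
  have hψL : RInv L ψ := fun g l hl => RInv.sup hψX hψY g l (hL hl)
  have hψ0 : ∀ g, ψ g = 0 := fun g => by
    rw [← avg_of_rinv hψL, hψ, avg_sum]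
    refine Finset.sum_eq_zero fun y hy => ?_
    rw [avg_sum]
    refine Finset.sum_eq_zero fun z hz => ?_
    rw [← hL0 g]
    simp only [avg, mul_assoc]
    rw [sum_elts_mul_right (L.mul_mem (hY (mem_elts.mp hy)) (hZ (mem_elts.mp hz)))
      (fun l => φ0 (g * l))]
  have h2 : ∑ y ∈ elts Y, ∑ z ∈ elts Z, c (y * z) = 0 := by
    have : ∑ w, φ0 w * ψ w = 0 := by simp [hψ0]
    rw [← this]
    simp only [hc, hψ, Finset.mul_sum, mul_assoc]
    rw [Finset.sum_comm (s := univ)]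
    refine Finset.sum_congr rfl fun y _ => ?_
    rw [Finset.sum_comm]
  have h1Y : (1 : Γ) ∈ elts Y := mem_elts.mpr Y.one_mem
  rw [← Finset.add_sum_erase _ _ h1Y] at h2
  have h3 : ∑ y ∈ (elts Y).erase 1, ∑ z ∈ elts Z, c (y * z) =
      (elts Z).card * ∑ y ∈ (elts Y).erase 1, c y := by
    rw [Finset.mul_sum]
    refine Finset.sum_congr rfl fun y hy => ?_
    rw [Finset.mem_erase, mem_elts] at hy
    rw [← nsmul_eq_mul, ← Finset.sum_const]
    refine Finset.sum_congr rfl fun z hz => ?_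
    obtain ⟨x, hx, x', hx', e⟩ := h1 y hy.2 hy.1 z (mem_elts.mp hz)
    rw [e, hcX y x hx x' hx']
  simp only [one_mul] at h2
  rw [h3, hsum Z, ← mul_add, mul_eq_zero] at h2
  have h4 := h2.resolve_left (card_elts_pos' Z).ne'
  have h5 : 0 ≤ ∑ g, avg Z φ0 g ^ 2 := Finset.sum_nonneg fun _ _ => sq_nonneg _
  have h6 := hsum Y
  rw [← Finset.add_sum_erase _ _ h1Y] at h6
  have h7 : c 1 = ∑ g, φ0 g ^ 2 := by simp [hc, sq]
  have h8 : 0 ≤ ∑ g, φ0 g ^ 2 := Finset.sum_nonneg fun _ _ => sq_nonneg _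
  rw [card_elts] at h6
  have hp : (0 : ℝ) < Nat.card Y := by rw [← card_elts]; exact card_elts_pos' Y
  simp only [hY0]
  refine le_of_mul_le_mul_left ?_ hp
  change _ ≤ _ * (lam ^ 2 * ∑ g, φ0 g ^ 2)
  nlinarith

theorem Ang.mono {X Y L : Subgroup Γ} {a b : ℝ} (h : Ang X Y L a) (ha : 0 ≤ a) (hab : a ≤ b) :
    Ang X Y L b := fun φ hφ =>
  (h φ hφ).trans (mul_le_mul_of_nonneg_right (pow_le_pow_left₀ ha hab 2)
    (Finset.sum_nonneg fun _ _ => sq_nonneg _))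

/-- The Euclidean norm. -/
noncomputable def nrm (φ : Γ → ℝ) : ℝ := Real.sqrt (∑ g, φ g ^ 2)

omit [Group Γ] in
theorem nrm_nonneg (φ : Γ → ℝ) : 0 ≤ nrm φ := Real.sqrt_nonneg _

omit [Group Γ] in
theorem nrm_sq (φ : Γ → ℝ) : nrm φ ^ 2 = ∑ g, φ g ^ 2 :=
  Real.sq_sqrt (Finset.sum_nonneg fun _ _ => sq_nonneg _)

omit [Group Γ] in
theorem sum_mul_le_nrm (φ ψ : Γ → ℝ) : ∑ g, φ g * ψ g ≤ nrm φ * nrm ψ :=
  Real.sum_mul_le_sqrt_mul_sqrt _ _ _

/-- Bilinear form of the angle condition. -/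
def Bil (X Y L : Subgroup Γ) (lam : ℝ) : Prop :=
  ∀ φ ψ : Γ → ℝ, RInv X φ → RInv Y ψ → (∀ g, avg L φ g = 0) → (∀ g, avg L ψ g = 0) →
    ∑ g, φ g * ψ g ≤ lam * (nrm φ * nrm ψ)

theorem Ang.nrm_le {X Y L : Subgroup Γ} {lam : ℝ} (h : Ang X Y L lam) (hl : 0 ≤ lam)
    {φ : Γ → ℝ} (hφ : RInv X φ) (h0 : ∀ g, avg L φ g = 0) : nrm (avg Y φ) ≤ lam * nrm φ := by
  have := h φ hφ
  simp only [h0, sub_zero, ← nrm_sq, ← mul_pow] at this
  exact (pow_le_pow_iff_left₀ (nrm_nonneg _) (mul_nonneg hl (nrm_nonneg _)) two_ne_zero).mp this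

theorem Ang.bil {X Y L : Subgroup Γ} {lam : ℝ} (h : Ang X Y L lam) (hl : 0 ≤ lam) :
    Bil X Y L lam := by
  intro φ ψ hφ hψ h0 _
  have h1 := sum_mul_avg Y φ ψ
  rw [avg_of_rinv hψ] at h1
  rw [h1, ← mul_assoc]
  exact (sum_mul_le_nrm _ _).trans
    (mul_le_mul_of_nonneg_right (h.nrm_le hl hφ h0) (nrm_nonneg _))

theorem Bil.ang {X Y L : Subgroup Γ} {lam : ℝ} (h : Bil X Y L lam) (hl : 0 ≤ lam)
    (hX : X ≤ L) (hY : Y ≤ L) : Ang X Y L lam := by
  intro φ hφ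
  set φ0 : Γ → ℝ := fun g => φ g - avg L φ g with hφ0
  have hX0 : RInv X φ0 := fun g x hx => by
    simp only [hφ0, hφ g x hx, avg_rinv L φ g x (hX hx)]
  have hL0 : ∀ g, avg L φ0 g = 0 := fun g => by
    rw [hφ0, avg_sub, avg_of_rinv (avg_rinv L φ), sub_self]
  have hY0 : ∀ g, avg Y φ g - avg L φ g = avg Y φ0 g := fun g => by
    rw [hφ0, avg_sub, avg_of_rinv ((avg_rinv L φ).mono hY)]
  have h1 := h φ0 (avg Y φ0) hX0 (avg_rinv _ _) hL0 (fun g => by rw [avg_avg_of_le hY, hL0])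
  rw [← sum_avg_sq, ← nrm_sq] at h1
  simp only [hY0]
  change _ ≤ lam ^ 2 * ∑ g, φ0 g ^ 2
  rw [← nrm_sq, ← nrm_sq, ← mul_pow]
  refine pow_le_pow_left₀ (nrm_nonneg _) ?_ 2
  rcases (nrm_nonneg (avg Y φ0)).eq_or_lt with h2 | h2
  · rw [← h2]; exact mul_nonneg hl (nrm_nonneg _)
  · refine le_of_mul_le_mul_right ?_ h2
    nlinarith

theorem exists_ang_lt_one {X Y L : Subgroup Γ} (hX : X ≤ L) (hY : Y ≤ L) (hL : L ≤ X ⊔ Y) :
    ∃ γ : ℝ, 0 ≤ γ ∧ γ < 1 ∧ Ang X Y L γ := by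
  have key : ∀ l ∈ X ⊔ Y, ∃ C : ℝ, 0 ≤ C ∧ ∀ φ : Γ → ℝ, RInv X φ →
      ∑ g, (φ (g * l) - φ g) ^ 2 ≤ C * ∑ g, (φ g - avg Y φ g) ^ 2 := by
    intro l hl
    rw [Subgroup.sup_eq_closure] at hl
    induction hl using Subgroup.closure_induction with
    | mem x hx =>
      rcases hx with hx | hx
      · exact ⟨0, le_rfl, fun φ hφ => by simp [hφ _ x hx]⟩
      · refine ⟨4, by norm_num, fun φ _ => ?_⟩
        have e : ∑ g, (φ (g * x) - avg Y φ (g * x)) ^ 2 = ∑ g, (φ g - avg Y φ g) ^ 2 :=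
          Fintype.sum_equiv (Equiv.mulRight x) _ _ fun _ => rfl
        have : ∀ g, (φ (g * x) - φ g) ^ 2 ≤
            2 * (φ (g * x) - avg Y φ (g * x)) ^ 2 + 2 * (φ g - avg Y φ g) ^ 2 := fun g => by
          rw [avg_rinv Y φ g x hx]
          nlinarith [sq_nonneg (φ (g * x) - avg Y φ g + (φ g - avg Y φ g))]
        refine (Finset.sum_le_sum fun g _ => this g).trans (le_of_eq ?_)
        rw [Finset.sum_add_distrib, ← Finset.mul_sum, ← Finset.mul_sum, e]; ring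
    | one => exact ⟨0, le_rfl, fun φ _ => by simp⟩
    | mul x y _ _ ihx ihy =>
      obtain ⟨C, hC, h1⟩ := ihx
      obtain ⟨C', hC', h2⟩ := ihy
      refine ⟨2 * C + 2 * C', by positivity, fun φ hφ => ?_⟩
      have e : ∑ g, (φ (g * x * y) - φ (g * x)) ^ 2 = ∑ g, (φ (g * y) - φ g) ^ 2 :=
        Fintype.sum_equiv (Equiv.mulRight x) _ _ fun _ => rfl
      have : ∀ g, (φ (g * (x * y)) - φ g) ^ 2 ≤
          2 * (φ (g * x * y) - φ (g * x)) ^ 2 + 2 * (φ (g * x) - φ g) ^ 2 := fun g => by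
        rw [← mul_assoc]
        nlinarith [sq_nonneg (φ (g * x * y) - φ (g * x) - (φ (g * x) - φ g))]
      refine (Finset.sum_le_sum fun g _ => this g).trans ?_
      rw [Finset.sum_add_distrib, ← Finset.mul_sum, ← Finset.mul_sum, e]
      have := h1 φ hφ
      have := h2 φ hφ
      linarith
    | inv x _ ih =>
      obtain ⟨C, hC, h1⟩ := ih
      refine ⟨C, hC, fun φ hφ => le_trans (le_of_eq ?_) (h1 φ hφ)⟩
      refine Fintype.sum_equiv (Equiv.mulRight x⁻¹) _ _ fun g => ?_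
      simp only [Equiv.coe_mulRight, inv_mul_cancel_right]; ring
  choose! C hC0 hC using key
  set D : ℝ := ∑ l ∈ elts L, C l + 1 with hD
  have hD1 : 1 ≤ D := by
    have : 0 ≤ ∑ l ∈ elts L, C l := Finset.sum_nonneg fun l hl => hC0 l (hL (mem_elts.mp hl))
    linarith
  have hD2 : 0 ≤ 1 - 1 / D := by
    rw [sub_nonneg, div_le_one (by linarith)]; exact hD1
  refine ⟨Real.sqrt (1 - 1 / D), Real.sqrt_nonneg _, ?_, fun φ hφ => ?_⟩
  · rw [Real.sqrt_lt' one_pos]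
    have : 0 < 1 / D := by positivity
    linarith
  set φ0 : Γ → ℝ := fun g => φ g - avg L φ g with hφ0
  have hX0 : RInv X φ0 := fun g x hx => by
    simp only [hφ0, hφ g x hx, avg_rinv L φ g x (hX hx)]
  have hL0 : ∀ g, avg L φ0 g = 0 := fun g => by
    rw [hφ0, avg_sub, avg_of_rinv (avg_rinv L φ), sub_self]
  have hY0 : ∀ g, avg Y φ g - avg L φ g = avg Y φ0 g := fun g => by
    rw [hφ0, avg_sub, avg_of_rinv ((avg_rinv L φ).mono hY)]
  simp only [hY0]
  change _ ≤ _ * ∑ g, φ0 g ^ 2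
  rw [Real.sq_sqrt hD2]
  have hp := card_elts_pos' L
  have hp1 : (1 : ℝ) ≤ (elts L).card := by exact_mod_cast card_elts_pos L
  have h1 : ∑ l ∈ elts L, ∑ g, (φ0 (g * l) - φ0 g) ^ 2 = (elts L).card * (2 * ∑ g, φ0 g ^ 2) := by
    have e1 : ∀ l, ∑ g, (φ0 (g * l) - φ0 g) ^ 2 =
        2 * ∑ g, φ0 g ^ 2 - 2 * ∑ g, φ0 g * φ0 (g * l) := fun l => by
      have e : ∑ g, φ0 (g * l) ^ 2 = ∑ g, φ0 g ^ 2 :=
        Fintype.sum_equiv (Equiv.mulRight l) _ _ fun _ => rfl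
      have : ∀ g, (φ0 (g * l) - φ0 g) ^ 2 =
          φ0 (g * l) ^ 2 + φ0 g ^ 2 - 2 * (φ0 g * φ0 (g * l)) := fun g => by ring
      simp only [this, Finset.sum_sub_distrib, Finset.sum_add_distrib, ← Finset.mul_sum, e]
      ring
    have e2 : ∑ l ∈ elts L, ∑ g, φ0 g * φ0 (g * l) = 0 := by
      rw [Finset.sum_comm]
      refine Finset.sum_eq_zero fun g _ => ?_
      have := hL0 g
      rw [avg, div_eq_zero_iff] at this
      rw [← Finset.mul_sum, this.resolve_right hp.ne', mul_zero]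
    simp only [e1, Finset.sum_sub_distrib, ← Finset.mul_sum, e2, Finset.sum_const, nsmul_eq_mul]
    ring
  have h2 : ∑ l ∈ elts L, ∑ g, (φ0 (g * l) - φ0 g) ^ 2 ≤
      (∑ l ∈ elts L, C l) * ∑ g, (φ0 g - avg Y φ0 g) ^ 2 := by
    rw [Finset.sum_mul]
    exact Finset.sum_le_sum fun l hl => hC l (hL (mem_elts.mp hl)) φ0 hX0
  have h3 := sum_sub_avg_sq Y φ0
  have h4 : 0 ≤ ∑ g, φ0 g ^ 2 := Finset.sum_nonneg fun _ _ => sq_nonneg _
  have h5 : 0 ≤ ∑ g, (φ0 g - avg Y φ0 g) ^ 2 := Finset.sum_nonneg fun _ _ => sq_nonneg _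
  have h6 : ∑ g, φ0 g ^ 2 ≤ D * ∑ g, (φ0 g - avg Y φ0 g) ^ 2 := by
    rw [hD]; nlinarith
  have h7 : 1 / D * ∑ g, φ0 g ^ 2 ≤ ∑ g, (φ0 g - avg Y φ0 g) ^ 2 := by
    rw [div_mul_eq_mul_div, one_mul, div_le_iff₀ (by linarith)]; linarith
  linarith

variable {ι : Type} [Fintype ι] [DecidableEq ι]

/-- Local spectral expansion of the partite system `H`. -/
def Spec (H : Finset ι → Subgroup Γ) (lam : ℝ) : Prop :=
  ∀ σ a b, a ∉ σ → b ∉ σ → a ≠ b → Ang (H (insert b σ)) (H (insert a σ)) (H σ) lam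

omit [Fintype ι] in
theorem trickle_step {H : Finset ι → Subgroup Γ} (hH : Antitone H) {σ : Finset ι} {a b c : ι}
    {lam γ : ℝ} (hl0 : 0 ≤ lam) (hl1 : lam ≤ 1) (hγ : 0 ≤ γ)
    (hup : Ang (H (insert b (insert c σ))) (H (insert a (insert c σ))) (H (insert c σ)) lam)
    (hb : Ang (H (insert b σ)) (H (insert c σ)) (H σ) γ)
    (ha : Ang (H (insert a σ)) (H (insert c σ)) (H σ) γ) :
    Ang (H (insert b σ)) (H (insert a σ)) (H σ) (γ ^ 2 + lam * (1 - γ ^ 2)) := by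
  refine Bil.ang (fun φ ψ hφ hψ h0 h0' => ?_) (by nlinarith [sq_nonneg γ])
    (hH (Finset.subset_insert _ _)) (hH (Finset.subset_insert _ _))
  have inv : ∀ {d : ι} {χ : Γ → ℝ}, RInv (H (insert d σ)) χ →
      RInv (H (insert d (insert c σ))) (fun g => χ g - avg (H (insert c σ)) χ g) := by
    intro d χ hχ g k hk
    simp only
    rw [hχ g k (hH (Finset.insert_subset_insert _ (Finset.subset_insert _ _)) hk),
      avg_rinv _ χ g k (hH (Finset.subset_insert _ _) hk)]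
  have z : ∀ (χ : Γ → ℝ) g,
      avg (H (insert c σ)) (fun g => χ g - avg (H (insert c σ)) χ g) g = 0 := fun χ g => by
    rw [avg_sub, avg_of_rinv (avg_rinv _ χ), sub_self]
  have h1 := hup.bil hl0 _ _ (inv hφ) (inv hψ) (z φ) (z ψ)
  have h2 := sum_mul_le_nrm (avg (H (insert c σ)) φ) (avg (H (insert c σ)) ψ)
  have h3 := hb.nrm_le hγ hφ h0
  have h4 := ha.nrm_le hγ hψ h0'
  have h5 := sum_sub_avg_sq (H (insert c σ)) φ
  have h6 := sum_sub_avg_sq (H (insert c σ)) ψ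
  rw [sum_mul_split (H (insert c σ))]
  simp only [← nrm_sq] at h5 h6
  have n1 := nrm_nonneg φ
  have n2 := nrm_nonneg ψ
  have n3 := nrm_nonneg (avg (H (insert c σ)) φ)
  have n4 := nrm_nonneg (avg (H (insert c σ)) ψ)
  have n5 := nrm_nonneg (fun g => φ g - avg (H (insert c σ)) φ g)
  have n6 := nrm_nonneg (fun g => ψ g - avg (H (insert c σ)) ψ g)
  generalize nrm φ = A at *
  generalize nrm ψ = B at *
  generalize nrm (avg (H (insert c σ)) φ) = x at *
  generalize nrm (avg (H (insert c σ)) ψ) = y at *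
  generalize nrm (fun g => φ g - avg (H (insert c σ)) φ g) = x' at *
  generalize nrm (fun g => ψ g - avg (H (insert c σ)) ψ g) = y' at *
  have h7 : x * y + x' * y' ≤ A * B := by
    refine (pow_le_pow_iff_left₀ (by positivity) (by positivity) two_ne_zero).mp ?_
    have : (A * B) ^ 2 = (x ^ 2 + x' ^ 2) * (y ^ 2 + y' ^ 2) := by
      rw [mul_pow, h5, h6]; ring
    rw [this]; nlinarith [sq_nonneg (x * y' - x' * y)]
  have h8 : x * y ≤ γ ^ 2 * (A * B) := by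
    calc x * y ≤ (γ * A) * (γ * B) := mul_le_mul h3 h4 n4 (by positivity)
      _ = _ := by ring
  nlinarith

theorem trickle {H : Finset ι → Subgroup Γ} (hH : Antitone H)
    (hgen : ∀ σ a b, a ∉ σ → b ∉ σ → a ≠ b → H σ ≤ H (insert a σ) ⊔ H (insert b σ))
    {σ : Finset ι} (hσ : σ.card + 3 ≤ Fintype.card ι) {lam : ℝ} (hl0 : 0 ≤ lam) (hl1 : lam < 1)
    (hup : ∀ c ∉ σ, ∀ a b, a ∉ insert c σ → b ∉ insert c σ → a ≠ b →
      Ang (H (insert b (insert c σ))) (H (insert a (insert c σ))) (H (insert c σ)) lam) :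
    ∀ a b, a ∉ σ → b ∉ σ → a ≠ b →
      Ang (H (insert b σ)) (H (insert a σ)) (H σ) (lam / (1 - lam)) := by
  set S : Set ℝ := {γ | 0 ≤ γ ∧ ∀ a b, a ∉ σ → b ∉ σ → a ≠ b →
    Ang (H (insert b σ)) (H (insert a σ)) (H σ) γ} with hS
  obtain ⟨γ0, hγ0, hγ1⟩ : ∃ γ0 ∈ S, γ0 < 1 := by
    have : ∀ p : ι × ι, ∃ γ : ℝ, 0 ≤ γ ∧ γ < 1 ∧ (p.1 ∉ σ → p.2 ∉ σ → p.1 ≠ p.2 →
        Ang (H (insert p.2 σ)) (H (insert p.1 σ)) (H σ) γ) := by
      intro p
      by_cases h : p.1 ∉ σ ∧ p.2 ∉ σ ∧ p.1 ≠ p.2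
      · obtain ⟨γ, h1, h2, h3⟩ := exists_ang_lt_one (hH (Finset.subset_insert p.2 σ))
          (hH (Finset.subset_insert p.1 σ)) (hgen σ p.2 p.1 h.2.1 h.1 h.2.2.symm)
        exact ⟨γ, h1, h2, fun _ _ _ => h3⟩
      · exact ⟨0, le_rfl, one_pos, fun h1 h2 h3 => absurd ⟨h1, h2, h3⟩ h⟩
    choose f hf0 hf1 hf using this
    have : Nonempty ι := Fintype.card_pos_iff.mp (by omega)
    obtain ⟨p, -, hp⟩ := Finset.exists_max_image (univ : Finset (ι × ι)) f Finset.univ_nonempty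
    exact ⟨f p, ⟨hf0 p, fun a b ha hb hab =>
      (hf (a, b) ha hb hab).mono (hf0 _) (hp _ (Finset.mem_univ _))⟩, hf1 p⟩
  have hbdd : BddBelow S := ⟨0, fun γ hγ => hγ.1⟩
  have hg0 : 0 ≤ sInf S := le_csInf ⟨γ0, hγ0⟩ fun γ hγ => hγ.1
  have hg1 : sInf S < 1 := (csInf_le hbdd hγ0).trans_lt hγ1
  have hgS : ∀ a b, a ∉ σ → b ∉ σ → a ≠ b →
      Ang (H (insert b σ)) (H (insert a σ)) (H σ) (sInf S) := by
    intro a b ha hb hab
    refine Bil.ang (fun φ ψ hφ hψ h0 h0' => ?_) hg0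
      (hH (Finset.subset_insert _ _)) (hH (Finset.subset_insert _ _))
    have hall : ∀ γ ∈ S, ∑ g, φ g * ψ g ≤ γ * (nrm φ * nrm ψ) := fun γ hγ =>
      (hγ.2 a b ha hb hab).bil hγ.1 φ ψ hφ hψ h0 h0'
    rcases (mul_nonneg (nrm_nonneg φ) (nrm_nonneg ψ)).eq_or_lt with h | h
    · have := hall γ0 hγ0
      rw [← h] at this ⊢
      simpa using this
    · rw [← div_le_iff₀ h]
      exact le_csInf ⟨γ0, hγ0⟩ fun γ hγ => (div_le_iff₀ h).mpr (hall γ hγ)
  have hf : sInf S ^ 2 + lam * (1 - sInf S ^ 2) ∈ S := by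
    refine ⟨by nlinarith [sq_nonneg (sInf S)], fun a b ha hb hab => ?_⟩
    obtain ⟨c, hc⟩ : ∃ c, c ∉ insert a (insert b σ) := by
      by_contra hc
      push Not at hc
      have h1 : insert a (insert b σ) = univ := Finset.eq_univ_iff_forall.mpr hc
      have h2 := Finset.card_insert_le a (insert b σ)
      have h3 := Finset.card_insert_le b σ
      rw [h1, Finset.card_univ] at h2
      omega
    simp only [Finset.mem_insert, not_or] at hc
    exact trickle_step hH hl0 hl1.le hg0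
      (hup c hc.2.2 a b (by simp [ha, Ne.symm hc.1]) (by simp [hb, Ne.symm hc.2.1]) hab)
      (hgS c b hc.2.2 hb hc.2.1) (hgS c a hc.2.2 ha hc.1)
  have h1 := csInf_le hbdd hf
  intro a b ha hb hab
  refine (hgS a b ha hb hab).mono hg0 ?_
  rw [le_div_iff₀ (by linarith)]
  have h2 : (1 - sInf S) * (sInf S * (1 - lam)) ≤ (1 - sInf S) * lam := by nlinarith
  exact le_of_mul_le_mul_left h2 (by linarith)

/-- Trickling down. -/
theorem spec_of_base {H : Finset ι → Subgroup Γ} (hH : Antitone H)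
    (hgen : ∀ σ a b, a ∉ σ → b ∉ σ → a ≠ b → H σ ≤ H (insert a σ) ⊔ H (insert b σ))
    (N : ℕ) (hN : 1 ≤ N)
    (hbase : ∀ σ a b, a ∉ σ → b ∉ σ → a ≠ b → σ.card + 2 = Fintype.card ι →
      Ang (H (insert b σ)) (H (insert a σ)) (H σ) (1 / ((N : ℝ) + Fintype.card ι))) :
    Spec H (1 / (N : ℝ)) := by
  have hN' : (1 : ℝ) ≤ N := by exact_mod_cast hN
  have key : ∀ k : ℕ, ∀ σ : Finset ι, σ.card + 2 + k = Fintype.card ι → ∀ a b, a ∉ σ → b ∉ σ →
      a ≠ b → Ang (H (insert b σ)) (H (insert a σ)) (H σ) (1 / ((N : ℝ) + (σ.card + 2))) := by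
    intro k
    induction k with
    | zero =>
      intro σ hσ a b ha hb hab
      have := hbase σ a b ha hb hab hσ
      rw [← hσ] at this
      simpa using this
    | succ k ih =>
      intro σ hσ
      have hc0 : (0 : ℝ) ≤ σ.card := by positivity
      have := trickle hH hgen (σ := σ) (by omega) (lam := 1 / ((N : ℝ) + (σ.card + 3)))
        (by positivity) (by rw [div_lt_one (by positivity)]; linarith) (fun c hc a b ha hb hab => by
          have := ih (insert c σ) (by rw [Finset.card_insert_of_notMem hc]; omega) a b ha hb hab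
          rw [Finset.card_insert_of_notMem hc] at this
          convert this using 2
          push_cast; ring)
      have e : 1 / ((N : ℝ) + (σ.card + 2)) =
          1 / ((N : ℝ) + (σ.card + 3)) / (1 - 1 / ((N : ℝ) + (σ.card + 3))) := by
        have h1 : (N : ℝ) + (σ.card + 3) ≠ 0 := by positivity
        have h2 : (N : ℝ) + (σ.card + 2) ≠ 0 := by positivity
        have h3 : 1 - 1 / ((N : ℝ) + (σ.card + 3)) =
            ((N : ℝ) + (σ.card + 2)) / ((N : ℝ) + (σ.card + 3)) := by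
          field_simp; ring
        rw [h3]; field_simp
      rw [e]; exact this
  intro σ a b ha hb hab
  have h1 : σ.card + 2 ≤ Fintype.card ι := by
    have := Finset.card_le_univ (insert a (insert b σ))
    rwa [Finset.card_insert_of_notMem (by simp [ha, hab]), Finset.card_insert_of_notMem hb]
      at this
  have hc0 : (0 : ℝ) ≤ σ.card := by positivity
  refine (key (Fintype.card ι - (σ.card + 2)) σ (by omega) a b ha hb hab).mono (by positivity) ?_
  exact one_div_le_one_div_of_le (by linarith) (by linarith)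

/-- A function of colour `b` is almost orthogonal to functions of a face avoiding `b`. -/
theorem Spec.face {H : Finset ι → Subgroup Γ} (hH : Antitone H) {lam : ℝ} (h : Spec H lam)
    {σ τ : Finset ι} {b : ι} (hστ : σ ⊆ τ) (hb : b ∉ τ) {φ : Γ → ℝ}
    (hφ : RInv (H (insert b σ)) φ) :
    ∑ g, (avg (H τ) φ g - avg (H σ) φ g) ^ 2 ≤
      (Fintype.card ι : ℝ) * lam ^ 2 * ∑ g, φ g ^ 2 := by
  have hn : 0 ≤ lam ^ 2 * ∑ g, φ g ^ 2 :=
    mul_nonneg (sq_nonneg _) (Finset.sum_nonneg fun _ _ => sq_nonneg _)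
  have key : ∀ s : Finset ι, b ∉ σ ∪ s →
      ∑ g, (avg (H (σ ∪ s)) φ g - avg (H σ) φ g) ^ 2 ≤ s.card * (lam ^ 2 * ∑ g, φ g ^ 2) := by
    intro s
    induction s using Finset.induction_on with
    | empty => simp
    | insert a s has ih =>
      intro hb
      rw [Finset.card_insert_of_notMem has, Finset.union_insert] at *
      rw [Finset.mem_insert, not_or] at hb
      have ih' := ih hb.2
      by_cases ha : a ∈ σ ∪ s
      · rw [Finset.insert_eq_of_mem ha]; push_cast; linarith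
      have h1 := h (σ ∪ s) a b ha hb.2 (Ne.symm hb.1) φ
        (hφ.mono (hH (Finset.insert_subset_insert _ Finset.subset_union_left)))
      have h2 := sum_sub_avg_sq (H (σ ∪ s)) φ
      have h3 : 0 ≤ ∑ g, avg (H (σ ∪ s)) φ g ^ 2 := Finset.sum_nonneg fun _ _ => sq_nonneg _
      have h4 := sum_sub_avg_sq (H (σ ∪ s))
        (fun g => avg (H (insert a (σ ∪ s))) φ g - avg (H σ) φ g)
      have e : ∀ g, avg (H (σ ∪ s)) (fun g => avg (H (insert a (σ ∪ s))) φ g - avg (H σ) φ g) g =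
          avg (H (σ ∪ s)) φ g - avg (H σ) φ g := fun g => by
        rw [avg_sub, avg_avg_of_le (hH (Finset.subset_insert _ _)),
          avg_of_rinv ((avg_rinv (H σ) φ).mono (hH Finset.subset_union_left))]
      simp only [e, sub_sub_sub_cancel_right] at h4
      have h5 : lam ^ 2 * ∑ g, (φ g - avg (H (σ ∪ s)) φ g) ^ 2 ≤ lam ^ 2 * ∑ g, φ g ^ 2 :=
        mul_le_mul_of_nonneg_left (by linarith) (sq_nonneg _)
      push_cast; linarith
  have := key τ (by rwa [Finset.union_eq_right.mpr hστ])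
  rw [Finset.union_eq_right.mpr hστ] at this
  refine this.trans ?_
  rw [mul_assoc]
  exact mul_le_mul_of_nonneg_right (by exact_mod_cast Finset.card_le_univ τ) hn

end Vale.Agent.P067
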