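import Vale.Agent.P067.Cyc
import Vale.Agent.P067.Spec

/-! Local spectral expansion of the cyclic system. -/

set_option linter.unusedSectionVars false
set_option linter.unusedVariables false

namespace Vale.Agent.P067

open Finset Matrix

variable {ι : Type} [Fintype ι] [DecidableEq ι] {F : Type} [Field F] [Finite F] {s : ℕ}
  {pos : ι → ℤ}

/-- A root subgroup. -/
def rootGrp (F : Type) [Field F] (s : ℕ) (i j : ι) (e : ℕ) :
    Subgroup (SpecialLinearGroup ι (Rs F s)) where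
  carrier := {g | ∃ c : F, g = elem i j (mon s c e)}
  mul_mem' := by
    rintro _ _ ⟨c, rfl⟩ ⟨c', rfl⟩
    exact ⟨c + c', by rw [mon_add, elem_add]⟩
  one_mem' := ⟨0, by rw [mon_zero, elem_zero]⟩
  inv_mem' := by
    rintro _ ⟨c, rfl⟩
    exact ⟨-c, by rw [mon_neg, elem_inv]⟩

theorem exists_arrow (hpos : Function.Injective pos) (hm : 2 ≤ Fintype.card ι) (a : ι) :
    ∃ (a' : ι) (e : ℕ), a' ≠ a ∧ e ≤ 1 ∧ Lt2 pos 0 a e a' ∧
      (∀ j e', Lt2 pos 0 a e' j → Le2 pos e a' e' j) := by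
  obtain ⟨v, _, h⟩ := exists_succ pos (A := univ) (mem_univ a)
  rcases h with ⟨h1, h2⟩ | ⟨h1, h2⟩
  · refine ⟨v, 0, fun e => by subst e; omega, by omega, Or.inr ⟨rfl, h1⟩, fun j e' h => ?_⟩
    have := h2 j (mem_univ j)
    unfold Lt2 Le2 at *; omega
  · refine ⟨v, 1, ?_, le_rfl, Or.inl (by omega), fun j e' h => ?_⟩
    · rintro rfl
      obtain ⟨w, hw⟩ := Fintype.exists_ne_of_one_lt_card (α := ι) (by omega) v
      have k1 := h1 w (mem_univ w)
      have k2 := h2 w (mem_univ w)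
      exact hw (hpos (le_antisymm k1 k2))
    · have k1 := h1 j (mem_univ j)
      have k2 := h2 j (mem_univ j)
      unfold Lt2 Le2 at *; omega

theorem HH_eq_rootGrp (hpos : Function.Injective pos) {a a' : ι} {e : ℕ} (h1 : a' ≠ a)
    (h2 : e ≤ 1) (h3 : Lt2 pos 0 a e a') (h4 : ∀ j e', Lt2 pos 0 a e' j → Le2 pos e a' e' j)
    {τ : Finset ι} (hτ : ∀ c, c ∈ τ ↔ c ≠ a) : HH F s pos univ univ τ = rootGrp F s a a' e := by
  apply le_antisymm
  · refine HH_le_of_elem hpos univ τ _ (fun i j e' c _ h => ?_)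
    have hi : i = a := by
      by_contra hi
      exact h.2.2.2 i ((hτ i).mpr hi) (cross_self h.2.2.1)
    subst hi
    have k1 := h4 j e' h.2.2.1
    have k2 : ¬ Lt2 pos e a' e' j := fun k =>
      h.2.2.2 a' ((hτ a').mpr h1) ⟨e, by unfold Lt2 Le2 at *; omega, k⟩
    have k3 : e = e' ∧ pos a' = pos j := by unfold Lt2 Le2 at *; omega
    rw [← k3.1, ← hpos k3.2]
    exact ⟨c, rfl⟩
  · rintro _ ⟨c, rfl⟩
    refine elem_mem_HH ⟨mem_univ _, mem_univ _, h3, fun b hb ⟨n, k1, k2⟩ => ?_⟩ c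
    have hne : pos b ≠ pos a := fun e => (hτ b).mp hb (hpos e)
    have := h4 b n (by unfold Lt2 Le2 at *; omega)
    unfold Lt2 Le2 at *; omega

theorem card_rootGrp {i j : ι} (hij : i ≠ j) {e : ℕ} (he : e < s) :
    Nat.card F ≤ Nat.card (rootGrp F s i j e) := by
  let f : F → rootGrp F s i j e := fun c => ⟨elem i j (mon s c e), c, rfl⟩
  exact Nat.card_le_card_of_injective f
    (fun c c' h => mon_injective he (elem_injective hij (congrArg Subtype.val h)))

theorem ang_HH [Fintype (SpecialLinearGroup ι (Rs F s))] (hpos : Function.Injective pos)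
    (hs : 2 ≤ s) (hm : 3 ≤ Fintype.card ι) {σ : Finset ι} {a b : ι} (ha : a ∉ σ) (hb : b ∉ σ)
    (hab : a ≠ b) (hσ : σ.card + 2 = Fintype.card ι) {lam : ℝ}
    (hlam : 1 ≤ lam ^ 2 * Nat.card F) :
    Ang (HH F s pos univ univ (insert b σ)) (HH F s pos univ univ (insert a σ))
      (HH F s pos univ univ σ) lam := by
  have huniv : insert a (insert b σ) = univ := by
    apply Finset.eq_univ_of_card
    rw [Finset.card_insert_of_notMem (by simp [hab, ha]), Finset.card_insert_of_notMem hb]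
    omega
  have hall : ∀ c, c = a ∨ c = b ∨ c ∈ σ := fun c => by
    have : c ∈ insert a (insert b σ) := huniv ▸ mem_univ c
    simpa using this
  obtain ⟨a', ea, a1, a2, a3, a4⟩ := exists_arrow hpos (by omega) a
  obtain ⟨b', eb, b1, b2, b3, b4⟩ := exists_arrow hpos (by omega) b
  have hX : HH F s pos univ univ (insert b σ) = rootGrp F s a a' ea :=
    HH_eq_rootGrp hpos a1 a2 a3 a4 (fun c => by
      rw [Finset.mem_insert]
      constructor
      · rintro (rfl | h)
        · exact hab.symm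
        · exact fun e => ha (e ▸ h)
      · exact fun h => (hall c).resolve_left h)
  have hY : HH F s pos univ univ (insert a σ) = rootGrp F s b b' eb :=
    HH_eq_rootGrp hpos b1 b2 b3 b4 (fun c => by
      rw [Finset.mem_insert]
      constructor
      · rintro (rfl | h)
        · exact hab
        · exact fun e => hb (e ▸ h)
      · intro h
        rcases hall c with h' | h' | h'
        · exact Or.inl h'
        · exact absurd h' h
        · exact Or.inr h')
  have hXL : rootGrp F s a a' ea ≤ HH F s pos univ univ σ :=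
    hX ▸ HH_anti _ _ (Finset.subset_insert _ _)
  have hYL : rootGrp F s b b' eb ≤ HH F s pos univ univ σ :=
    hY ▸ HH_anti _ _ (Finset.subset_insert _ _)
  have hL : HH F s pos univ univ σ ≤ rootGrp F s a a' ea ⊔ rootGrp F s b b' eb := by
    rw [← hX, ← hY]; exact HH_le_sup hpos hm σ hab.symm
  have hlam' : 1 ≤ lam ^ 2 * Nat.card (rootGrp F s b b' eb) := by
    refine hlam.trans (mul_le_mul_of_nonneg_left ?_ (sq_nonneg _))
    exact_mod_cast card_rootGrp b1.symm (by omega)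
  rw [hX, hY]
  have hnot : ¬ (a' = b ∧ b' = a) := by
    rintro ⟨rfl, rfl⟩
    obtain ⟨l, l1, l2⟩ := exists_third hm a' b'
    have k1 : pos l ≠ pos a' := fun e => l1 (hpos e)
    have k2 : pos l ≠ pos b' := fun e => l2 (hpos e)
    have k3 : pos a' ≠ pos b' := fun e => a1 (hpos e)
    have c1 := a4 l 0
    have c2 := a4 l 1
    have c3 := b4 l 0
    have c4 := b4 l 1
    unfold Lt2 Le2 at *
    omega
  by_cases h1 : a' = b
  · subst h1
    have hb'a : b' ≠ a := fun e => hnot ⟨rfl, e⟩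
    refine ang_heis (Z := rootGrp F s a b' (ea + eb)) hXL hYL ?_ hL ?_ ?_ ?_ hlam'
    · rintro _ ⟨c, rfl⟩
      rw [← mul_one c, ← mon_mul, elem_eq_comm hab b1.symm hb'a.symm]
      have k1 := hXL ⟨c, rfl⟩
      have k2 := hYL ⟨1, rfl⟩
      exact Subgroup.mul_mem _ (Subgroup.mul_mem _ (Subgroup.mul_mem _ (Subgroup.inv_mem _ k2) k1)
        k2) (Subgroup.inv_mem _ k1)
    · rintro _ ⟨c, rfl⟩ _ ⟨c', rfl⟩
      exact elem_comm a1 hb'a _ _
    · rintro _ ⟨c, rfl⟩ _ ⟨c', rfl⟩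
      exact ⟨_, ⟨c * c', rfl⟩, by rw [elem_mul_elem hab b1.symm hb'a.symm, mon_mul]⟩
    · rintro _ ⟨β, rfl⟩ hβ _ ⟨γ, rfl⟩
      have hβ0 : β ≠ 0 := by
        rintro rfl; exact hβ (by rw [mon_zero, elem_zero])
      refine ⟨_, ⟨γ / β, rfl⟩, _, Subgroup.inv_mem _ ⟨γ / β, rfl⟩, ?_⟩
      rw [elem_mul_elem hab b1.symm hb'a.symm, mon_mul, div_mul_cancel₀ _ hβ0]
      group
  by_cases h2 : b' = a
  · subst h2
    have key : ∀ c c' : F, elem b' a' (mon s c ea) * elem b b' (mon s c' eb) =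
        elem b b' (mon s c' eb) * elem b a' (mon s (-(c' * c)) (eb + ea)) *
          elem b' a' (mon s c ea) := by
      intro c c'
      have e1 := elem_mul_elem b1.symm a1.symm (Ne.symm h1) (mon s c' eb) (mon s c ea)
      rw [mon_mul] at e1
      have e2 := elem_comm (i := b') (j := a') (k := b) (l := a') h1 a1 (mon s c ea)
        (mon s (c' * c) (eb + ea))
      have e3 := elem_comm (i := b) (j := b') (k := b) (l := a') b1 h1 (mon s c' eb)
        (mon s (c' * c) (eb + ea))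
      rw [mon_neg, ← elem_inv]
      set x := elem b' a' (mon s c ea)
      set y := elem b b' (mon s c' eb)
      set z := elem b a' (mon s (c' * c) (eb + ea))
      have e4 : y * z⁻¹ = z⁻¹ * y := by
        calc y * z⁻¹ = z⁻¹ * (z * y) * z⁻¹ := by group
          _ = z⁻¹ * (y * z) * z⁻¹ := by rw [e3]
          _ = z⁻¹ * y := by group
      rw [e4, mul_assoc, e1, e2]
      group
    refine ang_heis (Z := rootGrp F s b a' (eb + ea)) hXL hYL ?_ hL ?_ ?_ ?_ hlam'
    · rintro _ ⟨c, rfl⟩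
      rw [← mul_one c, ← mon_mul, elem_eq_comm b1.symm a1.symm (Ne.symm h1)]
      have k1 := hYL ⟨c, rfl⟩
      have k2 := hXL ⟨1, rfl⟩
      exact Subgroup.mul_mem _ (Subgroup.mul_mem _ (Subgroup.mul_mem _ (Subgroup.inv_mem _ k2) k1)
        k2) (Subgroup.inv_mem _ k1)
    · rintro _ ⟨c, rfl⟩ _ ⟨c', rfl⟩
      exact elem_comm h1 a1 _ _
    · rintro _ ⟨c, rfl⟩ _ ⟨c', rfl⟩
      exact ⟨_, ⟨-(c' * c), rfl⟩, key c c'⟩
    · rintro _ ⟨β, rfl⟩ hβ _ ⟨γ, rfl⟩
      have hβ0 : β ≠ 0 := by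
        rintro rfl; exact hβ (by rw [mon_zero, elem_zero])
      refine ⟨_, ⟨-(γ / β), rfl⟩, _, Subgroup.inv_mem _ ⟨-(γ / β), rfl⟩, ?_⟩
      rw [key, show -(β * -(γ / β)) = γ by field_simp]
      group
  · refine ang_heis (Z := ⊥) hXL hYL bot_le hL ?_ ?_ ?_ hlam'
    · intro x _ z hz
      rw [Subgroup.mem_bot.mp hz]; simp
    · rintro _ ⟨c, rfl⟩ _ ⟨c', rfl⟩
      exact ⟨1, Subgroup.one_mem _, by rw [mul_one]; exact elem_comm h1 h2 _ _⟩
    · intro y _ _ z hz
      rw [Subgroup.mem_bot.mp hz]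
      exact ⟨1, Subgroup.one_mem _, 1, Subgroup.one_mem _, by simp⟩

theorem spec_HH [Fintype (SpecialLinearGroup ι (Rs F s))] (hpos : Function.Injective pos)
    (hs : 2 ≤ s) (hm : 3 ≤ Fintype.card ι) {N : ℕ} (hN : 1 ≤ N)
    (hF : (N + Fintype.card ι) ^ 2 ≤ Nat.card F) :
    Spec (HH F s pos (univ : Finset ι) univ) (1 / (N : ℝ)) := by
  refine spec_of_base (HH_anti _ _) (fun σ a b _ _ hab => HH_le_sup hpos hm σ hab) N hN
    (fun σ a b ha hb hab hσ => ang_HH hpos hs hm ha hb hab hσ ?_)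
  have h1 : ((N : ℝ) + Fintype.card ι) ^ 2 ≤ Nat.card F := by exact_mod_cast hF
  have h2 : (0 : ℝ) < (N : ℝ) + Fintype.card ι := by
    have : (1 : ℝ) ≤ N := by exact_mod_cast hN
    positivity
  rw [div_pow, one_pow, div_mul_eq_mul_div, one_mul, le_div_iff₀ (by positivity), one_mul]
  exact h1

end Vale.Agent.P067
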