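import Mathlib

/-! Definitions used in the statement of P067 (coboundary expanders over `ZMod 2`). -/

namespace Vale.Agent.P067

open Finset

variable {V : Type} [Fintype V] [DecidableEq V]

open Classical in
/-- `X(i)`: the faces of `X` with `i + 1` vertices. -/
noncomputable def facesOf (X : AbstractSimplicialComplex V) (i : ℕ) : Finset (Finset V) :=
  univ.filter (fun σ => σ ∈ X.faces ∧ σ.card = i + 1)

/-- `X` is pure `d`-dimensional: every face lies in a `d`-face. -/
def IsPure (X : AbstractSimplicialComplex V) (d : ℕ) : Prop :=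
  ∀ σ ∈ X.faces, ∃ τ ∈ facesOf X d, σ ⊆ τ

/-- `X` is connected: its 1-skeleton is a connected (in particular nonempty) graph. -/
def IsConn (X : AbstractSimplicialComplex V) : Prop :=
  (SimpleGraph.fromRel (fun u v : V => ({u, v} : Finset V) ∈ X.faces)).Connected

/-- The number of `d`-faces containing the vertex set `σ`. -/
noncomputable def cofaces (X : AbstractSimplicialComplex V) (d : ℕ) (σ : Finset V) : ℕ :=
  ((facesOf X d).filter (fun τ => σ ⊆ τ)).card

/-- The degree of `X`: the largest number of `d`-faces containing a single vertex. -/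
noncomputable def degree (X : AbstractSimplicialComplex V) (d : ℕ) : ℕ :=
  univ.sup (fun v : V => cofaces X d {v})

/-- `C^i(X)`: functions `X(i) → 𝔽₂`. -/
abbrev Cochain (X : AbstractSimplicialComplex V) (i : ℕ) : Type :=
  {σ : Finset V // σ ∈ facesOf X i} → ZMod 2

/-- The weight `w_i(σ)`. -/
noncomputable def weight (X : AbstractSimplicialComplex V) (d i : ℕ) (σ : Finset V) : ℝ :=
  (cofaces X d σ : ℝ) / (((d + 1).choose (i + 1) : ℝ) * ((facesOf X d).card : ℝ))

/-- The norm `‖f‖_i`: total weight of the support of `f`. -/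
noncomputable def cnorm (X : AbstractSimplicialComplex V) (d i : ℕ) (f : Cochain X i) : ℝ :=
  ∑ σ ∈ univ.filter (fun σ => f σ ≠ 0), weight X d i σ.1

/-- The coboundary `δ_i`. -/
noncomputable def cobdry (X : AbstractSimplicialComplex V) (i : ℕ) (f : Cochain X i) :
    Cochain X (i + 1) :=
  fun τ => ∑ σ ∈ univ.filter (fun σ : {σ : Finset V // σ ∈ facesOf X i} => σ.1 ⊆ τ.1), f σ

/-- `B^i`: the constants for `i = 0`, the image of `δ_{i-1}` for `i ≥ 1`. -/
def coboundaries (X : AbstractSimplicialComplex V) : (i : ℕ) → Set (Cochain X i)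
  | 0 => {f | ∃ c : ZMod 2, f = fun _ => c}
  | i + 1 => Set.range (cobdry X i)

/-- `dist_i(f, A) = min_{a ∈ A} ‖f - a‖_i`. -/
noncomputable def cdist (X : AbstractSimplicialComplex V) (d i : ℕ) (f : Cochain X i)
    (A : Set (Cochain X i)) : ℝ :=
  sInf ((fun a => cnorm X d i (f - a)) '' A)

/-- `X` is an `ε`-coboundary expander. -/
def IsCoboundaryExpander (X : AbstractSimplicialComplex V) (d : ℕ) (ε : ℝ) : Prop :=
  ∀ i < d, ∀ f : Cochain X i,
    ε * cdist X d i f (coboundaries X i) ≤ cnorm X d (i + 1) (cobdry X i f)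

end Vale.Agent.P067
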