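import Vale.Agent.P067.Geom4

/-! Bounded cones in complexes of opposite flags. -/

namespace Vale.Agent.P067

open Finset Matrix Geom

namespace Geom

variable {ι : Type} [Fintype ι] [DecidableEq ι] {F : Type} [Field F]
  [DecidableEq (ι × Submodule F (ι → F))] {key : ι → ℤ} {T σ : Finset ι}

/-- The face of the link of the standard face of type `σ` given by `τ` and `g`. -/
noncomputable def ph (key : ι → ℤ) (σ τ : Finset ι) (g : SpecialLinearGroup ι F) :
    Finset (ι × Submodule F (ι → F)) :=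
  (τ \ σ).image (vt key g)

omit [DecidableEq (ι × Submodule F (ι → F))] in
theorem vt_inj (g : SpecialLinearGroup ι F) : Function.Injective (vt key g) :=
  fun _ _ h => congrArg Prod.fst h

theorem bd_ph (τ : Finset ι) (g : SpecialLinearGroup ι F) :
    bd (sg (ph key σ τ g)) = ∑ b ∈ τ \ σ, sg (ph key σ (τ.erase b) g) := by
  rw [bd_sg, ph, sum_image fun a _ b _ h => vt_inj g h]
  refine sum_congr rfl fun b _ => ?_
  rw [ph, ← image_erase (vt_inj g), erase_sdiff_comm]

theorem image_fst_ph {τ : Finset ι} (h : σ ⊆ τ) (g : SpecialLinearGroup ι F) :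
    σ ∪ (ph key σ τ g).image Prod.fst = τ := by
  rw [ph, image_image]
  have : Prod.fst ∘ vt key g = id := rfl
  rw [this, image_id, union_sdiff_of_subset h]

variable [Finite F]

omit [DecidableEq (ι × Submodule F (ι → F))] in
theorem vt_mul (hkey : Set.InjOn key T) {τ : Finset ι} (g : SpecialLinearGroup ι F)
    {k : SpecialLinearGroup ι F} (hk : k ∈ LinG F key T τ) {c : ι} (hc : c ∈ τ) :
    vt key (g * k) c = vt key g c := by
  rw [vt, vt, act_mul, act_WW hkey hk hc]

theorem ph_mul (hkey : Set.InjOn key T) {τ : Finset ι} (g : SpecialLinearGroup ι F)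
    {k : SpecialLinearGroup ι F} (hk : k ∈ LinG F key T τ) :
    ph key σ τ (g * k) = ph key σ τ g :=
  image_congr fun _ hc => vt_mul hkey g hk (mem_sdiff.1 hc).1

theorem face_base (hkey : Set.InjOn key T) (hσ : σ ⊆ T) :
    (LG F key T).Face (σ.image (vt key 1)) := by
  refine ⟨fun x hx => ?_, fun x hx y hy hne => ?_⟩
  · obtain ⟨a, ha, rfl⟩ := mem_image.1 hx
    exact valid_vt hkey (LinG F key T ∅).one_mem (hσ ha)
  · obtain ⟨a, ha, rfl⟩ := mem_image.1 hx
    obtain ⟨b, hb, rfl⟩ := mem_image.1 hy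
    exact adj_vt hkey _ (hσ ha) (hσ hb) fun e => hne (e ▸ rfl)

theorem lk_ph (hkey : Set.InjOn key T) {τ : Finset ι} (h1 : σ ⊆ τ) (h2 : τ ⊆ T)
    {g : SpecialLinearGroup ι F} (hg : g ∈ LinG F key T σ) :
    (LG F key T).Lk (σ.image (vt key 1)) (τ.card - σ.card) (ph key σ τ g) := by
  refine ⟨⟨fun x hx => ?_, fun x hx y hy hne => ?_⟩, fun x hx y hy => ?_, ?_⟩
  · obtain ⟨a, ha, rfl⟩ := mem_image.1 hx
    exact valid_vt hkey hg (h2 (mem_sdiff.1 ha).1)
  · obtain ⟨a, ha, rfl⟩ := mem_image.1 hx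
    obtain ⟨b, hb, rfl⟩ := mem_image.1 hy
    exact adj_vt hkey _ (h2 (mem_sdiff.1 ha).1) (h2 (mem_sdiff.1 hb).1) fun e => hne (e ▸ rfl)
  · obtain ⟨a, ha, rfl⟩ := mem_image.1 hx
    obtain ⟨b, hb, rfl⟩ := mem_image.1 hy
    rw [← vt_mul hkey 1 hg hb, one_mul]
    exact adj_vt hkey _ (h2 (mem_sdiff.1 ha).1) (h2 (h1 hb))
      fun e => (mem_sdiff.1 ha).2 (e ▸ hb)
  · rw [ph, card_image_of_injective _ (vt_inj g), card_sdiff_of_subset h1]

theorem exists_ph (hkey : Set.InjOn key T) (hσ : σ ⊆ T) {k : ℕ}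
    {s : Finset (ι × Submodule F (ι → F))} (hs : (LG F key T).Lk (σ.image (vt key 1)) k s) :
    ∃ g ∈ LinG F key T σ, ph key σ (σ ∪ s.image Prod.fst) g = s := by
  have hb := face_base (F := F) hkey hσ
  obtain ⟨g, hg, h⟩ := exists_vt hkey (s := σ.image (vt key 1) ∪ s) (T := T) ⟨fun x hx => by
      rcases mem_union.1 hx with hx | hx
      exacts [hb.1 x hx, hs.1.1 x hx], fun x hx y hy hne => by
      rcases mem_union.1 hx with hx | hx <;> rcases mem_union.1 hy with hy | hy
      exacts [hb.2 x hx y hy hne, (hs.2.1 y hy x hx).symm, hs.2.1 x hx y hy,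
        hs.1.2 x hx y hy hne]⟩
  refine ⟨g, mem_LinG_of_act hkey hg fun c hc => ?_, ?_⟩
  · have := congrArg Prod.snd (h _ (mem_union_left _ (mem_image_of_mem _ hc)))
    exact (this.trans (act_one _)).le
  · have hd : Disjoint σ (s.image Prod.fst) := disjoint_left.2 fun c hc hc' => by
      obtain ⟨x, hx, rfl⟩ := mem_image.1 hc'
      exact (hs.2.1 x hx _ (mem_image_of_mem _ hc)).ne rfl
    rw [ph, union_sdiff_cancel_left hd, image_image]
    exact (image_congr fun x hx => h x (mem_union_right _ hx)).trans image_id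

theorem inv_mul_mem (hkey : Set.InjOn key T) {τ : Finset ι} {g h : SpecialLinearGroup ι F}
    (hg : g ∈ LinG F key T σ) (hh : h ∈ LinG F key T σ) (e : ph key σ τ g = ph key σ τ h) :
    g⁻¹ * h ∈ LinG F key T τ := by
  have hm := (LinG F key T σ).mul_mem ((LinG F key T σ).inv_mem hg) hh
  refine mem_LinG_of_act hkey hm fun c hc => ?_
  by_cases hcσ : c ∈ σ
  · exact (act_WW hkey hm hcσ).le
  · have : vt key h c ∈ ph key σ τ g := e ▸ mem_image_of_mem _ (mem_sdiff.2 ⟨hc, hcσ⟩)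
    obtain ⟨b, -, hb⟩ := mem_image.1 this
    obtain rfl : b = c := congrArg Prod.fst hb
    have hb' : act g (WW F key b) = act h (WW F key b) := congrArg Prod.snd hb
    rw [act_mul, ← hb', ← act_mul, inv_mul_cancel, act_one]

end Geom

theorem exists_linCones (m : ℕ) : ∃ q R : ℕ, ∀ (F : Type) [Field F] [Finite F], q < Nat.card F →
    ∀ (ι : Type) [Fintype ι] [DecidableEq ι], Fintype.card ι ≤ m → LinCones F ι R := by
  obtain ⟨R, M, hcone⟩ := cone_unif m
  refine ⟨M, R, fun F _ _ hF ι _ _ hm key T hkey top htop hmax σ htσ hσ j hj1 hj2 => ?_⟩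
  classical
  obtain ⟨k, rfl⟩ : ∃ k, j = σ.card + k := ⟨j - σ.card, by omega⟩
  obtain ⟨c', c, hc⟩ := hcone _ (LG F key T) T.card (σ.image (vt key 1)) k
    ((card_le_univ T).trans hm) (gen_LG hkey hF) (face_base hkey hσ)
    ⟨_, mem_image_of_mem _ htσ, by
      obtain ⟨a, ha, h⟩ := exists_rk hkey (i := T.card - 1) (by omega)
      have h1 := rk_lt_rk (key := key) (b := a) htop
      have h2 := rk_lt_card (key := key) htop
      have h3 := hmax a ha
      change rk key T top + 1 = _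
      omega⟩ (by
      have h1 : (T \ σ).image (rk key T) ⊆ (LG F key T).free T.card (σ.image (vt key 1)) := by
        intro i hi
        obtain ⟨a, ha, rfl⟩ := mem_image.1 hi
        rw [mem_sdiff] at ha
        refine mem_filter.2 ⟨mem_range.2 (rk_lt_card ha.1), fun y hy e => ?_⟩
        obtain ⟨b, hb, rfl⟩ := mem_image.1 hy
        exact ha.2 (rk_inj hkey (hσ hb) ha.1 e ▸ hb)
      have h2 := card_le_card h1
      rw [card_image_of_injOn ((rk_inj hkey).mono (coe_subset.2 sdiff_subset)),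
        card_sdiff_of_subset hσ] at h2
      omega)
  have hrep : ∀ s : Finset (ι × Submodule F (ι → F)),
      (∃ k, (LG F key T).Lk (σ.image (vt key 1)) k s) →
      ∃ g ∈ LinG F key T σ, ph key σ (σ ∪ s.image Prod.fst) g = s :=
    fun s ⟨_, hs⟩ => exists_ph hkey hσ hs
  choose! rep hrep1 hrep2 using hrep
  have hty : ∀ {k s}, (LG F key T).Lk (σ.image (vt key 1)) k s →
      σ ∪ s.image Prod.fst ⊆ T ∧ (σ ∪ s.image Prod.fst).card = σ.card + k := by
    intro k s hs
    have h1 : σ ∪ s.image Prod.fst ⊆ T := union_subset hσ fun a ha => by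
      obtain ⟨x, hx, rfl⟩ := mem_image.1 ha
      exact (hs.1.1 x hx).1
    have h2 := (lk_ph hkey subset_union_left h1 (hrep1 s ⟨k, hs⟩)).2.2
    rw [hrep2 s ⟨k, hs⟩, hs.2.2] at h2
    have := card_le_card (subset_union_left (s₁ := σ) (s₂ := s.image Prod.fst))
    exact ⟨h1, by omega⟩
  have hlk : ∀ τ, σ ⊆ τ → τ ⊆ T → τ.card = σ.card + k → ∀ h ∈ LinG F key T σ,
      (LG F key T).Lk (σ.image (vt key 1)) k (ph key σ τ h) := fun τ h1 h2 h3 h hh => by
    have := lk_ph hkey h1 h2 hh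
    rwa [h3, Nat.add_sub_cancel_left] at this
  refine ⟨fun τ h => if σ ⊆ τ ∧ τ ⊆ T ∧ τ.card = σ.card + k ∧ h ∈ LinG F key T σ then
    (c (ph key σ τ h)).support.image fun s => (σ ∪ s.image Prod.fst, rep s) else ∅,
    fun τ h => ?_, fun τ h p hp => ?_, fun A _ _ g hg => ?_⟩
  · dsimp only
    split_ifs with hh
    · exact card_image_le.trans (hc _ (hlk τ hh.1 hh.2.1 hh.2.2.1 h hh.2.2.2)).1.2
    · simp
  · dsimp only at hp
    split_ifs at hp with hh
    · obtain ⟨s, hs, rfl⟩ := mem_image.1 hp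
      have := (hc _ (hlk τ hh.1 hh.2.1 hh.2.2.1 h hh.2.2.2)).1.1 s hs
      exact ⟨subset_union_left, (hty this).1, (hty this).2, hrep1 s ⟨_, this⟩⟩
    · simp at hp
  · set gh : Finset (ι × Submodule F (ι → F)) → A :=
      fun s => g (σ ∪ s.image Prod.fst) (rep s) with hgh
    have hgh' : ∀ τ, σ ⊆ τ → τ ⊆ T → τ.card = σ.card + k → ∀ h ∈ LinG F key T σ,
        gh (ph key σ τ h) = g τ h := fun τ h1 h2 h3 h hh => by
      have e1 := hrep1 _ ⟨_, hlk τ h1 h2 h3 h hh⟩
      have e2 := hrep2 _ ⟨_, hlk τ h1 h2 h3 h hh⟩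
      rw [image_fst_ph h1] at e2
      have := hg τ h1 h2 h3 h hh _ (inv_mul_mem hkey hh e1 e2.symm)
      rw [mul_inv_cancel_left] at this
      simp only [hgh]
      rw [image_fst_ph h1, this]
    refine ⟨fun τ h => lin gh (c' (ph key σ τ h)), fun τ _ _ _ h _ k' hk' => ?_,
      fun τ h1 h2 h3 h hh => ?_⟩
    · dsimp only
      rw [ph_mul hkey h hk']
    · obtain ⟨e1, e2⟩ := hc _ (hlk τ h1 h2 h3 h hh)
      have e3 := congrArg (lin gh) e2
      rw [map_add, lin_sg, hgh' τ h1 h2 h3 h hh, bd_ph, map_sum, map_sum] at e3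
      simp only [lin_sg] at e3
      dsimp only
      rw [if_pos ⟨h1, h2, h3, hh⟩, sum_image fun s hs t ht e => by
        obtain ⟨e4, e5⟩ := Prod.mk.inj e
        have e6 := hrep2 s ⟨_, e1.1 s hs⟩
        rw [e4, e5] at e6
        exact e6.symm.trans (hrep2 t ⟨_, e1.1 t ht⟩)]
      simp only [dd, Finset.sum_apply]
      refine e3.symm.trans ?_
      conv_lhs => rw [eq_sum_sg (c (ph key σ τ h))]
      rw [map_sum, map_sum]
      refine sum_congr rfl fun s hs => ?_
      have hs' := e1.1 s hs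
      conv_lhs => rw [← hrep2 s ⟨_, hs'⟩]
      rw [bd_ph, map_sum]
      refine sum_congr rfl fun b hb => ?_
      rw [mem_sdiff] at hb
      rw [lin_sg]
      refine hgh' _ (fun a ha => mem_erase.2 ⟨fun e : a = b => hb.2 (e ▸ ha), mem_union_left _ ha⟩)
        ((erase_subset _ _).trans (hty hs').1) ?_ _ (hrep1 s ⟨_, hs'⟩)
      rw [card_erase_of_mem hb.1, (hty hs').2]
      rfl

end Vale.Agent.P067
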