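import Mathlib

/-! Chains of finite vertex sets modulo two: boundary, cones, links, vertex elimination. -/

namespace Vale.Agent.P067.Geom

open Finset

variable {X : Type} [DecidableEq X]

/-- Chains. -/
abbrev Ch (X : Type) : Type := Finset X →₀ ZMod 2

/-- A face as a chain. -/
noncomputable def sg (s : Finset X) : Ch X := Finsupp.single s 1

/-- Linear extension of a map defined on faces. -/
noncomputable def lin {A : Type} [AddCommGroup A] [Module (ZMod 2) A] (f : Finset X → A) :
    Ch X →ₗ[ZMod 2] A := Finsupp.linearCombination (ZMod 2) f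

omit [DecidableEq X] in
@[simp] theorem lin_sg {A : Type} [AddCommGroup A] [Module (ZMod 2) A] (f : Finset X → A)
    (s : Finset X) : lin f (sg s) = f s := by
  simp [lin, sg]

theorem zmod2_eq_one {a : ZMod 2} (h : a ≠ 0) : a = 1 := by
  revert a; decide

omit [DecidableEq X] in
theorem lin_eq {A : Type} [AddCommGroup A] [Module (ZMod 2) A] (f : Finset X → A) (z : Ch X) :
    lin f z = ∑ s ∈ z.support, f s := by
  rw [lin, Finsupp.linearCombination_apply, Finsupp.sum]
  refine sum_congr rfl fun s hs => ?_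
  rw [zmod2_eq_one (Finsupp.mem_support_iff.1 hs), one_smul]

omit [DecidableEq X] in
theorem eq_sum_sg (z : Ch X) : z = ∑ s ∈ z.support, sg s := by
  conv_lhs => rw [← Finsupp.sum_single z, Finsupp.sum]
  refine sum_congr rfl fun s hs => ?_
  rw [zmod2_eq_one (Finsupp.mem_support_iff.1 hs), sg]

omit [DecidableEq X] in
theorem ext_sg {A : Type} [AddCommGroup A] [Module (ZMod 2) A] {f g : Ch X →ₗ[ZMod 2] A}
    (h : ∀ s, f (sg s) = g (sg s)) (z : Ch X) : f z = g z := by
  rw [eq_sum_sg z, map_sum, map_sum]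
  exact sum_congr rfl fun s _ => h s

theorem add_self {A : Type} [AddCommGroup A] [Module (ZMod 2) A] (x : A) : x + x = 0 := by
  rw [← two_smul (ZMod 2) x]
  have : (2 : ZMod 2) = 0 := rfl
  rw [this, zero_smul]

/-- The boundary. -/
noncomputable def bd : Ch X →ₗ[ZMod 2] Ch X := lin fun s => ∑ x ∈ s, sg (s.erase x)

/-- The cone over a vertex. -/
noncomputable def cr (x : X) : Ch X →ₗ[ZMod 2] Ch X :=
  lin fun s => if x ∈ s then 0 else sg (insert x s)

/-- The link of a vertex. -/
noncomputable def an (x : X) : Ch X →ₗ[ZMod 2] Ch X :=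
  lin fun s => if x ∈ s then sg (s.erase x) else 0

theorem bd_sg (s : Finset X) : bd (sg s) = ∑ x ∈ s, sg (s.erase x) := lin_sg _ _

theorem cr_sg (x : X) (s : Finset X) : cr x (sg s) = if x ∈ s then 0 else sg (insert x s) :=
  lin_sg _ _

theorem an_sg (x : X) (s : Finset X) : an x (sg s) = if x ∈ s then sg (s.erase x) else 0 :=
  lin_sg _ _

theorem bd_cr (x : X) (z : Ch X) : bd (cr x z) = z + cr x (bd z) := by
  refine ext_sg (f := bd ∘ₗ cr x) (g := LinearMap.id + cr x ∘ₗ bd) (fun s => ?_) z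
  simp only [LinearMap.comp_apply, LinearMap.add_apply, LinearMap.id_apply, cr_sg, bd_sg, map_sum]
  split_ifs with hx
  · rw [map_zero, sum_eq_single x]
    · simp [insert_erase hx, add_self]
    · intro y hy hyx
      rw [if_pos (mem_erase.2 ⟨hyx.symm, hx⟩)]
    · intro h; exact absurd hx h
  · rw [bd_sg, sum_insert hx, erase_insert hx]
    congr 1
    refine sum_congr rfl fun y hy => ?_
    have hyx : x ≠ y := fun h => hx (h ▸ hy)
    rw [if_neg (fun h => hx (mem_of_mem_erase h)), erase_insert_of_ne hyx]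

theorem bd_an (x : X) (z : Ch X) : bd (an x z) = an x (bd z) := by
  refine ext_sg (f := bd ∘ₗ an x) (g := an x ∘ₗ bd) (fun s => ?_) z
  simp only [LinearMap.comp_apply, an_sg, bd_sg, map_sum]
  split_ifs with hx
  · rw [bd_sg, ← add_sum_erase _ _ hx, if_neg (notMem_erase x s), zero_add]
    refine sum_congr rfl fun y hy => ?_
    rw [if_pos (mem_erase.2 ⟨(ne_of_mem_erase hy).symm, hx⟩), erase_right_comm]
  · rw [map_zero]
    exact (sum_eq_zero fun y _ => if_neg fun h => hx (mem_of_mem_erase h)).symm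

theorem bd_bd_sg (s : Finset X) : bd (bd (sg s)) = 0 := by
  induction s using Finset.induction_on with
  | empty => simp [bd_sg]
  | insert a s ha ih =>
    have h1 : sg (insert a s) = cr a (sg s) := by rw [cr_sg, if_neg ha]
    rw [h1, bd_cr, map_add, bd_cr, ih, map_zero, add_zero, add_self]

theorem bd_bd (z : Ch X) : bd (bd z) = 0 := by
  rw [eq_sum_sg z, map_sum, map_sum]
  exact sum_eq_zero fun s _ => bd_bd_sg s

/-- A chain of size at most `n` whose faces satisfy `P`. -/
def Sup (P : Finset X → Prop) (n : ℕ) (z : Ch X) : Prop :=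
  (∀ s ∈ z.support, P s) ∧ z.support.card ≤ n

omit [DecidableEq X] in
theorem Sup.mono {P Q : Finset X → Prop} {n m : ℕ} {z : Ch X} (h : Sup P n z)
    (hPQ : ∀ s, P s → Q s) (hn : n ≤ m) : Sup Q m z :=
  ⟨fun s hs => hPQ s (h.1 s hs), h.2.trans hn⟩

omit [DecidableEq X] in
theorem Sup.zero (P : Finset X → Prop) (n : ℕ) : Sup P n 0 := by
  simp [Sup]

omit [DecidableEq X] in
theorem Sup.sg {P : Finset X → Prop} {s : Finset X} (h : P s) : Sup P 1 (sg s) := by
  unfold Geom.sg
  refine ⟨fun t ht => ?_, ?_⟩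
  · rw [mem_singleton.1 (Finsupp.support_single_subset ht)]; exact h
  · exact (card_le_card Finsupp.support_single_subset).trans (by simp)

theorem Sup.add {P : Finset X → Prop} {n m : ℕ} {z y : Ch X} (h : Sup P n z) (h' : Sup P m y) :
    Sup P (n + m) (z + y) := by
  refine ⟨fun s hs => ?_, ?_⟩
  · rcases mem_union.1 (Finsupp.support_add hs) with h1 | h1
    exacts [h.1 s h1, h'.1 s h1]
  · exact (card_le_card Finsupp.support_add).trans
      ((card_union_le _ _).trans (add_le_add h.2 h'.2))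

theorem Sup.sum {α : Type} {P : Finset X → Prop} {m : ℕ} (A : Finset α) {f : α → Ch X}
    (h : ∀ a ∈ A, Sup P m (f a)) : Sup P (A.card * m) (∑ a ∈ A, f a) := by
  classical
  induction A using Finset.induction_on with
  | empty => simpa using Sup.zero P 0
  | insert a A ha ih =>
    rw [sum_insert ha, card_insert_of_notMem ha, add_mul, one_mul, add_comm (A.card * m)]
    exact (h a (mem_insert_self _ _)).add (ih fun b hb => h b (mem_insert_of_mem hb))

theorem Sup.lin {P Q : Finset X → Prop} {n m : ℕ} {z : Ch X} (h : Sup P n z)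
    {f : Finset X → Ch X} (hf : ∀ s, P s → Sup Q m (f s)) : Sup Q (n * m) (lin f z) := by
  rw [lin_eq]
  exact (Sup.sum _ fun s hs => hf s (h.1 s hs)).mono (fun _ h => h)
    (Nat.mul_le_mul_right _ h.2)

theorem Sup.cr {P Q : Finset X → Prop} {n : ℕ} {z : Ch X} (h : Sup P n z) (x : X)
    (hQ : ∀ s, P s → x ∉ s → Q (insert x s)) : Sup Q n (cr x z) := by
  have := h.lin (Q := Q) (m := 1) (f := fun s => if x ∈ s then 0 else Geom.sg (insert x s))
    fun s hs => by
      split_ifs with hx
      · exact Sup.zero _ _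
      · exact Sup.sg (hQ s hs hx)
  rwa [mul_one] at this

theorem Sup.an {P Q : Finset X → Prop} {n : ℕ} {z : Ch X} (h : Sup P n z) (x : X)
    (hQ : ∀ s, P s → x ∈ s → Q (s.erase x)) : Sup Q n (an x z) := by
  have := h.lin (Q := Q) (m := 1) (f := fun s => if x ∈ s then Geom.sg (s.erase x) else 0)
    fun s hs => by
      split_ifs with hx
      · exact Sup.sg (hQ s hs hx)
      · exact Sup.zero _ _
  rwa [mul_one] at this

/-- Elimination of all vertices of one colour from a cycle, given fillings of their links. -/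
theorem elim (r : X → ℕ) (c : ℕ) {P P' P'' : Finset X → Prop} {Q : X → Finset X → Prop}
    {S m : ℕ} {z : Ch X} (hz : Sup P S z) (hbd : bd z = 0)
    (hinj : ∀ s, P s → ∀ x ∈ s, ∀ y ∈ s, r x = r y → x = y)
    (hfill : ∀ x, r x = c → (∃ s, P s ∧ x ∈ s) → ∃ y, bd y = an x z ∧ Sup (Q x) m y)
    (h1 : ∀ s, P s → (∀ x ∈ s, r x ≠ c) → P' s)
    (h2 : ∀ x s, r x = c → Q x s → P' s ∧ (x ∉ s → P'' (insert x s))) :
    ∃ z' u, bd z' = 0 ∧ Sup P' (S + S * m) z' ∧ Sup P'' (S * m) u ∧ z = bd u + z' := by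
  classical
  set A : Finset X := z.support.biUnion fun s => s.filter fun x => r x = c with hA
  have hAc : A.card ≤ S := by
    refine card_biUnion_le.trans (le_trans ?_ hz.2)
    rw [card_eq_sum_ones]
    refine sum_le_sum fun s hs => card_le_one.2 fun x hx y hy => ?_
    rw [mem_filter] at hx hy
    exact hinj s (hz.1 s hs) x hx.1 y hy.1 (hx.2.trans hy.2.symm)
  have hAr : ∀ x ∈ A, r x = c := fun x hx => by
    obtain ⟨s, _, h⟩ := mem_biUnion.1 hx
    exact (mem_filter.1 h).2
  have hy : ∀ x ∈ A, ∃ y, bd y = an x z ∧ Sup (Q x) m y := fun x hx => by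
    obtain ⟨s, hs, h⟩ := mem_biUnion.1 hx
    exact hfill x (hAr x hx) ⟨s, hz.1 s hs, (mem_filter.1 h).1⟩
  choose! y hy1 hy2 using hy
  set z0 : Ch X := lin (fun s => if ∀ x ∈ s, r x ≠ c then sg s else 0) z with hz0
  have key : z = z0 + ∑ x ∈ A, cr x (an x z) := by
    rw [hz0, lin_eq]
    conv_lhs => rw [eq_sum_sg z]
    conv_rhs => arg 2; rw [eq_sum_sg z]
    simp only [map_sum]
    rw [sum_comm, ← sum_add_distrib]
    refine sum_congr rfl fun s hs => ?_
    have e : ∀ x, cr x (an x (sg s)) = if x ∈ s then sg s else 0 := fun x => by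
      rw [an_sg]
      split_ifs with hx
      · rw [cr_sg, if_neg (notMem_erase x s), insert_erase hx]
      · exact map_zero _
    simp only [e]
    split_ifs with h
    · rw [sum_eq_zero fun x hx => if_neg fun hxs => h x hxs (hAr x hx), add_zero]
    · push Not at h
      obtain ⟨x, hx, hxc⟩ := h
      rw [zero_add, sum_eq_single x, if_pos hx]
      · intro b hb hbx
        exact if_neg fun hbs => hbx (hinj s (hz.1 s hs) b hbs x hx ((hAr b hb).trans hxc.symm))
      · intro hxA
        exact absurd (mem_biUnion.2 ⟨s, hs, mem_filter.2 ⟨hx, hxc⟩⟩) hxA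
  have e2 : z = bd (∑ x ∈ A, cr x (y x)) + (z0 + ∑ x ∈ A, y x) := by
    rw [map_sum, sum_congr rfl fun x hx => by rw [bd_cr, hy1 x hx], sum_add_distrib]
    conv_lhs => rw [key]
    calc z0 + ∑ x ∈ A, cr x (an x z)
        = z0 + ∑ x ∈ A, cr x (an x z) + (∑ x ∈ A, y x + ∑ x ∈ A, y x) := by
          rw [add_self, add_zero]
      _ = _ := by abel
  refine ⟨z0 + ∑ x ∈ A, y x, ∑ x ∈ A, cr x (y x), ?_, ?_, ?_, e2⟩
  · have := congrArg bd e2
    rw [hbd, map_add, bd_bd, zero_add] at this
    exact this.symm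
  · refine Sup.add ?_ ((Sup.sum A fun x hx => (hy2 x hx).mono
      (fun s hs => (h2 x s (hAr x hx) hs).1) le_rfl).mono (fun _ h => h)
      (Nat.mul_le_mul_right _ hAc))
    have := hz.lin (Q := P') (m := 1) (f := fun s => if ∀ x ∈ s, r x ≠ c then sg s else 0)
      fun s hs => by
        split_ifs with h
        · exact Sup.sg (h1 s hs h)
        · exact Sup.zero _ _
    rwa [mul_one] at this
  · exact (Sup.sum A fun x hx => (hy2 x hx).cr x fun s hs hxs =>
      (h2 x s (hAr x hx) hs).2 hxs).mono (fun _ h => h) (Nat.mul_le_mul_right _ hAc)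

end Vale.Agent.P067.Geom
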