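import Vale.Agent.P067.Geom1

/-! Bounded fillings and bounded cones in coloured flag complexes with generic shifts. -/

namespace Vale.Agent.P067.Geom

open Finset

/-- A coloured preorder. -/
structure Geo (X : Type) where
  /-- colour -/
  r : X → ℕ
  /-- containment -/
  le : X → X → Prop
  /-- genuine vertices -/
  valid : X → Prop
  trans : ∀ {x y z}, le x y → le y z → le x z

namespace Geo

variable {X : Type} (G : Geo X)

/-- Adjacency. -/
def adj (x y : X) : Prop := (G.r x < G.r y ∧ G.le y x) ∨ (G.r y < G.r x ∧ G.le x y)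

/-- Faces. -/
def Face (s : Finset X) : Prop := (∀ x ∈ s, G.valid x) ∧ ∀ x ∈ s, ∀ y ∈ s, x ≠ y → G.adj x y

/-- Faces of cardinality `k` of the link of `w`. -/
def Lk (w : Finset X) (k : ℕ) (s : Finset X) : Prop :=
  G.Face s ∧ (∀ x ∈ s, ∀ y ∈ w, G.adj x y) ∧ s.card = k

/-- The colours below `N` not used by `w`. -/
def free (N : ℕ) (w : Finset X) : Finset ℕ := (range N).filter fun i => ∀ y ∈ w, G.r y ≠ i

/-- `f x` is a shift of `x`. -/
def Shift (f : X → X) (A : X → Prop) (x : X) : Prop :=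
  G.valid (f x) ∧ G.r (f x) + 1 = G.r x ∧ G.le x (f x) ∧ A (f x) ∧
    ∀ y, G.valid y → A y → G.r y + 1 < G.r x → G.le x y → G.le (f x) y

/-- Generic shifts exist for up to `M` vertices. -/
def Gen (M : ℕ) : Prop :=
  ∀ (w : Finset X) (lo : ℕ) (Xs : Finset X), G.Face w → (∀ i < lo, ∃ y ∈ w, G.r y = i) →
    Xs.card ≤ M → (∀ x ∈ Xs, G.valid x ∧ lo < G.r x) →
    ∃ (f : X → X) (A : X → Prop), (∀ x ∈ Xs, G.Shift f A x) ∧ ∀ y ∈ w, G.r y < lo → A y

variable {G}

theorem Gen.mono {M M' : ℕ} (h : G.Gen M) (hM : M' ≤ M) : G.Gen M' :=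
  fun w lo Xs h1 h2 h3 h4 => h w lo Xs h1 h2 (h3.trans hM) h4

theorem adj.symm {x y : X} (h : G.adj x y) : G.adj y x := Or.symm h

theorem adj.ne {x y : X} (h : G.adj x y) : G.r x ≠ G.r y := by
  rcases h with h | h <;> omega

theorem Face.inj {s : Finset X} (h : G.Face s) {x y : X} (hx : x ∈ s) (hy : y ∈ s)
    (hr : G.r x = G.r y) : x = y := by
  by_contra hne
  exact (h.2 x hx y hy hne).ne hr

theorem Face.subset {s t : Finset X} (h : G.Face s) (hts : t ⊆ s) : G.Face t :=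
  ⟨fun x hx => h.1 x (hts hx), fun x hx y hy => h.2 x (hts hx) y (hts hy)⟩

theorem Shift.adj {f : X → X} {A : X → Prop} {x y : X} (h : G.Shift f A x) (hy : G.valid y)
    (hxy : x ≠ y → G.adj x y) (hc : (G.r y + 1 < G.r x ∧ A y) ∨ G.r x ≤ G.r y) :
    G.adj (f x) y := by
  obtain ⟨-, h2, h3, -, h5⟩ := h
  rcases hc with ⟨hc, hA⟩ | hc
  · rcases hxy (fun h => by subst h; omega) with h | h
    · omega
    · exact Or.inr ⟨by omega, h5 y hy hA hc h.2⟩
  · refine Or.inl ⟨by omega, ?_⟩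
    by_cases e : x = y
    · exact e ▸ h3
    · rcases hxy e with h | h
      · exact G.trans h.2 h3
      · omega

variable [DecidableEq X]

theorem Face.insert {s : Finset X} (h : G.Face s) {x : X} (hx : G.valid x)
    (hadj : ∀ y ∈ s, G.adj x y) : G.Face (insert x s) := by
  refine ⟨fun y hy => ?_, fun y hy z hz hne => ?_⟩
  · rcases mem_insert.1 hy with rfl | hy
    exacts [hx, h.1 y hy]
  · rcases mem_insert.1 hy with rfl | hy' <;> rcases mem_insert.1 hz with rfl | hz'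
    exacts [absurd rfl hne, hadj z hz', (hadj y hy').symm, h.2 y hy' z hz' hne]

theorem Lk.insert {w s : Finset X} {k : ℕ} (h : G.Lk w k s) {x : X} (hx : G.valid x)
    (hadj : ∀ y ∈ s, G.adj x y) (hw : ∀ y ∈ w, G.adj x y) : G.Lk w (k + 1) (insert x s) := by
  refine ⟨h.1.insert hx hadj, fun y hy z hz => ?_, ?_⟩
  · rcases mem_insert.1 hy with rfl | hy
    exacts [hw z hz, h.2.1 y hy z hz]
  · rw [card_insert_of_notMem fun hxs => (hadj x hxs).ne rfl, h.2.2]

theorem Lk.erase {w s : Finset X} {k : ℕ} (h : G.Lk w (k + 1) s) {x : X} (hx : x ∈ s) :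
    G.Lk w k (s.erase x) :=
  ⟨h.1.subset (erase_subset _ _), fun y hy => h.2.1 y (mem_of_mem_erase hy), by
    rw [card_erase_of_mem hx, h.2.2]; rfl⟩

end Geo

open Geo

theorem sweep (D S : ℕ) : ∃ Φ : ℕ, ∀ (X : Type) [DecidableEq X] (G : Geo X) (w Xs : Finset X)
    (lo : ℕ) (f : X → X) (A : X → Prop) (xs : X) (k c : ℕ) (z : Ch X), G.Face w → xs ∈ w →
    xs ∈ Xs → (∀ x ∈ Xs, G.Shift f A x) → (∀ y ∈ w, (G.r y < lo ∧ A y) ∨ G.r xs ≤ G.r y) →
    lo < c → c ≤ G.r xs → G.r xs ≤ c + D → bd z = 0 →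
    Sup (fun s => G.Lk w k s ∧ ∀ y ∈ s, (G.r y + 1 < c ∧ A y) ∨ (c ≤ G.r y ∧ y ∈ Xs)) S z →
    ∃ u, bd u = z ∧ Sup (G.Lk w (k + 1)) Φ u := by
  have base : ∀ (S : ℕ) (X : Type) [DecidableEq X] (G : Geo X) (w Xs : Finset X)
      (lo : ℕ) (f : X → X) (A : X → Prop) (xs : X) (k : ℕ) (z : Ch X), G.Face w → xs ∈ w →
      xs ∈ Xs → (∀ x ∈ Xs, G.Shift f A x) → (∀ y ∈ w, (G.r y < lo ∧ A y) ∨ G.r xs ≤ G.r y) →
      lo < G.r xs → bd z = 0 →
      Sup (fun s => G.Lk w k s ∧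
        ∀ y ∈ s, (G.r y + 1 < G.r xs ∧ A y) ∨ (G.r xs ≤ G.r y ∧ y ∈ Xs)) S z →
      ∃ u, bd u = z ∧ Sup (G.Lk w (k + 1)) S u := by
    intro S X _ G w Xs lo f A xs k z hw hxw hxX hf hgap hlo hbd hz
    refine ⟨cr (f xs) z, by rw [bd_cr, hbd, map_zero, add_zero], hz.cr _ fun s hs _ => ?_⟩
    refine hs.1.insert (hf xs hxX).1 (fun y hy => ?_) fun y hy => ?_
    · exact (hf xs hxX).adj (hs.1.1.1 y hy) (fun _ => (hs.1.2.1 y hy xs hxw).symm)
        ((hs.2 y hy).imp id fun h => h.1)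
    · exact (hf xs hxX).adj (hw.1 y hy) (hw.2 xs hxw y hy)
        ((hgap y hy).imp (fun h => ⟨by omega, h.2⟩) id)
  induction D generalizing S with
  | zero =>
    refine ⟨S, fun X _ G w Xs lo f A xs k c z hw hxw hxX hf hgap hlo hc1 hc2 hbd hz => ?_⟩
    obtain rfl : c = G.r xs := by omega
    exact base S X G w Xs lo f A xs k z hw hxw hxX hf hgap hlo hbd hz
  | succ D ih =>
    obtain ⟨Φ, hΦ⟩ := ih (S + S * S)
    refine ⟨S + (S * S + Φ),
      fun X _ G w Xs lo f A xs k c z hw hxw hxX hf hgap hlo hc1 hc2 hbd hz => ?_⟩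
    rcases hc1.eq_or_lt with rfl | hc1
    · obtain ⟨u, h1, h2⟩ := base S X G w Xs lo f A xs k z hw hxw hxX hf hgap hlo hbd hz
      exact ⟨u, h1, h2.mono (fun _ h => h) (Nat.le_add_right _ _)⟩
    obtain ⟨z', u, h1, h2, h3, h4⟩ := elim G.r c
      (P' := fun s => G.Lk w k s ∧
        ∀ y ∈ s, (G.r y + 1 < c + 1 ∧ A y) ∨ (c + 1 ≤ G.r y ∧ y ∈ Xs))
      (P'' := G.Lk w (k + 1))
      (Q := fun x s => (G.Lk w k s ∧
        ∀ y ∈ s, (G.r y + 1 < c + 1 ∧ A y) ∨ (c + 1 ≤ G.r y ∧ y ∈ Xs)) ∧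
          (x ∉ s → G.Lk w (k + 1) (insert x s))) (m := S) hz hbd
      (fun s hs x hx y hy => hs.1.1.inj hx hy)
      (fun x hxc ⟨s0, hs0, hxs0⟩ => by
        have hxX' : x ∈ Xs := by
          rcases hs0.2 x hxs0 with h | h
          · omega
          · exact h.2
        have hsh := hf x hxX'
        refine ⟨cr (f x) (an x z), by rw [bd_cr, bd_an, hbd, map_zero, map_zero, add_zero], ?_⟩
        refine (hz.an (Q := fun t => ∃ s, (G.Lk w k s ∧ ∀ y ∈ s, (G.r y + 1 < c ∧ A y) ∨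
          (c ≤ G.r y ∧ y ∈ Xs)) ∧ x ∈ s ∧ t = s.erase x) x fun s hs hx => ⟨s, hs, hx, rfl⟩).cr _ ?_
        rintro _ ⟨s, hs, hx, rfl⟩ -
        have hL : G.Lk w (k + 1) (insert (f x) s) := by
          refine hs.1.insert hsh.1 (fun y hy => ?_) fun y hy => ?_
          · exact hsh.adj (hs.1.1.1 y hy) (hs.1.1.2 x hx y hy)
              ((hs.2 y hy).imp (fun h => ⟨by omega, h.2⟩) fun h => by omega)
          · exact hsh.adj (hw.1 y hy) (fun _ => hs.1.2.1 x hx y hy)
              ((hgap y hy).imp (fun h => ⟨by omega, h.2⟩) fun h => by omega)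
        have hne : f x ≠ x := fun h => by have := hsh.2.1; rw [h] at this; omega
        refine ⟨⟨?_, fun y hy => ?_⟩, fun _ => ?_⟩
        · rw [← erase_insert_of_ne hne]
          exact hL.erase (mem_insert_of_mem hx)
        · rcases mem_insert.1 hy with rfl | hy
          · exact Or.inl ⟨by have := hsh.2.1; omega, hsh.2.2.2.1⟩
          · have hyx := mem_erase.1 hy
            have := (hs.1.1.2 y hyx.2 x hx hyx.1).ne
            exact (hs.2 y hyx.2).imp (fun h => ⟨by omega, h.2⟩) fun h => ⟨by omega, h.2⟩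
        · rwa [Finset.insert_comm, insert_erase hx])
      (fun s hs hc => ⟨hs.1, fun y hy => (hs.2 y hy).imp (fun h => ⟨by omega, h.2⟩)
        fun h => ⟨by have := hc y hy; omega, h.2⟩⟩)
      (fun x s _ h => h)
    obtain ⟨u', h5, h6⟩ := hΦ X G w Xs lo f A xs k (c + 1) z' hw hxw hxX hf hgap (by omega)
      (by omega) (by omega) h1 h2
    exact ⟨u + u', by rw [map_add, h5, ← h4],
      (h3.add h6).mono (fun _ h => h) (Nat.le_add_left _ _)⟩

theorem fill (m n S : ℕ) : ∃ Φ M : ℕ, ∀ (X : Type) [DecidableEq X] (G : Geo X) (N : ℕ)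
    (w : Finset X) (k : ℕ) (z : Ch X), N ≤ m → G.Gen M → G.Face w → (∃ t ∈ w, G.r t + 1 = N) →
    (G.free N w).card ≤ n → k < (G.free N w).card → bd z = 0 → Sup (G.Lk w k) S z →
    ∃ u, bd u = z ∧ Sup (G.Lk w (k + 1)) Φ u := by
  induction n generalizing S with
  | zero => exact ⟨0, 0, fun X _ G N w k z _ _ _ _ h1 h2 => by omega⟩
  | succ n ih =>
    obtain ⟨Φ0, M0, h0⟩ := ih S
    obtain ⟨Φ1, h1⟩ := sweep m (S + S * Φ0)
    refine ⟨S * Φ0 + Φ1, M0 + ((S + S * Φ0) * (n + 1) + 1),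
      fun X _ G N w k z hN hG hw ⟨t, htw, ht⟩ hn hk hbd hz => ?_⟩
    have hne : (G.free N w).Nonempty := card_pos.1 (by omega)
    set lo := (G.free N w).min' hne with hlo
    have hlo1 : lo < N ∧ ∀ y ∈ w, G.r y ≠ lo := by
      have := mem_filter.1 (min'_mem _ hne)
      exact ⟨mem_range.1 this.1, this.2⟩
    have hlo2 : ∀ i < lo, ∃ y ∈ w, G.r y = i := fun i hi => by
      by_contra hcon
      push Not at hcon
      have : i ∈ G.free N w := mem_filter.2 ⟨mem_range.2 (by omega), hcon⟩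
      have := min'_le _ _ this
      omega
    obtain ⟨z', u, e1, e2, e3, e4⟩ := elim G.r lo
      (P' := fun s => G.Lk w k s ∧ ∀ y ∈ s, G.r y ≠ lo) (P'' := G.Lk w (k + 1))
      (Q := fun x s => G.Lk (insert x w) k s ∧ G.valid x ∧ ∀ y ∈ w, G.adj x y) (m := Φ0) hz hbd
      (fun s hs x hx y hy => hs.1.inj hx hy)
      (fun x hxc ⟨s0, hs0, hxs0⟩ => by
        obtain ⟨k', rfl⟩ : ∃ k', k = k' + 1 :=
          ⟨k - 1, by have := card_pos.2 ⟨x, hxs0⟩; have := hs0.2.2; omega⟩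
        have hfree : G.free N (insert x w) = (G.free N w).erase lo := by
          ext i
          simp only [free, mem_filter, mem_insert, forall_eq_or_imp, mem_erase, hxc]
          tauto
        have hcard : (G.free N (insert x w)).card + 1 = (G.free N w).card := by
          rw [hfree, card_erase_add_one (min'_mem _ hne)]
        obtain ⟨u, h2, h3⟩ := h0 X G N (insert x w) k' (an x z) hN (hG.mono (by omega))
          (hw.insert (hs0.1.1 x hxs0) (hs0.2.1 x hxs0)) ⟨t, mem_insert_of_mem htw, ht⟩ (by omega)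
          (by omega) (by rw [bd_an, hbd, map_zero])
          (hz.an x fun s hs hx => ⟨(hs.erase hx).1, fun y hy v hv => by
            rcases mem_insert.1 hv with rfl | hv
            · exact hs.1.2 y (mem_of_mem_erase hy) v hx (ne_of_mem_erase hy)
            · exact hs.2.1 y (mem_of_mem_erase hy) v hv, (hs.erase hx).2.2⟩)
        exact ⟨u, h2, h3.mono (fun s hs => ⟨hs, hs0.1.1 x hxs0, hs0.2.1 x hxs0⟩) le_rfl⟩)
      (fun s hs hc => ⟨hs, hc⟩)
      (fun x s hx ⟨h2, h3, h4⟩ => by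
        have h5 : G.Lk w k s := ⟨h2.1, fun y hy v hv => h2.2.1 y hy v (mem_insert_of_mem hv), h2.2.2⟩
        have h6 : ∀ y ∈ s, G.adj x y := fun y hy => (h2.2.1 y hy x (mem_insert_self _ _)).symm
        exact ⟨⟨h5, fun y hy => hx ▸ (h6 y hy).ne.symm⟩, fun _ => h5.insert h3 h6 h4⟩)
    obtain ⟨xs, hxs, hmin⟩ := exists_min_image (w.filter fun y => lo < G.r y) G.r
      ⟨t, mem_filter.2 ⟨htw, by have := hlo1.2 t htw; omega⟩⟩
    rw [mem_filter] at hxs
    have hhi : ∀ s ∈ z'.support, ∀ y ∈ s, lo < G.r y := fun s hs y hy => by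
      have h2 := e2.1 s hs
      by_contra hcon
      obtain ⟨v, hv, hvr⟩ := hlo2 (G.r y) (by have := h2.2 y hy; omega)
      exact (h2.1.2.1 y hy v hv).ne hvr.symm
    obtain ⟨f, A, hf, hA⟩ := hG w lo (insert xs (z'.support.biUnion id)) hw hlo2 (by
        refine (card_insert_le _ _).trans (le_add_left (Nat.add_le_add_right ?_ _))
        refine (card_biUnion_le_card_mul _ _ (n + 1) fun s hs => ?_).trans
          (Nat.mul_le_mul_right _ e2.2)
        have := (e2.1 s hs).1.2.2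
        simp only [id]
        omega)
      (fun x hx => by
        rcases mem_insert.1 hx with rfl | hx
        · exact ⟨hw.1 x hxs.1, hxs.2⟩
        · obtain ⟨s, hs, hx⟩ := mem_biUnion.1 hx
          exact ⟨(e2.1 s hs).1.1.1 x hx, hhi s hs x hx⟩)
    obtain ⟨u', e5, e6⟩ := h1 X G w _ lo f A xs k (lo + 1) z' hw hxs.1 (mem_insert_self _ _) hf
      (fun y hy => by
        rcases lt_trichotomy (G.r y) lo with h | h | h
        · exact Or.inl ⟨h, hA y hy h⟩
        · exact absurd h (hlo1.2 y hy)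
        · exact Or.inr (hmin y (mem_filter.2 ⟨hy, h⟩)))
      (by omega) hxs.2
      (by have := hmin t (mem_filter.2 ⟨htw, by have := hlo1.2 t htw; omega⟩); omega) e1
      ⟨fun s hs => ⟨(e2.1 s hs).1, fun y hy => Or.inr ⟨hhi s hs y hy,
        mem_insert_of_mem (mem_biUnion.2 ⟨s, hs, hy⟩)⟩⟩, e2.2⟩
    exact ⟨u + u', by rw [map_add, e5, ← e4], e3.add e6⟩

theorem cone (m k : ℕ) : ∃ R M : ℕ, ∀ (X : Type) [DecidableEq X] (G : Geo X) (N : ℕ)
    (w : Finset X), N ≤ m → G.Gen M → G.Face w → (∃ t ∈ w, G.r t + 1 = N) →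
    k < (G.free N w).card → ∃ c' c : Finset X → Ch X, ∀ s, G.Lk w k s →
      Sup (G.Lk w (k + 1)) R (c s) ∧ bd (c s) = sg s + lin c' (bd (sg s)) := by
  have hfree : ∀ (X : Type) (G : Geo X) (N : ℕ) (w : Finset X), (G.free N w).card ≤ N :=
    fun X G N w => (card_filter_le _ _).trans (card_range N).le
  induction k with
  | zero =>
    obtain ⟨Φ, M, h⟩ := fill m m 1
    refine ⟨Φ, M, fun X _ G N w hN hG hw ht hk => ?_⟩
    obtain ⟨u, h1, h2⟩ := h X G N w 0 (sg ∅) hN hG hw ht ((hfree X G N w).trans hN) hk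
      (by simp [bd_sg]) (Sup.sg ⟨⟨by simp, by simp⟩, by simp, rfl⟩)
    refine ⟨0, fun _ => u, fun s hs => ⟨h2, ?_⟩⟩
    rw [card_eq_zero.1 hs.2.2, h1]
    simp [bd_sg]
  | succ k ih =>
    obtain ⟨R, M0, h0⟩ := ih
    obtain ⟨Φ, M, h⟩ := fill m m (1 + (k + 1) * 1 * R)
    refine ⟨Φ, M0 + M, fun X _ G N w hN hG hw ht hk => ?_⟩
    obtain ⟨c', c, hc⟩ := h0 X G N w hN (hG.mono (by omega)) hw ht (by omega)
    have : ∀ s, G.Lk w (k + 1) s → ∃ u, bd u = sg s + lin c (bd (sg s)) ∧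
        Sup (G.Lk w (k + 1 + 1)) Φ u := fun s hs => by
      have hb : Sup (G.Lk w k) ((k + 1) * 1) (bd (sg s)) := by
        rw [bd_sg, ← hs.2.2]
        exact Sup.sum s fun x hx => Sup.sg (hs.erase hx)
      refine h X G N w (k + 1) _ hN (hG.mono (by omega)) hw ht ((hfree X G N w).trans hN) hk ?_
        ((Sup.sg hs).add (hb.lin fun t ht => (hc t ht).1))
      have e : bd (lin c (bd (sg s))) = bd (sg s) + lin c' (bd (bd (sg s))) := by
        rw [lin_eq, map_sum, sum_congr rfl fun t ht => (hc t (hb.1 t ht)).2, sum_add_distrib,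
          ← eq_sum_sg, ← map_sum, ← map_sum, ← eq_sum_sg]
      rw [map_add, e, bd_bd, map_zero, add_zero, add_self]
    choose! u hu using this
    exact ⟨c, u, fun s hs => ⟨(hu s hs).2, (hu s hs).1⟩⟩

theorem cone_unif (m : ℕ) : ∃ R M : ℕ, ∀ (X : Type) [DecidableEq X] (G : Geo X) (N : ℕ)
    (w : Finset X) (k : ℕ), N ≤ m → G.Gen M → G.Face w → (∃ t ∈ w, G.r t + 1 = N) →
    k < (G.free N w).card → ∃ c' c : Finset X → Ch X, ∀ s, G.Lk w k s →
      Sup (G.Lk w (k + 1)) R (c s) ∧ bd (c s) = sg s + lin c' (bd (sg s)) := by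
  choose R M h using cone m
  refine ⟨(range m).sup R, (range m).sup M, fun X _ G N w k hN hG hw ht hk => ?_⟩
  have hkm : k ∈ range m := mem_range.2
    (hk.trans_le (((card_filter_le _ _).trans (card_range N).le).trans hN))
  obtain ⟨c', c, hc⟩ := h k X G N w hN (hG.mono (le_sup hkm)) hw ht hk
  exact ⟨c', c, fun s hs => ⟨(hc s hs).1.mono (fun _ h => h) (le_sup hkm), (hc s hs).2⟩⟩

end Vale.Agent.P067.Geom
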