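import Vale.Agent.P067.Geom2

/-! The complex of flags opposite to a coordinate flag has generic shifts. -/

namespace Vale.Agent.P067.Geom

open Finset

variable {ι : Type}

/-- Vectors vanishing at the coordinates satisfying `p`. -/
def Z (F : Type) [Field F] (p : ι → Prop) : Submodule F (ι → F) where
  carrier := {v | ∀ l, p l → v l = 0}
  add_mem' := fun {a b} ha hb l hl => by simp [ha l hl, hb l hl]
  zero_mem' := fun _ _ => rfl
  smul_mem' := fun c v hv l hl => by simp [hv l hl]

variable {F : Type} [Field F]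

theorem mem_Z {p : ι → Prop} {v : ι → F} : v ∈ Z F p ↔ ∀ l, p l → v l = 0 := Iff.rfl

theorem Z_mono {p q : ι → Prop} (h : ∀ l, q l → p l) : Z F p ≤ Z F q :=
  fun _ hv l hl => hv l (h l hl)

theorem split (p : ι → Prop) (v : ι → F) :
    ∃ a b, v = a + b ∧ (∀ l, p l → a l = 0 ∧ b l = v l) ∧ ∀ l, ¬ p l → a l = v l ∧ b l = 0 := by
  classical
  refine ⟨fun l => if p l then 0 else v l, fun l => if p l then v l else 0, ?_, ?_, ?_⟩
  · funext l; by_cases h : p l <;> simp [h]
  · intro l h; simp [h]
  · intro l h; simp [h]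

/-- The standard flag. -/
abbrev EE (F : Type) [Field F] (key : ι → ℤ) (c : ι) : Submodule F (ι → F) :=
  Z F fun l => key c < key l

/-- The opposite standard flag. -/
abbrev WW (F : Type) [Field F] (key : ι → ℤ) (c : ι) : Submodule F (ι → F) :=
  Z F fun l => key l ≤ key c

/-- The fixed coordinate directions. -/
abbrev DD (F : Type) [Field F] (key : ι → ℤ) (T : Finset ι) (c : ι) : Submodule F (ι → F) :=
  Z F fun l => l ∈ T ∨ key l ≤ key c

/-- The rank of a colour. -/
def rk (key : ι → ℤ) (T : Finset ι) (c : ι) : ℕ := (T.filter fun u => key u < key c).card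

theorem rk_lt_rk {key : ι → ℤ} {T : Finset ι} {a b : ι} (ha : a ∈ T) :
    rk key T a < rk key T b ↔ key a < key b := by
  constructor
  · intro h
    by_contra hcon
    exact absurd (card_le_card (monotone_filter_right T fun u _ hu => by omega)) h.not_ge
  · intro h
    refine card_lt_card ⟨monotone_filter_right T fun u _ hu => by omega, fun hcon => ?_⟩
    have := mem_filter.1 (hcon (mem_filter.2 ⟨ha, h⟩))
    omega

theorem rk_lt_card {key : ι → ℤ} {T : Finset ι} {a : ι} (ha : a ∈ T) : rk key T a < T.card :=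
  card_lt_card ⟨filter_subset _ _, fun hcon => by
    have := mem_filter.1 (hcon ha)
    omega⟩

theorem rk_inj {key : ι → ℤ} {T : Finset ι} (hkey : Set.InjOn key T) : Set.InjOn (rk key T) T := by
  intro a ha b hb h
  have h1 := rk_lt_rk (key := key) (b := b) ha
  have h2 := rk_lt_rk (key := key) (b := a) hb
  exact hkey ha hb (by omega)

theorem image_rk {key : ι → ℤ} {T : Finset ι} (hkey : Set.InjOn key T) :
    T.image (rk key T) = range T.card := by
  refine eq_of_subset_of_card_le (fun i hi => ?_) ?_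
  · obtain ⟨a, ha, rfl⟩ := mem_image.1 hi
    exact mem_range.2 (rk_lt_card ha)
  · rw [card_image_of_injOn (rk_inj hkey), card_range]

theorem exists_rk {key : ι → ℤ} {T : Finset ι} (hkey : Set.InjOn key T) {i : ℕ}
    (hi : i < T.card) : ∃ a ∈ T, rk key T a = i :=
  mem_image.1 (image_rk hkey ▸ mem_range.2 hi)

/-- The geometry of flags opposite to the standard one. -/
def LG (F : Type) [Field F] (key : ι → ℤ) (T : Finset ι) : Geo (ι × Submodule F (ι → F)) where
  r x := rk key T x.1
  le x y := x.2 ≤ y.2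
  valid x := x.1 ∈ T ∧ IsCompl x.2 (EE F key x.1) ∧ DD F key T x.1 ≤ x.2
  trans := le_trans

/-- The functional cutting out the bad hyperplane. -/
noncomputable def lam {key : ι → ℤ} {c : ι} {U : Submodule F (ι → F)}
    (h : IsCompl U (EE F key c)) : (ι → F) →ₗ[F] F :=
  LinearMap.proj c ∘ₗ (EE F key c).projection U h.symm

theorem lam_left {key : ι → ℤ} {c : ι} {U : Submodule F (ι → F)}
    (h : IsCompl U (EE F key c)) {v : ι → F} (hv : v ∈ U) : lam h v = 0 := by
  simp [lam, Submodule.projection_apply_of_mem_right h.symm hv]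

theorem lam_right {key : ι → ℤ} {c : ι} {U : Submodule F (ι → F)}
    (h : IsCompl U (EE F key c)) {v : ι → F} (hv : v ∈ EE F key c) : lam h v = v c := by
  simp [lam, Submodule.projection_apply_of_mem_left h.symm hv]

theorem isCompl_shift {key : ι → ℤ} {T : Finset ι} (hkey : Set.InjOn key T) {a c : ι}
    (hc : c ∈ T) (hac : key a < key c) (hprev : ∀ b ∈ T, key b < key c → key b ≤ key a)
    {U : Submodule F (ι → F)} (h : IsCompl U (EE F key c)) (hD : DD F key T c ≤ U) {v : ι → F}
    (hv : lam h v ≠ 0) : IsCompl (U ⊔ (F ∙ v) ⊔ DD F key T a) (EE F key a) := by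
  have hE : EE F key a ≤ EE F key c := Z_mono fun l hl => by omega
  constructor
  · rw [Submodule.disjoint_def]
    intro e he1 he2
    obtain ⟨y, hy, d, hd, rfl⟩ := Submodule.mem_sup.1 he1
    obtain ⟨u, hu, y, hy', rfl⟩ := Submodule.mem_sup.1 hy
    obtain ⟨t, rfl⟩ := Submodule.mem_span_singleton.1 hy'
    obtain ⟨d1, d2, rfl, h1, h2⟩ := split (fun l => key l ≤ key c) d
    have hd1 : d1 ∈ U := hD fun l hl => by
      by_cases hl' : key l ≤ key c
      · exact (h1 l hl').1
      · rw [(h2 l hl').1]; exact hd l (Or.inl (hl.resolve_right hl'))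
    have hd2 : d2 ∈ EE F key c := fun l hl => (h2 l (by omega)).2
    have hd2c : d2 c = 0 := by rw [(h1 c le_rfl).2]; exact hd c (Or.inl hc)
    have e1 := lam_right h (hE he2)
    rw [he2 c hac, map_add, map_add, map_add, map_smul, lam_left h hu, lam_left h hd1,
      lam_right h hd2, hd2c, smul_eq_mul] at e1
    obtain rfl : t = 0 := by simpa [hv] using e1
    have e2 : u + d1 = 0 := by
      refine Submodule.disjoint_def.1 h.disjoint _ (U.add_mem hu hd1) ?_
      have := (EE F key c).sub_mem (hE he2) hd2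
      have e3 : u + (0 : F) • v + (d1 + d2) - d2 = u + d1 := by rw [zero_smul]; abel
      rwa [e3] at this
    have e4 : u + (0 : F) • v + (d1 + d2) = d2 := by
      rw [zero_smul, add_zero, ← add_assoc, e2, zero_add]
    rw [e4] at he2 ⊢
    funext l
    by_cases hl : key a < key l
    · exact he2 l hl
    · rw [(h1 l (by omega)).2]; exact hd l (Or.inr (by omega))
  · rw [codisjoint_iff, eq_top_iff]
    rintro z -
    have hz : z - (lam h z / lam h v) • v ∈ U ⊔ EE F key c := by
      rw [h.sup_eq_top]; trivial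
    obtain ⟨u, hu, e, he, huv⟩ := Submodule.mem_sup.1 hz
    have hec : e c = 0 := by
      have := congrArg (lam h) huv
      rwa [map_add, lam_left h hu, lam_right h he, map_sub, map_smul, smul_eq_mul,
        div_mul_cancel₀ _ hv, sub_self, zero_add] at this
    obtain ⟨d, e', rfl, h1, h2⟩ := split (fun l => key l ≤ key a) e
    have hz' : z = u + (lam h z / lam h v) • v + d + e' := by
      rw [eq_sub_iff_add_eq] at huv
      rw [← huv]
      simp only [huv]
      conv_lhs => rw [← huv]
      abel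
    rw [hz']
    refine Submodule.add_mem_sup (Submodule.add_mem_sup (Submodule.add_mem_sup hu
      (Submodule.smul_mem _ _ (Submodule.mem_span_singleton_self v))) fun l hl => ?_)
      fun l hl => (h2 l (by omega)).2
    by_cases hl' : key l ≤ key a
    · exact (h1 l hl').1
    · rw [(h2 l hl').1]
      have hlT := hl.resolve_right hl'
      rcases lt_trichotomy (key l) (key c) with h3 | h3 | h3
      · exact absurd (hprev l hlT h3) hl'
      · rw [hkey hlT hc h3]; exact hec
      · exact he l h3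

theorem gen_LG [Finite F] [DecidableEq ι] {key : ι → ℤ} {T : Finset ι} (hkey : Set.InjOn key T)
    {M : ℕ} (hM : M < Nat.card F) : (LG F key T).Gen M := by
  classical
  intro w lo Xs hw hlo hcard hX
  obtain ⟨Wt, hW1, hW2⟩ : ∃ Wt : Submodule F (ι → F),
      (∀ c ∈ T, lo < rk key T c → ∃ a, key a < key c ∧ Wt ⊔ EE F key a = ⊤) ∧
        ∀ y ∈ w, rk key T y.1 < lo → Wt ≤ y.2 := by
    rcases lo with _ | lo
    · refine ⟨⊤, fun c hc h => ?_, fun y _ h => absurd h (Nat.not_lt_zero _)⟩
      obtain ⟨a, ha⟩ := card_pos.1 h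
      exact ⟨a, (mem_filter.1 ha).2, top_sup_eq _⟩
    · obtain ⟨y0, hy0, hr⟩ := hlo lo (Nat.lt_succ_self _)
      have hv := hw.1 y0 hy0
      have hr' : rk key T y0.1 = lo := hr
      refine ⟨y0.2, fun c hc h => ⟨y0.1, (rk_lt_rk hv.1).1 (by omega), hv.2.1.sup_eq_top⟩,
        fun y hy h => ?_⟩
      by_cases e : y0 = y
      · exact e ▸ le_rfl
      · rcases hw.2 y0 hy0 y hy e with h' | h'
        · have : rk key T y0.1 < rk key T y.1 := h'.1
          omega
        · exact h'.2
  have hne : ∀ x : Xs, (LinearMap.ker (lam (hX x x.2).1.2.1)).comap Wt.subtype ≠ ⊤ := by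
    intro x hcon
    obtain ⟨a, ha, hsup⟩ := hW1 x.1.1 (hX x x.2).1.1 (hX x x.2).2
    have h1 : Wt ⊔ EE F key a ≤ LinearMap.ker (lam (hX x x.2).1.2.1) := by
      refine sup_le (Submodule.comap_subtype_eq_top.1 hcon) fun e he => ?_
      rw [LinearMap.mem_ker, lam_right _ (Z_mono (fun l hl => by omega) he)]
      exact he _ ha
    have h2 := h1 (hsup ▸ Submodule.mem_top (x := Pi.single x.1.1 (1 : F)))
    rw [LinearMap.mem_ker, lam_right _ fun l hl => Pi.single_eq_of_ne
      (fun h => by rw [h] at hl; omega) _] at h2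
    simp at h2
  obtain ⟨v, -, hv⟩ := Set.exists_of_ssubset
    (Submodule.iUnion_ssubset_of_forall_ne_top_of_card_lt univ _ hne (by
      rw [ENat.card_eq_coe_natCard, card_univ, Fintype.card_coe]
      exact_mod_cast hcard.trans_lt hM))
  have hv' : ∀ x (hx : x ∈ Xs), lam (hX x hx).1.2.1 v ≠ 0 := fun x hx h =>
    hv (Set.mem_iUnion₂.2 ⟨⟨x, hx⟩, mem_univ _, h⟩)
  have hp : ∀ c : ι, c ∈ T → lo < rk key T c → ∃ a ∈ T, rk key T a + 1 = rk key T c :=
    fun c hc h => by
      obtain ⟨a, ha, h'⟩ := exists_rk hkey (i := rk key T c - 1)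
        (by have := rk_lt_card (key := key) hc; omega)
      exact ⟨a, ha, by omega⟩
  choose! p hp1 hp2 using hp
  refine ⟨fun x => (p x.1, x.2 ⊔ (F ∙ (v : ι → F)) ⊔ DD F key T (p x.1)),
    fun y => (v : ι → F) ∈ y.2, fun x hx => ?_, fun y hy h => hW2 y hy h v.2⟩
  obtain ⟨⟨h1, h2, h3⟩, h4⟩ := hX x hx
  have h5 := hp1 x.1 h1 h4
  have h6 := hp2 x.1 h1 h4
  refine ⟨⟨h5, ?_, le_sup_right⟩, h6, le_sup_left.trans le_sup_left,
    Submodule.mem_sup_left (Submodule.mem_sup_right (Submodule.mem_span_singleton_self _)),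
    fun y hy hvy hr hle => sup_le (sup_le hle ((Submodule.span_singleton_le_iff_mem _ _).2 hvy))
      (le_trans (Z_mono fun l hl => hl.imp id fun h => ?_) hy.2.2)⟩
  · refine isCompl_shift hkey h1 ((rk_lt_rk h5).1 (by omega)) (fun b hb hbc => ?_) h2 h3
      (hv' x hx)
    have e1 := (rk_lt_rk hb).2 hbc
    have e2 := rk_lt_rk (key := key) (b := b) h5
    omega
  · have e1 : rk key T y.1 + 1 < rk key T x.1 := hr
    have e2 := (rk_lt_rk (key := key) (b := p x.1) hy.1).1 (by omega)
    omega

end Vale.Agent.P067.Geom
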