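import Vale.Agent.P067.Geom3
import Vale.Agent.P067.Lin

/-! The linear pattern groups act on the complex of opposite flags. -/

namespace Vale.Agent.P067.Geom

open Finset Matrix

variable {ι : Type} [Fintype ι] [DecidableEq ι] {F : Type} [Field F]

/-- The action on subspaces. -/
noncomputable def act (g : SpecialLinearGroup ι F) (U : Submodule F (ι → F)) :
    Submodule F (ι → F) :=
  Submodule.orderIsoMapComap (SpecialLinearGroup.toLin' g) U

theorem mem_act {g : SpecialLinearGroup ι F} {U : Submodule F (ι → F)} {v : ι → F} :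
    v ∈ act g U ↔ ∃ u ∈ U, (g : Matrix ι ι F) *ᵥ u = v :=
  Submodule.mem_map

theorem act_mul (g h : SpecialLinearGroup ι F) (U : Submodule F (ι → F)) :
    act (g * h) U = act g (act h U) := by
  ext v
  simp [mem_act]

theorem act_one (U : Submodule F (ι → F)) : act 1 U = U := by
  ext v
  simp [mem_act]

theorem act_mono (g : SpecialLinearGroup ι F) {U U' : Submodule F (ι → F)} (h : U ≤ U') :
    act g U ≤ act g U' :=
  (Submodule.orderIsoMapComap (SpecialLinearGroup.toLin' g)).monotone h

theorem act_Z_le {g : SpecialLinearGroup ι F} {p : ι → Prop}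
    (h : ∀ i j, p i → ¬ p j → g i j = 0) : act g (Z F p) ≤ Z F p := by
  intro v hv i hi
  obtain ⟨u, hu, rfl⟩ := mem_act.1 hv
  refine sum_eq_zero fun j _ => ?_
  by_cases hj : p j
  · rw [hu j hj, mul_zero]
  · exact mul_eq_zero_of_left (h i j hi hj) _

theorem act_eq_of_le {K : Subgroup (SpecialLinearGroup ι F)} {U : Submodule F (ι → F)}
    (h : ∀ g ∈ K, act g U ≤ U) {g : SpecialLinearGroup ι F} (hg : g ∈ K) : act g U = U := by
  refine (h g hg).antisymm ?_
  have := act_mono g (h _ (K.inv_mem hg))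
  rwa [← act_mul, mul_inv_cancel, act_one] at this

variable [Finite F] {key : ι → ℤ} {T : Finset ι}

theorem act_EE (hkey : Set.InjOn key T) {τ : Finset ι} {g : SpecialLinearGroup ι F}
    (hg : g ∈ LinG F key T τ) (c : ι) : act g (EE F key c) = EE F key c := by
  refine act_eq_of_le (fun g hg => act_Z_le fun i j hi hj => ?_) hg
  by_contra h
  have := (((mem_LinG hkey).1 hg).2 i j (fun e => hj (e ▸ hi)) h).2.2.1
  omega

theorem act_WW (hkey : Set.InjOn key T) {τ : Finset ι} {g : SpecialLinearGroup ι F}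
    (hg : g ∈ LinG F key T τ) {c : ι} (hc : c ∈ τ) : act g (WW F key c) = WW F key c := by
  refine act_eq_of_le (fun g hg => act_Z_le fun i j hi hj => ?_) hg
  by_contra h
  exact (((mem_LinG hkey).1 hg).2 i j (fun e => hj (e ▸ hi)) h).2.2.2 c hc ⟨hi, by omega⟩

theorem mem_LinG_of_act (hkey : Set.InjOn key T) {σ τ : Finset ι} {g : SpecialLinearGroup ι F}
    (hg : g ∈ LinG F key T σ) (h : ∀ c ∈ τ, act g (WW F key c) ≤ WW F key c) :
    g ∈ LinG F key T τ := by
  obtain ⟨h1, h2⟩ := (mem_LinG hkey).1 hg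
  refine (mem_LinG hkey).2 ⟨h1, fun i j hij hne => ?_⟩
  obtain ⟨h3, h4, h5, -⟩ := h2 i j hij hne
  refine ⟨h3, h4, h5, fun a ha hc => hne ?_⟩
  have := h a ha (mem_act.2 ⟨Pi.single j 1, fun l hl => Pi.single_eq_of_ne
    (fun e => by rw [e] at hl; omega) _, rfl⟩) i hc.1
  simpa using this

/-- The vertex of colour `c` of the chamber of `g`. -/
noncomputable def vt (key : ι → ℤ) (g : SpecialLinearGroup ι F) (c : ι) :
    ι × Submodule F (ι → F) :=
  (c, act g (WW F key c))

omit [Fintype ι] [DecidableEq ι] [Finite F] in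
theorem isCompl_WW (c : ι) : IsCompl (WW F key c) (EE F key c) := by
  constructor
  · rw [Submodule.disjoint_def]
    intro v h1 h2
    funext l
    by_cases hl : key l ≤ key c
    exacts [h1 l hl, h2 l (by omega)]
  · rw [codisjoint_iff, eq_top_iff]
    rintro v -
    obtain ⟨a, b, rfl, h1, h2⟩ := split (fun l => key l ≤ key c) v
    exact Submodule.add_mem_sup (fun l hl => (h1 l hl).1) fun l hl => (h2 l (by omega)).2

theorem valid_vt (hkey : Set.InjOn key T) {τ : Finset ι} {g : SpecialLinearGroup ι F}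
    (hg : g ∈ LinG F key T τ) {c : ι} (hc : c ∈ T) : (LG F key T).valid (vt key g c) := by
  refine ⟨hc, ?_, fun v hv => mem_act.2 ⟨v, fun l hl => hv l (Or.inr hl), ?_⟩⟩
  · have := (Submodule.orderIsoMapComap (SpecialLinearGroup.toLin' g)).isCompl
      (isCompl_WW (F := F) (key := key) c)
    have e := act_EE hkey hg c
    change IsCompl (act g (WW F key c)) (act g (EE F key c)) at this
    rwa [e] at this
  · obtain ⟨h1, h2⟩ := (mem_LinG hkey).1 hg
    funext i
    rw [mulVec, dotProduct, sum_eq_single i]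
    · rw [h1 i, one_mul]
    · intro j _ hji
      by_cases h : g i j = 0
      · exact mul_eq_zero_of_left h _
      · exact mul_eq_zero_of_right _ (hv j (Or.inl (h2 i j hji.symm h).1))
    · simp

omit [Finite F] in
theorem adj_vt (hkey : Set.InjOn key T) (g : SpecialLinearGroup ι F) {a b : ι} (ha : a ∈ T)
    (hb : b ∈ T) (hab : a ≠ b) : (LG F key T).adj (vt key g a) (vt key g b) := by
  rcases lt_trichotomy (key a) (key b) with h | h | h
  · exact Or.inl ⟨(rk_lt_rk ha).2 h, act_mono g (Z_mono fun l hl => by omega)⟩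
  · exact absurd (hkey ha hb h) hab
  · exact Or.inr ⟨(rk_lt_rk hb).2 h, act_mono g (Z_mono fun l hl => by omega)⟩

theorem exists_vt (hkey : Set.InjOn key T) {s : Finset (ι × Submodule F (ι → F))}
    (hs : (LG F key T).Face s) : ∃ g ∈ LinG F key T ∅, ∀ x ∈ s, vt key g x.1 = x := by
  classical
  have hcol : ∀ j : ι, ∃ v : ι → F, v j = 1 ∧ (∀ i, i ≠ j → v i ≠ 0 → j ∈ T ∧ key i < key j) ∧
      ∀ x ∈ s, key x.1 < key j → v ∈ x.2 := by
    intro j
    by_cases hj : j ∈ T ∧ (s.filter fun x => key x.1 < key j).Nonempty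
    · obtain ⟨a, ha, hmax⟩ := exists_max_image _ (fun x => key x.1) hj.2
      rw [mem_filter] at ha
      have hv := hs.1 a ha.1
      have : (Pi.single j 1 : ι → F) ∈ a.2 ⊔ EE F key a.1 := by rw [hv.2.1.sup_eq_top]; trivial
      obtain ⟨u, hu, e, he, hue⟩ := Submodule.mem_sup.1 this
      refine ⟨u, ?_, fun i hij hi => ⟨hj.1, ?_⟩, fun x hx hxj => ?_⟩
      · simpa [he j ha.2] using congrFun hue j
      · by_contra hcon
        exact hi (by simpa [he i (by omega), hij] using congrFun hue i)
      · have h1 := hmax x (mem_filter.2 ⟨hx, hxj⟩)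
        by_cases e : a = x
        · exact e ▸ hu
        · rcases hs.2 a ha.1 x hx e with h | h
          · have := (rk_lt_rk hv.1).1 h.1
            omega
          · exact h.2 hu
    · refine ⟨Pi.single j 1, by simp, fun i hij hi => absurd (Pi.single_eq_of_ne hij _) hi,
        fun x hx hxj => (hs.1 x hx).2.2 fun l hl => Pi.single_eq_of_ne ?_ _⟩
      rintro rfl
      rcases hl with hl | hl
      · exact hj ⟨hl, x, mem_filter.2 ⟨hx, hxj⟩⟩
      · omega
  choose v h1 h2 h3 using hcol
  have hdet : (Matrix.of fun i j => v j i).det = 1 := by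
    have hb : (Matrix.of fun i j => v j i).BlockTriangular key := fun i j hij => by
      by_contra h
      have := (h2 j i (fun e => by rw [e] at hij; exact lt_irrefl _ hij) h).2
      omega
    rw [hb.det]
    refine prod_eq_one fun a _ => ?_
    have : (Matrix.of fun i j => v j i).toSquareBlock key a = 1 := by
      ext i j
      by_cases e : i = j
      · subst e; simp [toSquareBlock_def, h1]
      · rw [one_apply_ne e]
        by_contra h
        have := (h2 j.1 i.1 (fun e' => e (Subtype.ext e')) h).2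
        have := i.2
        have := j.2
        omega
    rw [this, det_one]
  have hg : (⟨_, hdet⟩ : SpecialLinearGroup ι F) ∈ LinG F key T ∅ :=
    (mem_LinG hkey).2 ⟨h1, fun i j hij h =>
      ⟨(h2 j i hij h).1, hij, (h2 j i hij h).2.le, by simp⟩⟩
  refine ⟨_, hg, fun x hx => Prod.ext rfl ?_⟩
  have hv := hs.1 x hx
  have hv' := valid_vt hkey hg hv.1
  refine eq_of_le_of_inf_le_of_sup_le (z := EE F key x.1) ?_
    (hv.2.1.inf_eq_bot.trans_le bot_le) (le_top.trans hv'.2.1.sup_eq_top.ge)
  intro y hy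
  obtain ⟨u, hu, rfl⟩ := mem_act.1 hy
  have : (Matrix.of fun i j => v j i) *ᵥ u = ∑ j, u j • v j := by
    funext i
    simp [mulVec, dotProduct, mul_comm]
  refine this ▸ Submodule.sum_mem _ fun j _ => ?_
  by_cases hj : key j ≤ key x.1
  · rw [hu j hj, zero_smul]; exact x.2.zero_mem
  · exact x.2.smul_mem _ (h3 j x hx (by omega))

end Vale.Agent.P067.Geom
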