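import Vale.Agent.P067.Cone

/-! The abstract first step of the vanishing theorem. -/

set_option linter.unusedSectionVars false
set_option linter.unusedVariables false

namespace Vale.Agent.P067

open Finset

variable {ι : Type} [DecidableEq ι] {G : Type} [Group G] [Fintype G]

/-- `HP ∅ = HQ ∅ ⋉ N` compatibly with the systems, and cocycles can be made `N`-invariant. -/
structure SplitData (A : Finset ι) (j : ℕ) (H HP HQ : Finset ι → Subgroup G) (N : Subgroup G) :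
    Prop where
  le_H : ∀ τ, HP τ ≤ H τ
  le_top : ∀ τ, HP τ ≤ HP ∅
  Q_le : ∀ τ, HQ τ ≤ HP τ
  N_le : N ≤ HP ∅
  norm : ∀ p ∈ HP ∅, ∀ n ∈ N, p * n * p⁻¹ ∈ N
  disj : HQ ∅ ⊓ N = ⊥
  dec : ∀ τ, τ ⊆ A → ∀ x ∈ HP τ, ∃ q ∈ HQ τ, ∃ n ∈ N, x = q * n
  surj : ∀ (W : Type) [AddCommGroup W] [Module (ZMod 2) W],
    Surj A ∅ (fun τ => Fix (rreg G W) (HP τ))
      (fun τ => Fix (rreg G W) (HQ τ) ⊓ Fix (rreg G W) N) j

section

variable {U : Type} [AddCommGroup U] [Module (ZMod 2) U]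

/-- Invariant cocycles. -/
def ZZ (A : Finset ι) (j : ℕ) (H : Finset ι → Subgroup G) (w : Finset ι → G → U) : Prop :=
  (∀ τ, τ ⊆ A → τ.card = j → RInv (H τ) (w τ)) ∧ IsCocyc A ∅ j w

/-- Cochains whose restriction to `K ∅` is a coboundary of the system `K`. -/
def ZP (A : Finset ι) (j : ℕ) (K : Finset ι → Subgroup G) (w : Finset ι → G → U) : Prop :=
  ∃ y : Finset ι → G → U,
    (∀ τ, τ ⊆ A → τ.card + 1 = j → ∀ p ∈ K ∅, ∀ h ∈ K τ, y τ (p * h) = y τ p) ∧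
    ∀ τ, τ ⊆ A → τ.card = j → ∀ p ∈ K ∅, w τ p = dd ∅ y τ p

/-- Left translation. -/
def lt (g : G) (w : Finset ι → G → U) : Finset ι → G → U := fun τ x => w τ (g * x)

theorem lt_lt (g g' : G) (w : Finset ι → G → U) : lt g' (lt g w) = lt (g * g') w := by
  funext τ x; simp [lt, mul_assoc]

theorem lt_one (w : Finset ι → G → U) : lt 1 w = w := by
  funext τ x; simp [lt]

theorem lt_add (g : G) (w w' : Finset ι → G → U) : lt g (w + w') = lt g w + lt g w' := rfl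

theorem dd_lt (g : G) (w : Finset ι → G → U) (τ : Finset ι) (x : G) :
    dd ∅ (lt g w) τ x = dd ∅ w τ (g * x) := by
  simp only [dd_apply, lt]

variable {A : Finset ι} {j : ℕ}

theorem ZZ.lt {H : Finset ι → Subgroup G} {w : Finset ι → G → U} (h : ZZ A j H w) (g : G) :
    ZZ A j H (lt g w) := by
  refine ⟨fun τ h1 h2 x k hk => ?_, fun ρ h1 h2 h3 => ?_⟩
  · simp only [P067.lt]
    rw [← mul_assoc]
    exact h.1 τ h1 h2 _ k hk
  · funext x
    rw [dd_lt, h.2 ρ h1 h2 h3]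
    rfl

theorem ZZ.add {H : Finset ι → Subgroup G} {w w' : Finset ι → G → U} (h : ZZ A j H w)
    (h' : ZZ A j H w') : ZZ A j H (w + w') := by
  refine ⟨fun τ h1 h2 x k hk => ?_, fun ρ h1 h2 h3 => ?_⟩
  · simp only [Pi.add_apply]
    rw [h.1 τ h1 h2 x k hk, h'.1 τ h1 h2 x k hk]
  · rw [dd_add, h.2 ρ h1 h2 h3, h'.2 ρ h1 h2 h3, add_zero]

theorem ZZ.zero (H : Finset ι → Subgroup G) : ZZ A j H (0 : Finset ι → G → U) :=
  ⟨fun _ _ _ _ _ _ => rfl, fun ρ _ _ _ => dd_zero ∅ ρ⟩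

theorem ZZ.sum {α : Type} {H : Finset ι → Subgroup G} (s : Finset α)
    {f : α → Finset ι → G → U} (h : ∀ a ∈ s, ZZ A j H (f a)) : ZZ A j H (∑ a ∈ s, f a) :=
  Finset.sum_induction f _ (fun _ _ ha hb => ha.add hb) (ZZ.zero H) h

theorem ZP.add {K : Finset ι → Subgroup G} {w w' : Finset ι → G → U} (h : ZP A j K w)
    (h' : ZP A j K w') : ZP A j K (w + w') := by
  obtain ⟨y, hy1, hy2⟩ := h
  obtain ⟨y', hy1', hy2'⟩ := h'
  refine ⟨y + y', fun τ h1 h2 p hp k hk => ?_, fun τ h1 h2 p hp => ?_⟩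
  · simp only [Pi.add_apply]
    rw [hy1 τ h1 h2 p hp k hk, hy1' τ h1 h2 p hp k hk]
  · rw [dd_add]
    simp only [Pi.add_apply]
    rw [hy2 τ h1 h2 p hp, hy2' τ h1 h2 p hp]

theorem ZP.zero (K : Finset ι → Subgroup G) : ZP A j K (0 : Finset ι → G → U) :=
  ⟨0, fun _ _ _ _ _ _ _ => rfl, fun τ _ _ p _ => by
    have : dd ∅ (0 : Finset ι → G → U) τ = 0 := dd_zero ∅ τ
    rw [this]; rfl⟩

theorem ZP.sum {α : Type} {K : Finset ι → Subgroup G} (s : Finset α)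
    {f : α → Finset ι → G → U} (h : ∀ a ∈ s, ZP A j K (f a)) : ZP A j K (∑ a ∈ s, f a) :=
  Finset.sum_induction f _ (fun _ _ ha hb => ha.add hb) (ZP.zero K) h

theorem ZP.lt {K : Finset ι → Subgroup G} {w : Finset ι → G → U} (h : ZP A j K w) {p : G}
    (hp : p ∈ K ∅) : ZP A j K (lt p w) := by
  obtain ⟨y, hy1, hy2⟩ := h
  refine ⟨P067.lt p y, fun τ h1 h2 x hx k hk => ?_, fun τ h1 h2 x hx => ?_⟩
  · simp only [P067.lt]
    rw [← mul_assoc]
    exact hy1 τ h1 h2 _ ((K ∅).mul_mem hp hx) k hk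
  · rw [dd_lt]
    exact hy2 τ h1 h2 _ ((K ∅).mul_mem hp hx)

theorem ZP.restrict {K K' : Finset ι → Subgroup G} {w : Finset ι → G → U} (h : ZP A j K w)
    (hK : ∀ τ, K' τ ≤ K τ) : ZP A j K' w := by
  obtain ⟨y, hy1, hy2⟩ := h
  exact ⟨y, fun τ h1 h2 p hp k hk => hy1 τ h1 h2 p (hK _ hp) k (hK _ hk),
    fun τ h1 h2 p hp => hy2 τ h1 h2 p (hK _ hp)⟩

variable {H HP HQ : Finset ι → Subgroup G} {N : Subgroup G}

theorem SplitData.exists_y (hP : SplitData A j H HP HQ N) {w : Finset ι → G → U}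
    (hw : ZZ A j H w) : ∃ y : Finset ι → G → U,
      (∀ τ, τ ⊆ A → τ.card + 1 = j → RInv (HP τ) (y τ)) ∧
      ∀ τ, τ ⊆ A → τ.card = j → RInv N (w τ + dd ∅ y τ) := by
  obtain ⟨y, hy1, hy2⟩ := hP.surj U w
    (fun τ _ h1 h2 => mem_Fix_rreg.mpr (fun g k hk => hw.1 τ h1 h2 g k (hP.le_H τ hk))) hw.2
  exact ⟨y, fun τ h1 h2 => mem_Fix_rreg.mp (hy1 τ (Finset.empty_subset _) h1 h2),
    fun τ h1 h2 => mem_Fix_rreg.mp (hy2 τ (Finset.empty_subset _) h1 h2).2⟩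

theorem SplitData.lt_add_mem (hP : SplitData A j H HP HQ N) {w : Finset ι → G → U}
    (hw : ZZ A j H w) {n : G} (hn : n ∈ N) : ZP A j HP (lt n w + w) := by
  obtain ⟨y, hy1, hy2⟩ := hP.exists_y hw
  refine ⟨lt n y + y, fun τ h1 h2 p _ k hk => ?_, fun τ h1 h2 p hp => ?_⟩
  · simp only [Pi.add_apply, lt]
    rw [← mul_assoc, hy1 τ h1 h2 _ k hk, hy1 τ h1 h2 _ k hk]
  · have e := hy2 τ h1 h2 p (p⁻¹ * n * p) (by
      simpa using hP.norm p⁻¹ ((HP ∅).inv_mem hp) n hn)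
    have e' : p * (p⁻¹ * n * p) = n * p := by group
    rw [e'] at e
    simp only [Pi.add_apply] at e
    rw [dd_add]
    simp only [Pi.add_apply, dd_lt, lt]
    apply eq_of_add_eq_zero_two
    have : w τ (n * p) + w τ p + (dd ∅ y τ (n * p) + dd ∅ y τ p) =
        (w τ (n * p) + dd ∅ y τ (n * p)) + (w τ p + dd ∅ y τ p) := by abel
    rw [this, e, add_self_two]

theorem SplitData.of_Q (hP : SplitData A j H HP HQ N) (hQ : Antitone HQ) {w : Finset ι → G → U}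
    (hw : ZZ A j H w) (h : ZP A j HQ w) : ZP A j HP w := by
  obtain ⟨y, hy1, hy2⟩ := hP.exists_y hw
  obtain ⟨y0, hy01, hy02⟩ := h
  have hdec : ∀ x : G, ∃ q n : G, x ∈ HP ∅ → q ∈ HQ ∅ ∧ n ∈ N ∧ x = q * n := by
    intro x
    by_cases hx : x ∈ HP ∅
    · obtain ⟨q, hq, n, hn, e⟩ := hP.dec ∅ (Finset.empty_subset _) x hx
      exact ⟨q, n, fun _ => ⟨hq, hn, e⟩⟩
    · exact ⟨1, 1, fun h => absurd h hx⟩
  choose π ν hπ using hdec
  have huniq : ∀ q ∈ HQ ∅, ∀ n ∈ N, ∀ q' ∈ HQ ∅, ∀ n' ∈ N, q * n = q' * n' → q = q' := by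
    intro q hq n hn q' hq' n' hn' e
    have h1 : q'⁻¹ * q = n' * n⁻¹ := by
      have : q = q' * n' * n⁻¹ := by rw [← e]; group
      rw [this]; group
    have h2 : q'⁻¹ * q ∈ HQ ∅ ⊓ N :=
      ⟨(HQ ∅).mul_mem ((HQ ∅).inv_mem hq') hq, h1 ▸ N.mul_mem hn' (N.inv_mem hn)⟩
    rw [hP.disj, Subgroup.mem_bot] at h2
    exact (inv_mul_eq_one.mp h2).symm
  refine ⟨y + fun τ x => (y0 τ + y τ) (π x), fun τ h1 h2 p hp k hk => ?_, fun τ h1 h2 p hp => ?_⟩
  · obtain ⟨q, hq, n, hn, rfl⟩ := hP.dec τ h1 k hk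
    have hq0 : q ∈ HQ ∅ := hQ (Finset.empty_subset τ) hq
    obtain ⟨a1, a2, a3⟩ := hπ p hp
    obtain ⟨b1, b2, b3⟩ := hπ (p * (q * n)) ((HP ∅).mul_mem hp (hP.le_top τ hk))
    have e : π (p * (q * n)) = π p * q := by
      refine huniq _ b1 _ b2 _ ((HQ ∅).mul_mem a1 hq0) (q⁻¹ * ν p * q * n)
        (N.mul_mem (by simpa using hP.norm q⁻¹ ((HP ∅).inv_mem (hP.Q_le ∅ hq0)) _ a2) hn) ?_
      rw [← b3]
      conv_lhs => rw [a3]
      group
    simp only [Pi.add_apply]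
    rw [hy1 τ h1 h2 p _ hk, e, hy01 τ h1 h2 _ a1 q hq, hy1 τ h1 h2 _ q (hP.Q_le τ hq)]
  · obtain ⟨a1, a2, a3⟩ := hπ p hp
    rw [dd_add]
    have e1 : dd ∅ (fun τ x => (y0 τ + y τ) (π x)) τ p = dd ∅ y0 τ (π p) + dd ∅ y τ (π p) := by
      rw [← Pi.add_apply (dd ∅ y0 τ), ← dd_add]
      simp only [dd_apply, Pi.add_apply]
    have e2 := hy2 τ h1 h2 (π p) (ν p) a2
    rw [← a3] at e2
    simp only [Pi.add_apply] at e1 e2 ⊢
    rw [e1, ← hy02 τ h1 h2 _ a1, ← e2, add_comm (w τ p), ← add_assoc, add_self_two, zero_add]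

theorem step1_core {t : ι} (ht : t ∈ A) {HP' : Finset ι → Subgroup G} {N' : Subgroup G}
    (hH : Antitone H) (hQ : Antitone HQ) (hodd : Odd (Nat.card (H ∅)))
    (hP : SplitData A j H HP HQ N) (hP' : SplitData A j H HP' HQ N')
    (hgen : H ∅ ≤ HP ∅ ⊔ HP' ∅)
    (hgen2 : ∀ K : Subgroup G, N ≤ K → N' ≤ K → (∀ g ∈ H ∅, ∀ k ∈ K, g * k * g⁻¹ ∈ K) →
      ∀ τ, τ ⊆ A → t ∉ τ → H τ ≤ H (insert t τ) ⊔ K)
    {w : Finset ι → G → U} (hw : ZZ A j H w) : ZP A j HP w := by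
  -- the subgroup preserving the kernel
  let S : Subgroup G :=
    { carrier := {g | ∀ w : Finset ι → G → U, ZZ A j H w → (ZP A j HQ w ↔ ZP A j HQ (lt g w))}
      mul_mem' := fun {a b} ha hb w hw => by
        rw [← lt_lt]
        exact (ha w hw).trans (hb _ (hw.lt a))
      one_mem' := fun w _ => by rw [lt_one]
      inv_mem' := fun {a} ha w hw => by
        have := ha _ (hw.lt a⁻¹)
        rw [lt_lt, inv_mul_cancel, lt_one] at this
        exact this.symm }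
  have hPS : ∀ {HP : Finset ι → Subgroup G} {N : Subgroup G}, SplitData A j H HP HQ N →
      HP ∅ ≤ S := by
    intro HP N hP p hp w hw
    constructor
    · intro h
      exact ((hP.of_Q hQ hw h).lt hp).restrict hP.Q_le
    · intro h
      have := ((hP.of_Q hQ (hw.lt p) h).lt ((HP ∅).inv_mem hp)).restrict hP.Q_le
      rwa [lt_lt, mul_inv_cancel, lt_one] at this
  have hS : ∀ g ∈ H ∅, ∀ w : Finset ι → G → U, ZZ A j H w → ZP A j HQ w → ZP A j HQ (lt g w) :=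
    fun g hg w hw h => ((sup_le (hPS hP) (hPS hP') : HP ∅ ⊔ HP' ∅ ≤ S) (hgen hg) w hw).mp h
  -- the subgroup acting trivially on the quotient
  let K : Subgroup G :=
    { carrier := {g | g ∈ H ∅ ∧ ∀ w : Finset ι → G → U, ZZ A j H w → ZP A j HQ (lt g w + w)}
      mul_mem' := fun {a b} ha hb => ⟨(H ∅).mul_mem ha.1 hb.1, fun w hw => by
        have h1 := (hb.2 _ (hw.lt a)).add (ha.2 w hw)
        rwa [add_assoc, ← add_assoc (lt a w), add_self_two, zero_add, lt_lt] at h1⟩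
      one_mem' := ⟨(H ∅).one_mem, fun w _ => by
        rw [lt_one, add_self_two]; exact ZP.zero _⟩
      inv_mem' := fun {a} ha => ⟨(H ∅).inv_mem ha.1, fun w hw => by
        have h1 := ha.2 _ (hw.lt a⁻¹)
        rwa [lt_lt, inv_mul_cancel, lt_one, add_comm] at h1⟩ }
  have hKH : K ≤ H ∅ := fun g hg => hg.1
  have hNK : ∀ {HP : Finset ι → Subgroup G} {N : Subgroup G}, SplitData A j H HP HQ N →
      N ≤ K := fun hP n hn =>
    ⟨hP.le_H ∅ (hP.N_le hn), fun w hw => (hP.lt_add_mem hw hn).restrict hP.Q_le⟩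
  have hKn : ∀ g ∈ H ∅, ∀ k ∈ K, g * k * g⁻¹ ∈ K := by
    intro g hg k hk
    refine ⟨(H ∅).mul_mem ((H ∅).mul_mem hg hk.1) ((H ∅).inv_mem hg), fun w hw => ?_⟩
    have h1 := hS g⁻¹ ((H ∅).inv_mem hg) _ (((hw.lt g).lt k).add (hw.lt g)) (hk.2 _ (hw.lt g))
    rwa [lt_add, lt_lt, lt_lt, lt_lt, mul_inv_cancel, lt_one, ← mul_assoc] at h1
  -- average over `K`
  set w' : Finset ι → G → U := ∑ κ ∈ elts K, lt κ w with hw'
  have hw'Z : ZZ A j H w' := ZZ.sum _ (fun κ _ => hw.lt κ)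
  have hw'w : ZP A j HQ (w' + w) := by
    have : w' + w = ∑ κ ∈ elts K, (lt κ w + w) := by
      rw [Finset.sum_add_distrib, Finset.sum_const, card_elts,
        odd_smul_two (odd_card_of_le hKH hodd)]
    rw [this]
    exact ZP.sum _ (fun κ hκ => (mem_elts.mp hκ).2 w hw)
  have hw'inv : ∀ τ, ∀ x ∈ H ∅, ∀ κ ∈ K, w' τ (x * κ) = w' τ x := by
    intro τ x hx κ hκ
    have e : x * κ = x * κ * x⁻¹ * x := by group
    simp only [hw', Finset.sum_apply, lt]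
    rw [← sum_elts_mul_right (hKn x hx κ hκ) (fun k => w τ (k * x))]
    refine Finset.sum_congr rfl (fun k _ => ?_)
    congr 1
    group
  have hw'H : ZP A j H w' := by
    refine ⟨fun π => if t ∈ π then 0 else w' (insert t π), fun τ h1 h2 p hp h hh => ?_,
      fun τ h1 h2 p _ => congrFun (cone_formula ht (Finset.notMem_empty t) hw'Z.2 τ
        (Finset.empty_subset _) h1 h2) p⟩
    by_cases htτ : t ∈ τ
    · simp [htτ]
    · simp only [htτ, if_false]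
      let T : Subgroup G :=
        { carrier := {h | h ∈ H ∅ ∧ ∀ x ∈ H ∅, w' (insert t τ) (x * h) = w' (insert t τ) x}
          mul_mem' := fun {a b} ha hb => ⟨(H ∅).mul_mem ha.1 hb.1, fun x hx => by
            rw [← mul_assoc, hb.2 _ ((H ∅).mul_mem hx ha.1), ha.2 x hx]⟩
          one_mem' := ⟨(H ∅).one_mem, fun x _ => by rw [mul_one]⟩
          inv_mem' := fun {a} ha => ⟨(H ∅).inv_mem ha.1, fun x hx => by
            have := ha.2 _ ((H ∅).mul_mem hx ((H ∅).inv_mem ha.1))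
            rw [inv_mul_cancel_right] at this
            exact this.symm⟩ }
      have h1T : H (insert t τ) ≤ T := fun h hh => ⟨hH (Finset.empty_subset _) hh, fun x _ =>
        hw'Z.1 _ (Finset.insert_subset ht h1)
          (by rw [Finset.card_insert_of_notMem htτ, h2]) x h hh⟩
      have h2T : K ≤ T := fun κ hκ => ⟨hκ.1, fun x hx => hw'inv _ x hx κ hκ⟩
      exact (((hgen2 K (hNK hP) (hNK hP') hKn τ h1 htτ).trans (sup_le h1T h2T)) hh).2 p hp
  have hfin : ZP A j HQ w := by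
    have := hw'w.add (hw'H.restrict (fun τ => (hP.Q_le τ).trans (hP.le_H τ)))
    rwa [add_comm w' w, add_assoc, add_self_two, add_zero] at this
  exact hP.of_Q hQ hw hfin

end

theorem step1 {A : Finset ι} {t : ι} (ht : t ∈ A) {j : ℕ}
    {H HP HP' HQ : Finset ι → Subgroup G} {N N' : Subgroup G} (hH : Antitone H)
    (hQ : Antitone HQ) (hodd : Odd (Nat.card (H ∅)))
    (hP : SplitData A j H HP HQ N) (hP' : SplitData A j H HP' HQ N')
    (hgen : H ∅ ≤ HP ∅ ⊔ HP' ∅)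
    (hgen2 : ∀ K : Subgroup G, N ≤ K → N' ≤ K → (∀ g ∈ H ∅, ∀ k ∈ K, g * k * g⁻¹ ∈ K) →
      ∀ τ, τ ⊆ A → t ∉ τ → H τ ≤ H (insert t τ) ⊔ K)
    {V : Type} [AddCommGroup V] [Module (ZMod 2) V] (ρ : Representation (ZMod 2) G V)
    (W : Submodule (ZMod 2) V) (hW : ∀ g ∈ H ∅, ∀ v ∈ W, ρ g v ∈ W)
    (x : Finset ι → V) (hx : ∀ τ, τ ⊆ A → τ.card = j → x τ ∈ W ⊓ Fix ρ (H τ))
    (hc : IsCocyc A ∅ j x) :
    ∃ y : Finset ι → V, (∀ τ, τ ⊆ A → τ.card + 1 = j → y τ ∈ W ⊓ Fix ρ (HP τ)) ∧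
      ∀ τ, τ ⊆ A → τ.card = j → x τ = dd ∅ y τ := by
  classical
  let w : Finset ι → G → W := fun τ g =>
    if h : g ∈ H ∅ ∧ ρ g (x τ) ∈ W then ⟨ρ g (x τ), h.2⟩ else 0
  have hw1 : ∀ τ, τ ⊆ A → τ.card = j → ∀ g ∈ H ∅, (w τ g : V) = ρ g (x τ) := by
    intro τ h1 h2 g hg
    have : g ∈ H ∅ ∧ ρ g (x τ) ∈ W := ⟨hg, hW g hg _ (hx τ h1 h2).1⟩
    simp only [w, dif_pos this]
  have hw0 : ∀ τ g, g ∉ H ∅ → w τ g = 0 := by
    intro τ g hg
    have : ¬ (g ∈ H ∅ ∧ ρ g (x τ) ∈ W) := fun h => hg h.1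
    simp only [w, dif_neg this]
  have hcoe : ∀ (z : Finset ι → G → W) τ g, ((dd ∅ z τ g : W) : V) =
      dd ∅ (fun π => (z π g : V)) τ := by
    intro z τ g
    rw [dd_apply]
    exact dd_map (W.subtype.toAddMonoidHom) ∅ _ τ
  have hwZ : ZZ A j H w := by
    refine ⟨fun τ h1 h2 g k hk => ?_, fun π _ h2 h3 => ?_⟩
    · have hk0 : k ∈ H ∅ := hH (Finset.empty_subset τ) hk
      by_cases hg : g ∈ H ∅
      · apply Subtype.ext
        rw [hw1 τ h1 h2 _ ((H ∅).mul_mem hg hk0), hw1 τ h1 h2 _ hg, map_mul,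
          Module.End.mul_apply, (hx τ h1 h2).2 k hk]
      · rw [hw0 τ g hg, hw0 τ _ (fun h => hg (by simpa using (H ∅).mul_mem h ((H ∅).inv_mem hk0)))]
    · funext g
      by_cases hg : g ∈ H ∅
      · apply Subtype.ext
        have e2 : dd ∅ (fun τ => (w τ g : V)) π = ρ g (dd ∅ x π) := by
          have := dd_map (ρ g).toAddMonoidHom ∅ x π
          simp only [LinearMap.toAddMonoidHom_coe] at this
          rw [this]
          refine dd_congr _ (fun b hb hbσ => ?_)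
          obtain ⟨_, k2, k3⟩ := erase_mem_range (Finset.empty_subset π) h2 hb hbσ
          exact hw1 _ k2 (by omega) g hg
        rw [hcoe, e2, hc π (Finset.empty_subset _) h2 h3, map_zero]
        rfl
      · rw [dd_apply]
        exact dd_eq_zero _ (fun b _ _ => hw0 _ g hg)
  obtain ⟨y, hy1, hy2⟩ := step1_core ht hH hQ hodd hP hP' hgen hgen2 hwZ
  have hPH : HP ∅ ≤ H ∅ := hP.le_H ∅
  refine ⟨fun τ => ∑ p ∈ elts (HP ∅), ρ p⁻¹ (y τ p : V), fun τ h1 h2 => ⟨?_, ?_⟩,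
    fun τ h1 h2 => ?_⟩
  · exact Submodule.sum_mem _
      (fun p hp => hW _ ((H ∅).inv_mem (hPH (mem_elts.mp hp))) _ (y τ p).2)
  · intro k hk
    have hk0 : k ∈ HP ∅ := hP.le_top τ hk
    rw [map_sum, ← sum_elts_mul_right hk0]
    refine Finset.sum_congr rfl (fun p hp => ?_)
    rw [← Module.End.mul_apply, ← map_mul, hy1 τ h1 h2 p (mem_elts.mp hp) k hk]
    congr 2
    group
  · have e : dd ∅ (fun τ => ∑ p ∈ elts (HP ∅), ρ p⁻¹ (y τ p : V)) τ =
        ∑ p ∈ elts (HP ∅), ρ p⁻¹ (dd ∅ (fun π => (y π p : V)) τ) := by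
      simp only [dd, map_sum]
      exact Finset.sum_comm
    rw [e, Finset.sum_congr rfl (fun p hp => by
      rw [← hcoe, ← hy2 τ h1 h2 p (mem_elts.mp hp), hw1 τ h1 h2 p (hPH (mem_elts.mp hp)),
        ← Module.End.mul_apply, ← map_mul, inv_mul_cancel, map_one, Module.End.one_apply])]
    rw [Finset.sum_const, card_elts, odd_smul_two (odd_card_of_le hPH hodd)]

end Vale.Agent.P067
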