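import Vale.Agent.P067.RowSurj
import Vale.Agent.P067.Step1

/-! Vanishing of the cohomology of the cyclic system in the stable range. -/

set_option linter.unusedSectionVars false
set_option linter.unusedVariables false

namespace Vale.Agent.P067

open Finset Matrix

variable {ι : Type} [Fintype ι] [DecidableEq ι] {F : Type} [Field F] [Finite F] {s : ℕ}
  {pos : ι → ℤ}

theorem HH_norm_row {S T : Finset ι} {t : ι} (htT : t ∉ T) {g n : SpecialLinearGroup ι (Rs F s)}
    (hg : g ∈ HH F s pos S T ∅) (hn : n ∈ HH F s pos {t} T ∅) :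
    g * n * g⁻¹ ∈ HH F s pos {t} T ∅ := by
  refine grp_conj_mem (isNet_mono (closed_Pat pos S T ∅)) (isNet_mono (closed_Pat pos {t} T ∅))
    (fun i j l x y hx hy => mono_mul (fun e e' h h' => ?_) hx hy)
    (fun i j l x y hx hy => mono_mul (fun e e' h h' => ?_) hx hy) hg hn
  · exact absurd (Finset.mem_singleton.mp h'.1 ▸ h.2.1) htT
  · exact ⟨h.1, h'.2.1, lt2_trans h.2.2.1 h'.2.2.1, by simp⟩

theorem HH_norm_col {S T : Finset ι} {t : ι} (htS : t ∉ S) {g n : SpecialLinearGroup ι (Rs F s)}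
    (hg : g ∈ HH F s pos S T ∅) (hn : n ∈ HH F s pos S {t} ∅) :
    g * n * g⁻¹ ∈ HH F s pos S {t} ∅ := by
  refine grp_conj_mem (isNet_mono (closed_Pat pos S T ∅)) (isNet_mono (closed_Pat pos S {t} ∅))
    (fun i j l x y hx hy => mono_mul (fun e e' h h' => ?_) hx hy)
    (fun i j l x y hx hy => mono_mul (fun e e' h h' => ?_) hx hy) hg hn
  · exact ⟨h.1, h'.2.1, lt2_trans h.2.2.1 h'.2.2.1, by simp⟩
  · exact absurd (Finset.mem_singleton.mp h.2.1 ▸ h'.1) htS

theorem HH_row_decomp {S T τ : Finset ι} {t : ι} (htT : t ∉ T)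
    {x : SpecialLinearGroup ι (Rs F s)} (hx : x ∈ HH F s pos S T τ) :
    ∃ q ∈ HH F s pos (S.erase t) T τ, ∃ n ∈ HH F s pos {t} T ∅, x = q * n :=
  grp_row_decomp (isNet_mono (closed_Pat pos S T τ)) t
    (fun i => mono_eq_bot (fun e _ h => htT h.2.1))
    (fun i j hi => mono_le (fun e _ h => ⟨Finset.mem_erase.mpr ⟨hi, h.1⟩, h.2⟩))
    (fun j => mono_le (fun e _ h => ⟨Finset.mem_singleton_self t, h.2.1, h.2.2.1, by simp⟩)) hx

theorem HH_le_insert {S T τ : Finset ι} {u b : ι} (hb : b ∈ τ)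
    (h : ∀ i j e, j ∈ T → Cross pos u i j e → Cross pos b i j e) :
    HH F s pos S T τ ≤ HH F s pos S T (insert u τ) :=
  grp_mono (fun i j => mono_le (fun e _ hp => hp.insert (fun hc => hp.2.2.2 b hb (h i j e hp.2.1 hc))))

variable {V : Type} [AddCommGroup V] [Module (ZMod 2) V]

theorem stable_inf_Fix {G : Type} [Group G] (ρ : Representation (ZMod 2) G V) {K N : Subgroup G}
    (hN : ∀ g ∈ K, ∀ n ∈ N, g * n * g⁻¹ ∈ N) {W : Submodule (ZMod 2) V}
    (hW : ∀ g ∈ K, ∀ v ∈ W, ρ g v ∈ W) : ∀ g ∈ K, ∀ v ∈ W ⊓ Fix ρ N, ρ g v ∈ W ⊓ Fix ρ N := by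
  intro g hg v hv
  refine ⟨hW g hg v hv.1, fun n hn => ?_⟩
  have e := hv.2 _ (hN g⁻¹ (K.inv_mem hg) n hn)
  rw [inv_inv] at e
  conv_rhs => rw [← e]
  rw [← Module.End.mul_apply, ← Module.End.mul_apply, ← map_mul, ← map_mul]
  congr 2
  group

theorem mono_Fix_HH (ρ : Representation (ZMod 2) (SpecialLinearGroup ι (Rs F s)) V)
    (W : Submodule (ZMod 2) V) (S T : Finset ι) :
    Monotone (fun τ => W ⊓ Fix ρ (HH F s pos S T τ)) :=
  fun _ _ h => inf_le_inf_left _ (Fix_anti ρ (HH_anti S T h))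

theorem exact_rows (hpos : Function.Injective pos) (h2 : (2 : F) ≠ 0) {R : ℕ}
    (hc : LinCones F ι R) {T : Finset ι} {j : ℕ} (hj : j + 2 ≤ T.card)
    (ρ : Representation (ZMod 2) (SpecialLinearGroup ι (Rs F s)) V)
    (ih : ∀ W : Submodule (ZMod 2) V, (∀ g ∈ HH F s pos T T ∅, ∀ v ∈ W, ρ g v ∈ W) →
      Exact T ∅ (fun τ => W ⊓ Fix ρ (HH F s pos T T τ)) j) (U : Finset ι) :
    Disjoint U T → ∀ W : Submodule (ZMod 2) V, (∀ g ∈ HH F s pos (U ∪ T) T ∅, ∀ v ∈ W, ρ g v ∈ W) →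
      Exact T ∅ (fun τ => W ⊓ Fix ρ (HH F s pos (U ∪ T) T τ)) j := by
  induction U using Finset.induction_on with
  | empty => intro _ W hW; rw [Finset.empty_union] at hW ⊢; exact ih W hW
  | insert t U htU ihU =>
    intro hd W hW
    rw [Finset.disjoint_insert_left] at hd
    have he : (insert t U ∪ T).erase t = U ∪ T := by
      rw [Finset.insert_union, Finset.erase_insert (by simp [htU, hd.1])]
    have h1 := row_surj hpos h2 hc (S := insert t U ∪ T) Finset.subset_union_right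
      (Finset.mem_union_left _ (Finset.mem_insert_self t U)) hd.1 hj ρ W hW
    rw [he] at h1
    have hle : ∀ τ, HH F s pos (U ∪ T) T τ ≤ HH F s pos (insert t U ∪ T) T τ := fun τ =>
      HH_mono (Finset.union_subset_union_left (Finset.subset_insert _ _)) subset_rfl subset_rfl
    have h3 := ihU hd.2 (W ⊓ Fix ρ (HH F s pos {t} T ∅))
      (stable_inf_Fix ρ (fun g hg n hn => HH_norm_row hd.1 hg hn) (fun g hg => hW g (hle ∅ hg)))
    refine Surj.trans h1 h3 (fun τ v hv => ⟨hv.1.1, fun g hg => ?_⟩)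
    obtain ⟨q, hq, n, hn, rfl⟩ := HH_row_decomp hd.1 hg
    rw [he] at hq
    rw [map_mul, Module.End.mul_apply, hv.1.2 n hn, hv.2 q hq]

theorem row_surj_full (hpos : Function.Injective pos) (h2 : (2 : F) ≠ 0) {R : ℕ}
    (hc : LinCones F ι R) {A : Finset ι} {t : ι} (ht : t ∈ A) {j : ℕ} (hj : j + 3 ≤ A.card)
    (ρ : Representation (ZMod 2) (SpecialLinearGroup ι (Rs F s)) V) :
    Surj A ∅ (fun τ => Fix ρ (HH F s pos A (A.erase t) τ))
      (fun τ => Fix ρ (HH F s pos (A.erase t) (A.erase t) τ) ⊓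
        Fix ρ (HH F s pos {t} (A.erase t) ∅)) j := by
  have hcard := Finset.card_erase_add_one ht
  have h1 := row_surj hpos h2 hc (Finset.erase_subset t A) ht (Finset.notMem_erase t A)
    (j := j) (by omega) ρ ⊤ (fun _ _ _ _ => Submodule.mem_top)
  have h3 := surj_add_redundant (I := A) (mono_Fix_HH ρ ⊤ A (A.erase t))
    (mono_Fix_HH ρ _ (A.erase t) (A.erase t)) (fun τ v hv => ⟨Submodule.mem_top, fun g hg => by
      obtain ⟨q, hq, n, hn, rfl⟩ := HH_row_decomp (Finset.notMem_erase t A) hg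
      rw [map_mul, Module.End.mul_apply, hv.1.2 n hn, hv.2 q hq]⟩) (Finset.erase_subset t A)
    (fun b _ hb => by
      obtain ⟨u, hu, h⟩ := exists_prev hpos (T := A.erase t) (Finset.card_pos.mp (by omega)) hb
      exact ⟨u, hu, fun τ hτ => ⟨inf_le_inf_left _ (Fix_anti ρ (HH_le_insert hτ h)),
        inf_le_inf_left _ (Fix_anti ρ (HH_le_insert hτ h))⟩⟩) h1
  exact h3.congr (fun τ _ _ => by simp) (fun τ _ _ v hv => ⟨hv.2, hv.1.2⟩)

theorem pat_mirror {A : Finset ι} {β : ι → ι}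
    (hβ : ∀ u ∈ A, ∀ i ∈ A, ∀ j ∈ A, ∀ e,
      Cross pos u i j e ↔ Cross (fun x => - pos x) (β u) j i e)
    {S T τ : Finset ι} (hS : S ⊆ A) (hT : T ⊆ A) (hτ : τ ⊆ A) {i j : ι} {e : ℕ} :
    Pat pos S T τ i j e ↔ Pat (fun x => - pos x) T S (τ.image β) j i e := by
  have hlt : Lt2 pos 0 i e j ↔ Lt2 (fun x => - pos x) 0 j e i := by
    unfold Lt2; beta_reduce; omega
  constructor
  · rintro ⟨h1, h2, h3, h4⟩
    refine ⟨h2, h1, hlt.mp h3, fun b hb hc => ?_⟩
    obtain ⟨u, hu, rfl⟩ := Finset.mem_image.mp hb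
    exact h4 u hu ((hβ u (hτ hu) i (hS h1) j (hT h2) e).mpr hc)
  · rintro ⟨h1, h2, h3, h4⟩
    exact ⟨h2, h1, hlt.mpr h3, fun u hu hc => h4 (β u) (Finset.mem_image_of_mem β hu)
      ((hβ u (hτ hu) i (hS h2) j (hT h1) e).mp hc)⟩

theorem splitData_row [Fintype (SpecialLinearGroup ι (Rs F s))]
    (hpos : Function.Injective pos) (h2 : (2 : F) ≠ 0) {R : ℕ}
    (hc : LinCones F ι R) {A : Finset ι} {t : ι} (ht : t ∈ A) {j : ℕ} (hj : j + 3 ≤ A.card) :
    SplitData A j (HH F s pos A A) (HH F s pos A (A.erase t)) (HH F s pos (A.erase t) (A.erase t))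
      (HH F s pos {t} (A.erase t) ∅) where
  le_H τ := HH_mono subset_rfl (Finset.erase_subset _ _) subset_rfl
  le_top τ := HH_anti _ _ (Finset.empty_subset τ)
  Q_le τ := HH_mono (Finset.erase_subset _ _) subset_rfl subset_rfl
  N_le := HH_mono (by simpa using ht) subset_rfl subset_rfl
  norm p hp n hn := HH_norm_row (Finset.notMem_erase t A) hp hn
  disj := grp_inf_eq_bot (isNet_mono (closed_Pat _ _ _ _)) (isNet_mono (closed_Pat _ _ _ _))
    (fun i j => by
      by_cases hi : i = t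
      · rw [mono_eq_bot (P := Pat pos (A.erase t) (A.erase t) ∅)
          (fun e _ h => (Finset.mem_erase.mp h.1).1 hi), bot_inf_eq]
      · rw [mono_eq_bot (P := Pat pos {t} (A.erase t) ∅)
          (fun e _ h => hi (Finset.mem_singleton.mp h.1)), inf_bot_eq])
  dec τ _ x hx := HH_row_decomp (Finset.notMem_erase t A) hx
  surj W _ _ := row_surj_full hpos h2 hc ht hj _

theorem splitData_col [Fintype (SpecialLinearGroup ι (Rs F s))]
    (hpos : Function.Injective pos) (h2 : (2 : F) ≠ 0) {R : ℕ}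
    (hc : LinCones F ι R) {A : Finset ι} {t : ι} (ht : t ∈ A) {j : ℕ} (hj : j + 3 ≤ A.card) :
    SplitData A j (HH F s pos A A) (HH F s pos (A.erase t) A) (HH F s pos (A.erase t) (A.erase t))
      (HH F s pos (A.erase t) {t} ∅) := by
  obtain ⟨β, hbij, hβ⟩ := exists_next hpos A
  have hpos' : Function.Injective (fun x => - pos x) := fun a b h => hpos (neg_injective h)
  have hE : A.erase t ⊆ A := Finset.erase_subset _ _
  have htA : ({t} : Finset ι) ⊆ A := by simpa using ht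
  have m1 : ∀ S T τ : Finset ι, S ⊆ A → T ⊆ A → τ ⊆ A → ∀ g ∈ HH F s pos S T τ,
      tinv g ∈ HH F s (fun x => - pos x) T S (τ.image β) := fun S T τ hS hT hτ g hg =>
    tinv_mem_grp (isNet_mono (closed_Pat _ _ _ _))
      (fun i j => mono_le (fun e _ h => (pat_mirror hβ hS hT hτ).mp h)) hg
  have m2 : ∀ S T τ : Finset ι, S ⊆ A → T ⊆ A → τ ⊆ A →
      ∀ g ∈ HH F s (fun x => - pos x) T S (τ.image β), tinv g ∈ HH F s pos S T τ :=
    fun S T τ hS hT hτ g hg =>
    tinv_mem_grp (isNet_mono (closed_Pat _ _ _ _))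
      (fun i j => mono_le (fun e _ h => (pat_mirror hβ hS hT hτ).mpr h)) hg
  exact
  { le_H := fun τ => HH_mono hE subset_rfl subset_rfl
    le_top := fun τ => HH_anti _ _ (Finset.empty_subset τ)
    Q_le := fun τ => HH_mono subset_rfl hE subset_rfl
    N_le := HH_mono subset_rfl htA subset_rfl
    norm := fun p hp n hn => HH_norm_col (Finset.notMem_erase t A) hp hn
    disj := grp_inf_eq_bot (isNet_mono (closed_Pat _ _ _ _)) (isNet_mono (closed_Pat _ _ _ _))
      (fun i j => by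
        by_cases hj : j = t
        · rw [mono_eq_bot (P := Pat pos (A.erase t) (A.erase t) ∅)
            (fun e _ h => (Finset.mem_erase.mp h.2.1).1 hj), bot_inf_eq]
        · rw [mono_eq_bot (P := Pat pos (A.erase t) {t} ∅)
            (fun e _ h => hj (Finset.mem_singleton.mp h.2.1)), inf_bot_eq])
    dec := fun τ hτ x hx => by
      obtain ⟨q, hq, n, hn, e⟩ :=
        HH_row_decomp (Finset.notMem_erase t A) (m1 _ _ _ hE subset_rfl hτ x hx)
      refine ⟨tinv q, m2 _ _ _ hE hE hτ q hq, tinv n,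
        m2 _ _ ∅ hE htA (Finset.empty_subset _) n (by simpa using hn), ?_⟩
      rw [← map_mul, ← e, tinv_tinv]
    surj := fun W _ _ => by
      have hfix : ∀ S T τ : Finset ι, S ⊆ A → T ⊆ A → τ ⊆ A →
          Fix (rreg _ W) (HH F s pos S T τ : Set (SpecialLinearGroup ι (Rs F s))) =
          Fix ((rreg _ W).comp tinv) (HH F s (fun x => - pos x) T S (τ.image β) :
            Set (SpecialLinearGroup ι (Rs F s))) := by
        intro S T τ hS hT hτ
        ext v
        constructor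
        · intro hv g hg
          exact hv _ (m2 S T τ hS hT hτ g hg)
        · intro hv g hg
          have := hv _ (m1 S T τ hS hT hτ g hg)
          rwa [MonoidHom.comp_apply, tinv_tinv] at this
      have h := (row_surj_full (s := s) hpos' h2 hc ht hj ((rreg _ W).comp tinv)).relabel β hbij
      refine h.congr (fun τ _ hτ => hfix _ _ τ hE subset_rfl hτ) (fun τ _ hτ => ?_)
      rw [hfix _ _ τ hE hE hτ, hfix _ _ ∅ hE htA (Finset.empty_subset _), Finset.image_empty] }

theorem HH_gen2 (hpos : Function.Injective pos) {A : Finset ι} {t : ι} (ht : t ∈ A)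
    (K : Subgroup (SpecialLinearGroup ι (Rs F s))) (h1 : HH F s pos {t} (A.erase t) ∅ ≤ K)
    (h2 : HH F s pos (A.erase t) {t} ∅ ≤ K)
    (h3 : ∀ g ∈ HH F s pos A A ∅, ∀ k ∈ K, g * k * g⁻¹ ∈ K) (τ : Finset ι) :
    HH F s pos A A τ ≤ HH F s pos A A (insert t τ) ⊔ K := by
  refine HH_le_of_elem hpos A τ _ (fun i j e c hij h => ?_)
  by_cases hc : Cross pos t i j e
  swap
  · exact Subgroup.mem_sup_left (elem_mem_HH (h.insert hc) c)
  refine Subgroup.mem_sup_right ?_
  by_cases hi : i = t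
  · subst hi
    exact h1 (elem_mem_HH ⟨Finset.mem_singleton_self _, Finset.mem_erase.mpr ⟨hij.symm, h.2.1⟩,
      h.2.2.1, by simp⟩ c)
  by_cases hj : j = t
  · subst hj
    exact h2 (elem_mem_HH ⟨Finset.mem_erase.mpr ⟨hij, h.1⟩, Finset.mem_singleton_self _,
      h.2.2.1, by simp⟩ c)
  obtain ⟨n, k1, k2⟩ := hc
  have hne : pos i ≠ pos t := fun e => hi (hpos e)
  have he : e = n + (e - n) := by unfold Lt2 at k2; omega
  have l1 : Lt2 pos 0 i n t := by unfold Lt2 Le2 at *; omega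
  have l2 : Lt2 pos 0 t (e - n) j := by unfold Lt2 Le2 at *; omega
  have hy : elem t j (mon s (1 : F) (e - n)) ∈ K :=
    h1 (elem_mem_HH ⟨Finset.mem_singleton_self _, Finset.mem_erase.mpr ⟨hj, h.2.1⟩, l2, by simp⟩ 1)
  have hx : elem i t (mon s c n) ∈ HH F s pos A A ∅ :=
    elem_mem_HH ⟨h.1, ht, l1, by simp⟩ c
  rw [he, ← mul_one c, ← mon_mul, elem_eq_comm hi (Ne.symm hj) hij, mul_assoc, mul_assoc,
    ← mul_assoc (elem i t _)]
  exact K.mul_mem (K.inv_mem hy) (h3 _ hx _ hy)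

theorem vanishing_aux (hpos : Function.Injective pos) (h2 : (2 : F) ≠ 0) {R : ℕ}
    (hc : LinCones F ι R) (ρ : Representation (ZMod 2) (SpecialLinearGroup ι (Rs F s)) V) (j : ℕ) :
    ∀ (A : Finset ι), 2 * j + 2 ≤ A.card →
    ∀ (W : Submodule (ZMod 2) V), (∀ g ∈ HH F s pos A A ∅, ∀ v ∈ W, ρ g v ∈ W) →
    Exact A ∅ (fun τ => W ⊓ Fix ρ (HH F s pos A A τ)) j := by
  letI : Fintype (SpecialLinearGroup ι (Rs F s)) := Fintype.ofFinite _
  induction j using Nat.strong_induction_on with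
  | _ j ih =>
  intro A hA W hW
  have hAne : A.Nonempty := Finset.card_pos.mp (by omega)
  rcases Nat.eq_zero_or_pos j with rfl | hj
  · exact exact_zero hAne _
  refine Exact.intro (fun x hx hcx => ?_)
  have hle : ∀ π τ : Finset ι, HH F s pos A (A \ π) τ ≤ HH F s pos A A ∅ := fun π τ =>
    HH_mono subset_rfl Finset.sdiff_subset (Finset.empty_subset _)
  obtain ⟨y, hy1, hy2⟩ := double_complex (I := A) (J := A)
    (fun τ π => W ⊓ Fix ρ (HH F s pos A (A \ π) τ)) (fun π => mono_Fix_HH ρ W A (A \ π))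
    (fun τ π π' h => inf_le_inf_left _ (Fix_anti ρ
      (HH_mono subset_rfl (Finset.sdiff_subset_sdiff subset_rfl h) subset_rfl))) hAne j
    (fun τ r hτ hr1 hr => by
      refine exact_join_group (K := fun π => HH F s pos A (A \ π) τ)
        (fun π π' h => HH_mono subset_rfl (Finset.sdiff_subset_sdiff subset_rfl h) subset_rfl)
        (odd_card_HH h2 _ _ _) ρ W (fun g hg => hW g (hle ∅ τ hg)) j ?_ r (by omega) (by omega)
      intro π a b hπ ha haπ hb hπj g hg
      obtain ⟨l, hlA, hl⟩ : ∃ l ∈ A, l ∉ insert a π := by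
        by_contra hcon
        push Not at hcon
        have k1 := Finset.card_le_card (show A ⊆ insert a π from hcon)
        rw [Finset.card_insert_of_notMem haπ] at k1
        omega
      rw [Finset.mem_insert, not_or] at hl
      refine grp_col_factor (isNet_mono (closed_Pat pos A (A \ π.erase b) τ)) a l (Ne.symm hl.1)
        (fun d hd => isUnit_one_add ?_) (mono_le (fun e _ h => ?_))
        (fun i => mono_le (fun e _ h => ⟨h.1, Finset.mem_sdiff.mpr ⟨ha, haπ⟩, h.2.2⟩))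
        (mono_le (fun e _ h => ⟨h.1, Finset.mem_sdiff.mpr ⟨hlA, hl.2⟩, h.2.2⟩))
        (fun i j hja => mono_le (fun e _ h => ⟨h.1, ?_, h.2.2⟩)) hg
      · by_contra h0
        have := (hd 0 h0).2.2.1
        unfold Lt2 at this; omega
      · refine ⟨hlA, Finset.mem_sdiff.mpr ⟨hlA, fun h' => hl.2 (Finset.mem_of_mem_erase h')⟩, ?_,
          fun c hcτ => absurd h (not_pat_self hcτ a e)⟩
        have := h.2.2.1
        unfold Lt2 at *; omega
      · have := Finset.mem_sdiff.mp h.2.1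
        exact Finset.mem_sdiff.mpr ⟨this.1, fun h' => (Finset.mem_insert.mp h').elim hja this.2⟩)
    (fun π p hπ hπ2 hp => by
      have hcard : (A \ π).card + π.card = A.card := Finset.card_sdiff_add_card_eq_card hπ
      have hU : π ∪ (A \ π) = A := Finset.union_sdiff_of_subset hπ
      have h1 := exact_rows hpos h2 hc (T := A \ π) (j := p) (by omega) ρ
        (ih p (by omega) (A \ π) (by omega)) π Finset.disjoint_sdiff W
        (fun g hg => hW g (hle π ∅ (by rwa [hU] at hg)))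
      rw [hU] at h1
      exact surj_add_redundant (I := A) (mono_Fix_HH ρ W A (A \ π)) monotone_const
        (fun _ => bot_le) Finset.sdiff_subset (fun b _ hb => by
          obtain ⟨u, hu, h⟩ := exists_prev hpos (T := A \ π) (Finset.card_pos.mp (by omega)) hb
          exact ⟨u, hu, fun τ hτ =>
            ⟨inf_le_inf_left _ (Fix_anti ρ (HH_le_insert hτ h)), le_rfl⟩⟩) h1)
    x (fun τ h1 h3 => by
      rw [Finset.sdiff_empty]; exact hx τ (Finset.empty_subset _) h1 h3)
    (fun t ht => by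
      rw [Finset.sdiff_singleton_eq_erase]
      exact step1 ht (HH_anti A A) (HH_anti _ _) (odd_card_HH h2 _ _ _)
        (splitData_row hpos h2 hc ht (by omega)) (splitData_col hpos h2 hc ht (by omega))
        (HH_le_of_elem hpos A ∅ _ (fun i j e c hij h => by
          by_cases hjt : j = t
          · subst hjt
            exact Subgroup.mem_sup_right
              (elem_mem_HH ⟨Finset.mem_erase.mpr ⟨hij, h.1⟩, h.2⟩ c)
          · exact Subgroup.mem_sup_left
              (elem_mem_HH ⟨h.1, Finset.mem_erase.mpr ⟨hjt, h.2.1⟩, h.2.2⟩ c)))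
        (fun K k1 k2 k3 τ _ _ => HH_gen2 hpos ht K k1 k2 k3 τ) ρ W hW x
        (fun τ h1 h3 => hx τ (Finset.empty_subset _) h1 h3) hcx)
  refine ⟨y, fun τ _ h1 h3 => ?_, fun τ _ h1 h3 => hy2 τ h1 h3⟩
  have := hy1 τ h1 h3
  rwa [Finset.sdiff_empty] at this

theorem vanishing {pos : ι → ℤ} (hpos : Function.Injective pos) (h2 : (2 : F) ≠ 0) {R : ℕ}
    (hc : LinCones F ι R) (j : ℕ) (A : Finset ι) (hA : 2 * j + 2 ≤ A.card)
    {V : Type} [AddCommGroup V] [Module (ZMod 2) V]
    (ρ : Representation (ZMod 2) (SpecialLinearGroup ι (Rs F s)) V)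
    (W : Submodule (ZMod 2) V) (hW : ∀ g ∈ HH F s pos A A ∅, ∀ v ∈ W, ρ g v ∈ W) :
    Exact A ∅ (fun τ => W ⊓ Fix ρ (HH F s pos A A τ)) j :=
  vanishing_aux hpos h2 hc ρ j A hA W hW

end Vale.Agent.P067
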