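import Vale.Agent.P067.Assembly
import Vale.Agent.P067.Van
import Vale.Agent.P067.CycSpec
import Vale.Agent.P067.Geom

/-! The main theorem. -/

namespace Vale.Agent.P067

open Finset Matrix Filter

theorem main (d : ℕ) (hd : 1 ≤ d) :
    ∃ (D : ℕ) (ε : ℝ), 0 < ε ∧ ∃ (n : ℕ → ℕ) (X : ∀ k, AbstractSimplicialComplex (Fin (n k))),
      Tendsto n atTop atTop ∧
      ∀ k, IsPure (X k) d ∧ IsConn (X k) ∧ degree (X k) d ≤ D ∧
        IsCoboundaryExpander (X k) d ε := by
  obtain ⟨q, R, hq⟩ := exists_linCones (2 * d + 2)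
  obtain ⟨N, θ, hN, hθ, hl2g⟩ := local_to_global (2 * d + 2) R
  obtain ⟨p, hpge, hp⟩ := Nat.exists_infinite_primes (q + (N + (2 * d + 2)) ^ 2 + 3)
  haveI : Fact p.Prime := ⟨hp⟩
  have hcard : Nat.card (ZMod p) = p := Nat.card_zmod p
  have h2 : (2 : ZMod p) ≠ 0 := by
    intro h
    have h' : ((2 : ℕ) : ZMod p) = 0 := by exact_mod_cast h
    rw [ZMod.natCast_eq_zero_iff] at h'
    have := Nat.le_of_dvd (by norm_num) h'
    omega
  set hmax : ℕ := p ^ ((2 * d + 2) * (2 * d + 2)) with hhmax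
  obtain ⟨D, ε, hε, hass⟩ :=
    assembly d (2 * d + 2) hmax (2 ^ (2 * d + 2) * hmax) θ hθ hd (by omega)
  refine ⟨D, ε, hε, ?_⟩
  have hc : LinCones (ZMod p) (Fin (2 * d + 2)) R :=
    hq (ZMod p) (by omega) (Fin (2 * d + 2)) (by simp)
  let pos : Fin (2 * d + 2) → ℤ := fun i => (i.val : ℤ)
  have hpos : Function.Injective pos := fun a b h => Fin.ext (by simpa [pos] using h)
  have key : ∀ k : ℕ, ∃ (n : ℕ) (X : AbstractSimplicialComplex (Fin n)), k ≤ hmax * n ∧
      IsPure X d ∧ IsConn X ∧ degree X d ≤ D ∧ IsCoboundaryExpander X d ε := by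
    intro k
    letI : Fintype (SpecialLinearGroup (Fin (2 * d + 2)) (Rs (ZMod p) (k + 2))) :=
      Fintype.ofFinite _
    have hm3 : 3 ≤ Fintype.card (Fin (2 * d + 2)) := by simp; omega
    have hmaxle : ∀ σ : Finset (Fin (2 * d + 2)), σ.Nonempty →
        Nat.card (HH (ZMod p) (k + 2) pos univ univ σ) ≤ hmax := by
      intro σ hσ
      simpa [hcard, hhmax] using card_HH_le (F := ZMod p) (s := k + 2) hpos hσ
    obtain ⟨n, X, hn, hX⟩ := hass (SpecialLinearGroup (Fin (2 * d + 2)) (Rs (ZMod p) (k + 2)))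
      (Fin (2 * d + 2)) (by simp) (HH (ZMod p) (k + 2) pos univ univ) (HH_anti _ _)
      (fun τ hτ g hg => mem_HH_of_forall hτ hg) hmaxle
      (fun a b hab => by simpa using HH_le_sup (F := ZMod p) (s := k + 2) hpos hm3 ∅ hab)
      (fun j _ hj => by
        have := vanishing (s := k + 2) hpos h2 hc j univ (by simp; omega)
          (rreg _ (ZMod 2)) ⊤ (fun _ _ _ _ => Submodule.mem_top)
        simpa using this)
      (fun j _ hj => hl2g _ _ (by simp) _ (HH_anti _ _)
        (spec_HH hpos (by omega) hm3 hN (by simp only [Fintype.card_fin, hcard]; omega))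
        hmax hmaxle j (by omega)
        (fun σ hσ hσj => hasCone_HH hpos (by omega) hc hσ hσj (by simp; omega)))
    refine ⟨n, X, ?_, hX⟩
    have := le_card_HH (F := ZMod p) (s := k + 2) hpos (by omega)
    omega
  choose n X hn hX using key
  refine ⟨n, X, ?_, hX⟩
  have hpos' : 0 < hmax := pow_pos hp.pos _
  refine tendsto_atTop_mono (f := fun k => k / hmax) (fun k => ?_)
    (Nat.tendsto_div_const_atTop hpos'.ne')
  exact Nat.div_le_of_le_mul (hn k)

end Vale.Agent.P067
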