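import Vale.Agent.P067.Basic

/-! Net subgroups of `SL(ι, R)`. -/

set_option linter.unusedSectionVars false
set_option linter.unusedVariables false

namespace Vale.Agent.P067

open Finset Matrix

variable {ι : Type} [Fintype ι] [DecidableEq ι] {R : Type} [CommRing R]

/-- A net of additive subgroups. -/
def IsNet (𝔞 : ι → ι → AddSubgroup R) : Prop :=
  ∀ i j l x y, x ∈ 𝔞 i j → y ∈ 𝔞 j l → x * y ∈ 𝔞 i l

/-- Matrices congruent to the identity along the net. -/
def InNet (𝔞 : ι → ι → AddSubgroup R) (g : SpecialLinearGroup ι R) : Prop :=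
  ∀ i j, g i j - (1 : Matrix ι ι R) i j ∈ 𝔞 i j

/-- The net subgroup. -/
def grp (𝔞 : ι → ι → AddSubgroup R) : Subgroup (SpecialLinearGroup ι R) :=
  Subgroup.closure {g | InNet 𝔞 g}

/-- Entrywise membership. -/
def MIn (𝔞 : ι → ι → AddSubgroup R) (M : Matrix ι ι R) : Prop := ∀ i j, M i j ∈ 𝔞 i j

theorem inNet_iff {𝔞 : ι → ι → AddSubgroup R} {g : SpecialLinearGroup ι R} :
    InNet 𝔞 g ↔ MIn 𝔞 ((g : Matrix ι ι R) - 1) := Iff.rfl

theorem MIn.add {𝔞 : ι → ι → AddSubgroup R} {M N : Matrix ι ι R} (hM : MIn 𝔞 M) (hN : MIn 𝔞 N) :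
    MIn 𝔞 (M + N) := fun i j => (𝔞 i j).add_mem (hM i j) (hN i j)

theorem MIn.mul {𝔞 𝔟 𝔠 : ι → ι → AddSubgroup R}
    (h : ∀ i j l x y, x ∈ 𝔞 i j → y ∈ 𝔟 j l → x * y ∈ 𝔠 i l) {M N : Matrix ι ι R}
    (hM : MIn 𝔞 M) (hN : MIn 𝔟 N) : MIn 𝔠 (M * N) := by
  intro i l
  rw [Matrix.mul_apply]
  exact AddSubgroup.sum_mem _ (fun j _ => h i j l _ _ (hM i j) (hN j l))

theorem InNet.mul {𝔞 : ι → ι → AddSubgroup R} (h : IsNet 𝔞) {g g' : SpecialLinearGroup ι R}
    (hg : InNet 𝔞 g) (hg' : InNet 𝔞 g') : InNet 𝔞 (g * g') := by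
  rw [inNet_iff] at hg hg' ⊢
  have e : ((g * g' : SpecialLinearGroup ι R) : Matrix ι ι R) - 1 =
      ((g : Matrix ι ι R) - 1) * ((g' : Matrix ι ι R) - 1) + ((g : Matrix ι ι R) - 1) +
        ((g' : Matrix ι ι R) - 1) := by
    rw [Matrix.SpecialLinearGroup.coe_mul]; noncomm_ring
  rw [e]
  exact ((MIn.mul h hg hg').add hg).add hg'

theorem InNet.one (𝔞 : ι → ι → AddSubgroup R) : InNet 𝔞 (1 : SpecialLinearGroup ι R) := by
  intro i j
  rw [Matrix.SpecialLinearGroup.coe_one, sub_self]
  exact (𝔞 i j).zero_mem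

theorem InNet.pow {𝔞 : ι → ι → AddSubgroup R} (h : IsNet 𝔞) {g : SpecialLinearGroup ι R}
    (hg : InNet 𝔞 g) (n : ℕ) : InNet 𝔞 (g ^ n) := by
  induction n with
  | zero => simpa using InNet.one 𝔞
  | succ n ih => rw [pow_succ]; exact ih.mul h hg

theorem mem_grp_of_inNet {𝔞 : ι → ι → AddSubgroup R} {g : SpecialLinearGroup ι R}
    (hg : InNet 𝔞 g) : g ∈ grp 𝔞 := Subgroup.subset_closure hg

theorem mem_grp [Finite R] {𝔞 : ι → ι → AddSubgroup R} (h : IsNet 𝔞)
    {g : SpecialLinearGroup ι R} : g ∈ grp 𝔞 ↔ InNet 𝔞 g := by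
  refine ⟨fun hg => ?_, mem_grp_of_inNet⟩
  induction hg using Subgroup.closure_induction with
  | mem x hx => exact hx
  | one => exact InNet.one 𝔞
  | mul x y _ _ hx hy => exact hx.mul h hy
  | inv x _ hx =>
    have h1 : x⁻¹ = x ^ (orderOf x - 1) := by
      symm
      apply eq_inv_of_mul_eq_one_left
      rw [← pow_succ, Nat.sub_add_cancel (orderOf_pos x), pow_orderOf_eq_one]
    rw [h1]
    exact hx.pow h _

theorem grp_mono {𝔞 𝔟 : ι → ι → AddSubgroup R} (h : ∀ i j, 𝔞 i j ≤ 𝔟 i j) : grp 𝔞 ≤ grp 𝔟 :=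
  Subgroup.closure_mono (fun _ hg i j => h i j (hg i j))

/-- The elementary matrix `1 + r E_{ij}` (the identity if `i = j`). -/
def elem (i j : ι) (r : R) : SpecialLinearGroup ι R :=
  if h : i ≠ j then SpecialLinearGroup.transvection h r else 1

theorem elem_coe {i j : ι} (h : i ≠ j) (r : R) :
    (elem i j r : Matrix ι ι R) = 1 + single i j r := by
  simp [elem, h, SpecialLinearGroup.transvection_coe]

theorem elem_zero (i j : ι) : elem i j (0 : R) = 1 := by
  unfold elem
  split_ifs with h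
  · exact SpecialLinearGroup.transvection_coeff_zero h
  · rfl

theorem elem_add (i j : ι) (r r' : R) : elem i j (r + r') = elem i j r * elem i j r' := by
  unfold elem
  split_ifs with h
  · exact SpecialLinearGroup.transvection_add h r r'
  · simp

theorem elem_inv (i j : ι) (r : R) : (elem i j r)⁻¹ = elem i j (-r) := by
  unfold elem
  split_ifs with h
  · exact SpecialLinearGroup.transvection_inv h r
  · simp

theorem elem_self (i : ι) (r : R) : elem i i r = 1 := by simp [elem]

theorem elem_apply {i j : ι} (h : i ≠ j) (r : R) (a b : ι) :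
    elem i j r a b = (1 : Matrix ι ι R) a b + if a = i ∧ b = j then r else 0 := by
  have := elem_coe h r
  change (elem i j r : Matrix ι ι R) a b = _
  rw [this, Matrix.add_apply, Matrix.single_apply]
  simp only [eq_comm]

theorem elem_mul_apply {i j : ι} (h : i ≠ j) (r : R) (g : SpecialLinearGroup ι R) (a b : ι) :
    (elem i j r * g) a b = g a b + if a = i then r * g j b else 0 := by
  change ((elem i j r * g : SpecialLinearGroup ι R) : Matrix ι ι R) a b = _
  rw [Matrix.SpecialLinearGroup.coe_mul, elem_coe h, add_mul, one_mul, Matrix.add_apply]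
  by_cases ha : a = i
  · subst ha
    simp [Matrix.single_mul_apply_same]
  · simp [ha, Matrix.single_mul_apply_of_ne _ _ _ _ _ ha]

theorem mul_elem_apply {i j : ι} (h : i ≠ j) (r : R) (g : SpecialLinearGroup ι R) (a b : ι) :
    (g * elem i j r) a b = g a b + if b = j then g a i * r else 0 := by
  change ((g * elem i j r : SpecialLinearGroup ι R) : Matrix ι ι R) a b = _
  rw [Matrix.SpecialLinearGroup.coe_mul, elem_coe h, mul_add, mul_one, Matrix.add_apply]
  by_cases hb : b = j
  · subst hb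
    simp [Matrix.mul_single_apply_same]
  · simp [hb, Matrix.mul_single_apply_of_ne _ _ _ _ _ hb]

theorem elem_mem_grp {𝔞 : ι → ι → AddSubgroup R} {i j : ι} {r : R} (hr : r ∈ 𝔞 i j) :
    elem i j r ∈ grp 𝔞 := by
  by_cases h : i = j
  · subst h; rw [elem_self]; exact (grp 𝔞).one_mem
  refine mem_grp_of_inNet (fun a b => ?_)
  rw [elem_apply h, add_sub_cancel_left]
  split_ifs with hab
  · obtain ⟨rfl, rfl⟩ := hab; exact hr
  · exact (𝔞 a b).zero_mem

theorem elem_injective {i j : ι} (h : i ≠ j) : Function.Injective (elem i j : R → _) := by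
  intro r r' e
  have := congrArg (fun g : SpecialLinearGroup ι R => g i j) e
  simp only [elem_apply h, and_self, if_true] at this
  exact add_left_cancel this

/-- Steinberg relation: commuting pairs. -/
theorem elem_comm {i j k l : ι} (h1 : j ≠ k) (h2 : l ≠ i) (r r' : R) :
    elem i j r * elem k l r' = elem k l r' * elem i j r := by
  by_cases hij : i = j
  · subst hij; simp [elem_self]
  by_cases hkl : k = l
  · subst hkl; simp [elem_self]
  apply Subtype.ext
  rw [Matrix.SpecialLinearGroup.coe_mul, Matrix.SpecialLinearGroup.coe_mul, elem_coe hij, elem_coe hkl]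
  simp only [mul_add, add_mul, one_mul, mul_one, Matrix.single_mul_single_of_ne _ _ _ _ h1,
    Matrix.single_mul_single_of_ne _ _ _ _ h2]
  abel

/-- Steinberg relation: the commutator. -/
theorem elem_mul_elem {i j l : ι} (hij : i ≠ j) (hjl : j ≠ l) (hil : i ≠ l) (r r' : R) :
    elem i j r * elem j l r' = elem j l r' * elem i l (r * r') * elem i j r := by
  apply Subtype.ext
  simp only [Matrix.SpecialLinearGroup.coe_mul, elem_coe hij, elem_coe hjl, elem_coe hil]
  simp only [mul_add, add_mul, one_mul, mul_one, Matrix.single_mul_single_same,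
    Matrix.single_mul_single_of_ne _ _ _ _ hil.symm, zero_mul, add_zero]
  abel

theorem mul_pow_mem {𝔞 : ι → ι → AddSubgroup R} (h : IsNet 𝔞) {i j : ι} {w d : R}
    (hw : w ∈ 𝔞 i j) (hd : d ∈ 𝔞 j j) (n : ℕ) : w * (1 + d) ^ n ∈ 𝔞 i j := by
  induction n with
  | zero => simpa using hw
  | succ n ih =>
    rw [pow_succ, ← mul_assoc, mul_add, mul_one]
    exact (𝔞 i j).add_mem ih (h _ _ _ _ _ ih hd)

theorem exists_pow_inv [Finite R] {u : R} (hu : IsUnit u) : ∃ n : ℕ, u ^ n * u = 1 := by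
  obtain ⟨v, rfl⟩ := hu
  refine ⟨orderOf v - 1, ?_⟩
  rw [← pow_succ, Nat.sub_add_cancel (orderOf_pos v), ← Units.val_pow_eq_pow_val,
    pow_orderOf_eq_one, Units.val_one]

theorem pow_sub_one_mem {𝔞 : ι → ι → AddSubgroup R} (h : IsNet 𝔞) {j : ι} {d : R}
    (hd : d ∈ 𝔞 j j) (n : ℕ) : (1 + d) ^ n - 1 ∈ 𝔞 j j := by
  induction n with
  | zero => simpa using (𝔞 j j).zero_mem
  | succ n ih =>
    have : (1 + d) ^ (n + 1) - 1 = ((1 + d) ^ n - 1) * d + ((1 + d) ^ n - 1) + d := by ring
    rw [this]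
    exact (𝔞 j j).add_mem ((𝔞 j j).add_mem (h _ _ _ _ _ ih hd) ih) hd

/-- Generation of a net subgroup by its elementary matrices (Gaussian elimination). -/
theorem grp_le_of_elem [Finite R] {𝔞 : ι → ι → AddSubgroup R} (h : IsNet 𝔞) (B : Finset ι)
    (hB : ∀ i j, (i ∉ B ∨ j ∉ B) → 𝔞 i j = ⊥)
    (hunit : ∀ i, ∀ d ∈ 𝔞 i i, IsUnit (1 + d))
    (hdiag : ∀ i ∈ B, ∀ l ∈ B, i ≠ l → ∀ d ∈ 𝔞 i i, ∃ x ∈ 𝔞 i l, ∃ y ∈ 𝔞 l i, d = x * y)
    (K : Subgroup (SpecialLinearGroup ι R))
    (hK : ∀ i j, i ≠ j → ∀ r ∈ 𝔞 i j, elem i j r ∈ K) : grp 𝔞 ≤ K := by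
  let P : Finset ι → SpecialLinearGroup ι R → Prop := fun B' g =>
    g ∈ grp 𝔞 ∧ ∀ i j, (i ∉ B' ∨ j ∉ B') → g i j = (1 : Matrix ι ι R) i j
  have hent : ∀ g ∈ grp 𝔞, ∀ i j, i ≠ j → g i j ∈ 𝔞 i j := by
    intro g hg i j hij
    have := (mem_grp h).mp hg i j
    rwa [Matrix.one_apply_ne hij, sub_zero] at this
  have hleft : ∀ B' g a b r, P B' g → a ∈ B' → b ∈ B' → a ≠ b → r ∈ 𝔞 a b →
      P B' (elem a b r * g) ∧ (elem a b r * g ∈ K → g ∈ K) := by
    intro B' g a b r hg ha hb hab hr
    refine ⟨⟨(grp 𝔞).mul_mem (elem_mem_grp hr) hg.1, fun i j hij => ?_⟩, fun hk => ?_⟩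
    · rw [elem_mul_apply hab, hg.2 i j hij]
      split_ifs with hi
      · subst hi
        have hj : j ∉ B' := hij.resolve_left (fun h => h ha)
        rw [hg.2 b j (Or.inr hj), Matrix.one_apply_ne (fun h : b = j => hj (h ▸ hb)), mul_zero,
          add_zero]
      · rw [add_zero]
    · simpa using K.mul_mem (K.inv_mem (hK a b hab r hr)) hk
  have hright : ∀ B' g a b r, P B' g → a ∈ B' → b ∈ B' → a ≠ b → r ∈ 𝔞 a b →
      P B' (g * elem a b r) ∧ (g * elem a b r ∈ K → g ∈ K) := by
    intro B' g a b r hg ha hb hab hr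
    refine ⟨⟨(grp 𝔞).mul_mem hg.1 (elem_mem_grp hr), fun i j hij => ?_⟩, fun hk => ?_⟩
    · rw [mul_elem_apply hab, hg.2 i j hij]
      split_ifs with hj
      · subst hj
        have hi : i ∉ B' := hij.resolve_right (fun h => h hb)
        rw [hg.2 i a (Or.inl hi), Matrix.one_apply_ne (fun h : i = a => hi (h ▸ ha)), zero_mul,
          add_zero]
      · rw [add_zero]
    · simpa using K.mul_mem hk (K.inv_mem (hK a b hab r hr))
  have main : ∀ B' : Finset ι, B' ⊆ B → ∀ g, P B' g → g ∈ K := by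
    intro B'
    induction B' using Finset.induction_on with
    | empty =>
      intro _ g hg
      have : g = 1 := by
        ext i j
        rw [hg.2 i j (Or.inl (Finset.notMem_empty _))]
        rfl
      rw [this]; exact K.one_mem
    | insert j B' hj ih =>
      intro hB' g hg
      have hjm : j ∈ insert j B' := Finset.mem_insert_self _ _
      -- make the diagonal entry one
      have stepA : ∃ g1, P (insert j B') g1 ∧ g1 j j = 1 ∧ (g1 ∈ K → g ∈ K) := by
        rcases B'.eq_empty_or_nonempty with hB0 | ⟨l, hl⟩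
        · subst hB0
          refine ⟨g, hg, ?_, id⟩
          have e : (g : Matrix ι ι R) = Matrix.diagonal (Function.update 1 j (g j j)) := by
            ext a b
            by_cases hab : a = j ∧ b = j
            · obtain ⟨rfl, rfl⟩ := hab
              simp
            · rw [hg.2 a b (by simpa [-not_and, not_and_or] using hab)]
              by_cases e : a = b
              · subst e
                have : a ≠ j := fun h => hab ⟨h, h⟩
                simp [Function.update_of_ne this]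
              · simp [Matrix.one_apply_ne e, Matrix.diagonal_apply_ne _ e]
          have := g.det_coe
          rw [e, Matrix.det_diagonal, Finset.prod_update_of_mem (Finset.mem_univ j)] at this
          simpa using this
        · have hlj : l ≠ j := fun h => hj (h ▸ hl)
          have hlm : l ∈ insert j B' := Finset.mem_insert_of_mem hl
          have hd : g j j - 1 ∈ 𝔞 j j := by
            have := (mem_grp h).mp hg.1 j j
            rwa [Matrix.one_apply_eq] at this
          obtain ⟨x, hx, y, hy, hxy⟩ := hdiag j (hB' hjm) l (hB' hlm) hlj.symm _ hd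
          obtain ⟨n, hn⟩ := exists_pow_inv (hunit j _ hd)
          have hc : (y - g l j) * (1 + (g j j - 1)) ^ n ∈ 𝔞 l j :=
            mul_pow_mem h ((𝔞 l j).sub_mem hy (hent g hg.1 l j hlj)) hd n
          obtain ⟨p1, k1⟩ := hleft _ g l j _ hg hlm hjm hlj hc
          obtain ⟨p2, k2⟩ := hleft _ _ j l (-x) p1 hjm hlm hlj.symm ((𝔞 j l).neg_mem hx)
          refine ⟨_, p2, ?_, fun hk => k1 (k2 hk)⟩
          rw [elem_mul_apply hlj.symm, elem_mul_apply hlj, elem_mul_apply hlj]
          simp only [hlj.symm, if_false, if_true, add_zero]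
          have e1 : 1 + (g j j - 1) = g j j := by ring
          rw [e1] at hn ⊢
          rw [mul_assoc, hn]
          linear_combination hxy
      obtain ⟨g1, p1, d1, k1⟩ := stepA
      -- clear the column
      have stepB : ∀ U : Finset ι, U ⊆ B' → ∃ g2, P (insert j B') g2 ∧ g2 j j = 1 ∧
          (∀ i ∈ U, g2 i j = 0) ∧ (g2 ∈ K → g ∈ K) := by
        intro U
        induction U using Finset.induction_on with
        | empty => intro _; exact ⟨g1, p1, d1, by simp, k1⟩
        | insert i U hi ihU =>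
          intro hU
          obtain ⟨g2, p2, d2, z2, k2⟩ := ihU ((Finset.subset_insert _ _).trans hU)
          have hiB : i ∈ B' := hU (Finset.mem_insert_self _ _)
          have hij : i ≠ j := fun h => hj (h ▸ hiB)
          obtain ⟨p3, k3⟩ := hleft _ g2 i j (-(g2 i j)) p2 (Finset.mem_insert_of_mem hiB) hjm hij
            ((𝔞 i j).neg_mem (hent g2 p2.1 i j hij))
          refine ⟨_, p3, ?_, fun a ha => ?_, fun hk => k2 (k3 hk)⟩
          · rw [elem_mul_apply hij]; simp [hij.symm, d2]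
          · rw [elem_mul_apply hij]
            by_cases hai : a = i
            · subst hai; simp [d2]
            · simp [hai, z2 a ((Finset.mem_insert.mp ha).resolve_left hai)]
      obtain ⟨g2, p2, d2, z2, k2⟩ := stepB B' subset_rfl
      have hcol : ∀ g3, P (insert j B') g3 → (∀ i ∈ B', g3 i j = 0) → ∀ i, i ≠ j → g3 i j = 0 := by
        intro g3 p3 z3 i hij
        by_cases hi : i ∈ B'
        · exact z3 i hi
        · rw [p3.2 i j (Or.inl (by simp [hij, hi])), Matrix.one_apply_ne hij]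
      -- clear the row
      have stepC : ∀ U : Finset ι, U ⊆ B' → ∃ g3, P (insert j B') g3 ∧ g3 j j = 1 ∧
          (∀ i ∈ B', g3 i j = 0) ∧ (∀ l ∈ U, g3 j l = 0) ∧ (g3 ∈ K → g ∈ K) := by
        intro U
        induction U using Finset.induction_on with
        | empty => intro _; exact ⟨g2, p2, d2, z2, by simp, k2⟩
        | insert l U hl ihU =>
          intro hU
          obtain ⟨g3, p3, d3, z3, w3, k3⟩ := ihU ((Finset.subset_insert _ _).trans hU)
          have hlB : l ∈ B' := hU (Finset.mem_insert_self _ _)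
          have hjl : j ≠ l := fun h => hj (h ▸ hlB)
          obtain ⟨p4, k4⟩ := hright _ g3 j l (-(g3 j l)) p3 hjm (Finset.mem_insert_of_mem hlB) hjl
            ((𝔞 j l).neg_mem (hent g3 p3.1 j l hjl))
          refine ⟨_, p4, ?_, fun a ha => ?_, fun a ha => ?_, fun hk => k3 (k4 hk)⟩
          · rw [mul_elem_apply hjl]; simp [hjl, d3]
          · rw [mul_elem_apply hjl]; simp [hjl, z3 a ha]
          · rw [mul_elem_apply hjl]
            by_cases hal : a = l
            · subst hal; simp [d3]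
            · simp [hal, w3 a ((Finset.mem_insert.mp ha).resolve_left hal)]
      obtain ⟨g3, p3, d3, z3, w3, k3⟩ := stepC B' subset_rfl
      refine k3 (ih ((Finset.subset_insert _ _).trans hB') g3 ⟨p3.1, fun a b hab => ?_⟩)
      by_cases ha : a = j
      · subst ha
        by_cases hb : b = a
        · subst hb; rw [d3, Matrix.one_apply_eq]
        · by_cases hb' : b ∈ B'
          · rw [w3 b hb', Matrix.one_apply_ne (Ne.symm hb)]
          · exact p3.2 a b (Or.inr (by simp [hb, hb']))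
      · by_cases hb : b = j
        · subst hb
          rw [hcol g3 p3 z3 a ha, Matrix.one_apply_ne ha]
        · exact p3.2 a b (by simpa [ha, hb] using hab)
  intro g hg
  refine main B subset_rfl g ⟨hg, fun i j hij => ?_⟩
  have := (mem_grp h).mp hg i j
  rwa [hB i j hij, AddSubgroup.mem_bot, sub_eq_zero] at this

/-- An ideal of a net gives a normalised subgroup. -/
theorem grp_conj_mem [Finite R] {𝔞 𝔫 : ι → ι → AddSubgroup R} (h : IsNet 𝔞) (hn : IsNet 𝔫)
    (hl : ∀ i j l x y, x ∈ 𝔞 i j → y ∈ 𝔫 j l → x * y ∈ 𝔫 i l)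
    (hr : ∀ i j l x y, x ∈ 𝔫 i j → y ∈ 𝔞 j l → x * y ∈ 𝔫 i l)
    {g n : SpecialLinearGroup ι R} (hg : g ∈ grp 𝔞) (hn' : n ∈ grp 𝔫) :
    g * n * g⁻¹ ∈ grp 𝔫 := by
  have h1 := inNet_iff.mp ((mem_grp h).mp hg)
  have h2 := inNet_iff.mp ((mem_grp h).mp ((grp 𝔞).inv_mem hg))
  have h3 := inNet_iff.mp ((mem_grp hn).mp hn')
  refine mem_grp_of_inNet (inNet_iff.mpr ?_)
  have hgg : (g : Matrix ι ι R) * ((g⁻¹ : SpecialLinearGroup ι R) : Matrix ι ι R) = 1 := by
    rw [← Matrix.SpecialLinearGroup.coe_mul, mul_inv_cancel, Matrix.SpecialLinearGroup.coe_one]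
  set A : Matrix ι ι R := (g : Matrix ι ι R) - 1 with hA
  set A' : Matrix ι ι R := ((g⁻¹ : SpecialLinearGroup ι R) : Matrix ι ι R) - 1 with hA'
  set N : Matrix ι ι R := (n : Matrix ι ι R) - 1 with hN
  have e : ((g * n * g⁻¹ : SpecialLinearGroup ι R) : Matrix ι ι R) - 1 =
      N + A * N + N * A' + A * N * A' := by
    rw [Matrix.SpecialLinearGroup.coe_mul, Matrix.SpecialLinearGroup.coe_mul]
    have : (g : Matrix ι ι R) * (n : Matrix ι ι R) * ((g⁻¹ : SpecialLinearGroup ι R) : Matrix ι ι R)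
        = (g : Matrix ι ι R) * N * ((g⁻¹ : SpecialLinearGroup ι R) : Matrix ι ι R) + 1 := by
      rw [hN, mul_sub, mul_one, sub_mul, hgg, sub_add_cancel]
    rw [this, add_sub_cancel_right, hA, hA']
    noncomm_ring
  rw [e]
  exact ((h3.add (MIn.mul hl h1 h3)).add (MIn.mul hr h3 h2)).add
    (MIn.mul hr (MIn.mul hl h1 h3) h2)

theorem grp_inf_eq_bot [Finite R] {𝔞 𝔟 : ι → ι → AddSubgroup R} (ha : IsNet 𝔞) (hb : IsNet 𝔟)
    (h : ∀ i j, 𝔞 i j ⊓ 𝔟 i j = ⊥) : grp 𝔞 ⊓ grp 𝔟 = ⊥ := by
  rw [eq_bot_iff]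
  intro g hg
  rw [Subgroup.mem_bot]
  ext i j
  have : g i j - (1 : Matrix ι ι R) i j ∈ 𝔞 i j ⊓ 𝔟 i j :=
    ⟨(mem_grp ha).mp hg.1 i j, (mem_grp hb).mp hg.2 i j⟩
  rw [h i j, AddSubgroup.mem_bot, sub_eq_zero] at this
  exact this

theorem det_updateRow_one (t : ι) (v : ι → R) : ((1 : Matrix ι ι R).updateRow t v).det = v t := by
  have e : v = ∑ k, v k • (1 : Matrix ι ι R) k := by
    funext c
    simp [Finset.sum_apply, Matrix.one_apply]
  conv_lhs => rw [e]
  rw [Matrix.det_updateRow_sum]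
  simp

theorem det_updateCol_one (t : ι) (v : ι → R) : ((1 : Matrix ι ι R).updateCol t v).det = v t := by
  rw [← Matrix.det_transpose, ← Matrix.updateRow_transpose, Matrix.transpose_one,
    det_updateRow_one]

/-- Splitting off the row `t` when the column `t` is trivial. -/
theorem grp_row_decomp [Finite R] {𝔞 𝔮 𝔫 : ι → ι → AddSubgroup R} (h : IsNet 𝔞) (t : ι)
    (hcol : ∀ i, 𝔞 i t = ⊥) (hq : ∀ i j, i ≠ t → 𝔞 i j ≤ 𝔮 i j) (hn : ∀ j, 𝔞 t j ≤ 𝔫 t j)
    {x : SpecialLinearGroup ι R} (hx : x ∈ grp 𝔞) :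
    ∃ q ∈ grp 𝔮, ∃ n ∈ grp 𝔫, x = q * n := by
  have hx' := (mem_grp h).mp hx
  have hxt : ∀ i, x i t = (1 : Matrix ι ι R) i t := by
    intro i
    have := hx' i t
    rwa [hcol i, AddSubgroup.mem_bot, sub_eq_zero] at this
  let nm : Matrix ι ι R := (1 : Matrix ι ι R).updateRow t (fun c => x t c)
  let qm : Matrix ι ι R := (x : Matrix ι ι R).updateRow t (fun c => (1 : Matrix ι ι R) t c)
  have hnd : nm.det = 1 := by
    rw [det_updateRow_one, hxt t, Matrix.one_apply_eq]
  have hqn : qm * nm = x := by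
    ext i c
    rw [Matrix.mul_apply]
    by_cases hi : i = t
    · subst hi
      simp [qm, nm, Matrix.one_apply]
    · rw [Finset.sum_eq_single c]
      · by_cases hc : c = t
        · subst hc
          simp [qm, nm, hi, hxt i, Matrix.one_apply_ne hi]
        · simp [qm, nm, hi, hc]
      · intro l _ hl
        by_cases hlt : l = t
        · subst hlt
          simp [qm, hi, hxt i, Matrix.one_apply_ne hi]
        · simp [nm, hlt, Matrix.one_apply_ne hl]
      · simp
  have hqd : qm.det = 1 := by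
    have := congrArg Matrix.det hqn
    rwa [Matrix.det_mul, hnd, mul_one, x.det_coe] at this
  refine ⟨⟨qm, hqd⟩, mem_grp_of_inNet (fun i j => ?_), ⟨nm, hnd⟩,
    mem_grp_of_inNet (fun i j => ?_), Subtype.ext hqn.symm⟩
  · by_cases hi : i = t
    · subst hi
      simp [qm]
    · simpa [qm, hi] using hq i j hi (hx' i j)
  · by_cases hi : i = t
    · subst hi
      simpa [nm] using hn j (hx' i j)
    · simp [nm, hi]

/-- Factorisation used for the rows of the double complex: `g = h * k`, where `k` fixes the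
column `a` and `h` only moves the columns `a` and `l`. -/
theorem grp_col_factor [Finite R] {𝔞 𝔥 𝔨 : ι → ι → AddSubgroup R} (h : IsNet 𝔞) (a l : ι)
    (hal : a ≠ l) (hunit : ∀ d ∈ 𝔞 a a, IsUnit (1 + d)) (hll : 𝔞 a a ≤ 𝔞 l l)
    (hh1 : ∀ i, 𝔞 i a ≤ 𝔥 i a) (hh2 : 𝔞 l l ≤ 𝔥 l l) (hk : ∀ i j, j ≠ a → 𝔞 i j ≤ 𝔨 i j)
    {g : SpecialLinearGroup ι R} (hg : g ∈ grp 𝔞) :
    ∃ h ∈ grp 𝔥, ∃ k ∈ grp 𝔨, g = h * k := by
  have hg' := (mem_grp h).mp hg
  have hd : g a a - 1 ∈ 𝔞 a a := by
    have := hg' a a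
    rwa [Matrix.one_apply_eq] at this
  obtain ⟨n, hn⟩ := exists_pow_inv (hunit _ hd)
  have hw := pow_sub_one_mem h hd n
  have e1 : 1 + (g a a - 1) = g a a := by ring
  rw [e1] at hn hw
  set w : R := g a a ^ n with hwdef
  let hm : Matrix ι ι R := (1 : Matrix ι ι R).updateCol a (fun i => g i a) *
    Matrix.diagonal (Function.update 1 l w)
  have hhd : hm.det = 1 := by
    rw [Matrix.det_mul, det_updateCol_one, Matrix.det_diagonal,
      Finset.prod_update_of_mem (Finset.mem_univ l)]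
    simp [mul_comm (g a a), hn]
  have hent : ∀ i j, hm i j = if j = a then g i a else if j = l then
      (1 : Matrix ι ι R) i l * w else (1 : Matrix ι ι R) i j := by
    intro i j
    simp only [hm, Matrix.mul_diagonal, Matrix.updateCol_apply]
    by_cases hja : j = a
    · subst hja; simp [Function.update_of_ne hal]
    · by_cases hjl : j = l
      · subst hjl; simp [hja]
      · simp [hja, hjl]
  have hin : ∀ 𝔠 : ι → ι → AddSubgroup R, (∀ i, 𝔞 i a ≤ 𝔠 i a) → 𝔞 l l ≤ 𝔠 l l →
      InNet 𝔠 (⟨hm, hhd⟩ : SpecialLinearGroup ι R) := by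
    intro 𝔠 c1 c2 i j
    change hm i j - _ ∈ _
    rw [hent]
    by_cases hja : j = a
    · subst hja; simpa using c1 i (hg' i j)
    · by_cases hjl : j = l
      · subst hjl
        by_cases hij : i = j
        · subst hij; simpa [hja] using c2 (hll hw)
        · simp [hja, Matrix.one_apply_ne hij]
      · simp [hja, hjl]
  set hs : SpecialLinearGroup ι R := ⟨hm, hhd⟩ with hhs
  have hka : hs⁻¹ * g ∈ grp 𝔞 :=
    (grp 𝔞).mul_mem ((grp 𝔞).inv_mem (mem_grp_of_inNet (hin 𝔞 (fun _ => le_rfl) le_rfl))) hg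
  refine ⟨hs, mem_grp_of_inNet (hin 𝔥 hh1 hh2), hs⁻¹ * g, mem_grp_of_inNet (fun i j => ?_),
    by group⟩
  by_cases hja : j = a
  · subst hja
    have e : (hs⁻¹ * g) i j = (hs⁻¹ * hs) i j := by
      change ((hs⁻¹ * g : SpecialLinearGroup ι R) : Matrix ι ι R) i j =
        ((hs⁻¹ * hs : SpecialLinearGroup ι R) : Matrix ι ι R) i j
      rw [Matrix.SpecialLinearGroup.coe_mul, Matrix.SpecialLinearGroup.coe_mul, Matrix.mul_apply,
        Matrix.mul_apply]
      refine Finset.sum_congr rfl (fun c _ => ?_)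
      congr 1
      change g c j = hm c j
      rw [hent]; simp
    rw [e, inv_mul_cancel, Matrix.SpecialLinearGroup.coe_one, sub_self]
    exact AddSubgroup.zero_mem _
  · exact hk i j hja ((mem_grp h).mp hka i j)

/-- A graded family of nets that ends in zero gives a group of odd order. -/
theorem odd_card_grp [Finite R] (h2 : IsUnit (2 : R)) {𝔞 : ι → ι → AddSubgroup R} (h : IsNet 𝔞)
    (𝔟 : ℕ → ι → ι → AddSubgroup R) (h0 : ∀ i j, 𝔞 i j ≤ 𝔟 0 i j)
    (hstep : ∀ k i j l x y, x ∈ 𝔞 i j → y ∈ 𝔟 k j l → x * y ∈ 𝔟 (k + 1) i l)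
    (N : ℕ) (hN : ∀ i j, 𝔟 N i j = ⊥) : Odd (Nat.card (grp 𝔞)) := by
  by_contra hodd
  rw [Nat.not_odd_iff_even, even_iff_two_dvd] at hodd
  haveI : Fact (Nat.Prime 2) := ⟨Nat.prime_two⟩
  obtain ⟨g, hg⟩ := exists_prime_orderOf_dvd_card' 2 hodd
  have hg1 : g ≠ 1 := by
    intro h; rw [h, orderOf_one] at hg; omega
  have hg2 : g ^ 2 = 1 := by rw [← hg]; exact pow_orderOf_eq_one g
  set n : Matrix ι ι R := ((g : SpecialLinearGroup ι R) : Matrix ι ι R) - 1 with hn
  have hna : MIn 𝔞 n := inNet_iff.mp ((mem_grp h).mp g.2)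
  have hpow : ∀ k, MIn (𝔟 k) (n ^ (k + 1)) := by
    intro k
    induction k with
    | zero => intro i j; simpa using h0 i j (hna i j)
    | succ k ih => rw [pow_succ']; exact MIn.mul (hstep k) hna ih
  have hnil : IsNilpotent n := by
    refine ⟨N + 1, ?_⟩
    ext i j
    have := hpow N i j
    rwa [hN, AddSubgroup.mem_bot] at this
  have h2' : IsUnit (2 : Matrix ι ι R) := by
    have := h2.map (algebraMap R (Matrix ι ι R))
    rwa [map_ofNat] at this
  have hu : IsUnit (n + 2) :=
    hnil.isUnit_add_right_of_commute h2' (Commute.ofNat_right n 2)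
  have hsq : ((g : SpecialLinearGroup ι R) : Matrix ι ι R) ^ 2 = 1 := by
    have := congrArg (fun x : grp 𝔞 => ((x : SpecialLinearGroup ι R) : Matrix ι ι R)) hg2
    simpa using this
  have hz : n * (n + 2) = 0 := by
    have : n * (n + 2) = ((g : SpecialLinearGroup ι R) : Matrix ι ι R) ^ 2 - 1 := by
      rw [hn]; noncomm_ring
    rw [this, hsq, sub_self]
  have hn0 : n = 0 := hu.mul_left_eq_zero.mp hz
  apply hg1
  apply Subtype.ext
  apply Subtype.ext
  exact sub_eq_zero.mp hn0

/-- The automorphism `g ↦ (g⁻¹)ᵀ`. -/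
def tinv : SpecialLinearGroup ι R →* SpecialLinearGroup ι R where
  toFun g := (g⁻¹).transpose
  map_one' := by
    apply Subtype.ext
    simp
  map_mul' := fun a b => by
    apply Subtype.ext
    rw [_root_.mul_inv_rev]
    simp only [Matrix.SpecialLinearGroup.coe_transpose, Matrix.SpecialLinearGroup.coe_mul, Matrix.transpose_mul]

theorem tinv_apply (g : SpecialLinearGroup ι R) (i j : ι) : tinv g i j = g⁻¹ j i := rfl

theorem tinv_tinv (g : SpecialLinearGroup ι R) : tinv (tinv g) = g := by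
  ext i j
  rw [tinv_apply, ← map_inv, tinv_apply, inv_inv]

theorem tinv_mem_grp [Finite R] {𝔞 𝔟 : ι → ι → AddSubgroup R} (ha : IsNet 𝔞)
    (hab : ∀ i j, 𝔞 i j ≤ 𝔟 j i) {g : SpecialLinearGroup ι R} (hg : g ∈ grp 𝔞) :
    tinv g ∈ grp 𝔟 := by
  refine mem_grp_of_inNet (fun i j => ?_)
  have := hab j i ((mem_grp ha).mp ((grp 𝔞).inv_mem hg) j i)
  rw [tinv_apply]
  rwa [← Matrix.transpose_one, Matrix.transpose_apply] at this

section scale

variable {F : Type} [Field F] [Algebra F R]

/-- The support condition under which scaling is multiplicative. -/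
def GoodFor (ht : ι → ℤ) (g : SpecialLinearGroup ι F) : Prop :=
  ∀ i j, g i j ≠ 0 → ht i ≤ ht j

/-- The matrix with entries `g i j * x ^ (ht j - ht i)`. -/
def scaleMat (x : R) (ht : ι → ℤ) (g : SpecialLinearGroup ι F) : Matrix ι ι R :=
  fun i j => algebraMap F R (g i j) * x ^ (ht j - ht i).toNat

theorem det_scaleMat (x : R) {ht : ι → ℤ} {g : SpecialLinearGroup ι F} (hg : GoodFor ht g) :
    (scaleMat x ht g).det = 1 := by
  have e : (scaleMat x ht g).det = ((g : Matrix ι ι F).map (algebraMap F R)).det := by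
    rw [Matrix.det_apply', Matrix.det_apply']
    refine Finset.sum_congr rfl (fun σ _ => ?_)
    congr 1
    simp only [scaleMat, Matrix.map_apply]
    rw [Finset.prod_mul_distrib, Finset.prod_pow_eq_pow_sum]
    by_cases hz : ∃ i, g (σ i) i = 0
    · obtain ⟨i, hi⟩ := hz
      rw [Finset.prod_eq_zero (Finset.mem_univ i) (by rw [hi, map_zero]), zero_mul]
    · push Not at hz
      have h0 : ∑ i, (ht i - ht (σ i)).toNat = 0 := by
        have h1 : ((∑ i, (ht i - ht (σ i)).toNat : ℕ) : ℤ) = ∑ i, (ht i - ht (σ i)) := by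
          push_cast
          refine Finset.sum_congr rfl (fun i _ => ?_)
          exact Int.toNat_of_nonneg (sub_nonneg.mpr (hg _ _ (hz i)))
        rw [Finset.sum_sub_distrib, Equiv.sum_comp σ ht, sub_self] at h1
        exact_mod_cast h1
      rw [h0, pow_zero, mul_one]
  rw [e, ← RingHom.mapMatrix_apply, ← RingHom.map_det, g.det_coe, map_one]

open Classical in
/-- Scaling, as a map of special linear groups (junk value off the good elements). -/
noncomputable def scale (x : R) (ht : ι → ℤ) (g : SpecialLinearGroup ι F) :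
    SpecialLinearGroup ι R :=
  if hg : GoodFor ht g then ⟨scaleMat x ht g, det_scaleMat x hg⟩ else 1

theorem scale_apply (x : R) {ht : ι → ℤ} {g : SpecialLinearGroup ι F} (hg : GoodFor ht g)
    (i j : ι) : scale x ht g i j = algebraMap F R (g i j) * x ^ (ht j - ht i).toNat := by
  simp [scale, hg, scaleMat]

theorem scale_mul (x : R) {ht : ι → ℤ} {g g' : SpecialLinearGroup ι F} (hg : GoodFor ht g)
    (hg' : GoodFor ht g') : scale x ht (g * g') = scale x ht g * scale x ht g' := by
  have hgg : GoodFor ht (g * g') := by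
    intro i l hil
    have : (g * g') i l = ∑ j, g i j * g' j l := Matrix.mul_apply
    rw [this] at hil
    obtain ⟨j, _, hj⟩ := Finset.exists_ne_zero_of_sum_ne_zero hil
    exact (hg i j (left_ne_zero_of_mul hj)).trans (hg' j l (right_ne_zero_of_mul hj))
  ext i l
  have e1 : (g * g') i l = ∑ j, g i j * g' j l := Matrix.mul_apply
  have e2 : (scale x ht g * scale x ht g') i l = ∑ j, scale x ht g i j * scale x ht g' j l :=
    Matrix.mul_apply
  rw [scale_apply x hgg, e1, e2, map_sum, Finset.sum_mul]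
  refine Finset.sum_congr rfl (fun j _ => ?_)
  rw [scale_apply x hg, scale_apply x hg']
  by_cases h1 : g i j = 0
  · simp [h1]
  by_cases h2 : g' j l = 0
  · simp [h2]
  have k1 := hg i j h1
  have k2 := hg' j l h2
  have : (ht l - ht i).toNat = (ht j - ht i).toNat + (ht l - ht j).toNat := by omega
  rw [this, pow_add, map_mul]
  ring

theorem scale_elem (x : R) {ht : ι → ℤ} {i j : ι} (hij : ht i ≤ ht j) (c : F) :
    scale x ht (elem i j c) = elem i j (algebraMap F R c * x ^ (ht j - ht i).toNat) := by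
  have hone : ∀ a b : ι, algebraMap F R ((1 : Matrix ι ι F) a b) * x ^ (ht b - ht a).toNat =
      (1 : Matrix ι ι R) a b := by
    intro a b
    by_cases hab : a = b
    · subst hab; simp
    · simp [Matrix.one_apply_ne hab]
  by_cases h : i = j
  · subst h
    rw [elem_self, elem_self]
    have hg : GoodFor ht (1 : SpecialLinearGroup ι F) := by
      intro a b hab
      by_cases e : a = b
      · rw [e]
      · exact absurd (Matrix.one_apply_ne e) hab
    ext a b
    rw [scale_apply x hg]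
    exact hone a b
  have hg : GoodFor ht (elem i j c) := by
    intro a b hab
    rw [elem_apply h] at hab
    by_cases e : a = b
    · rw [e]
    · by_cases e' : a = i ∧ b = j
      · rw [e'.1, e'.2]; exact hij
      · simp [e', Matrix.one_apply_ne e] at hab
  ext a b
  rw [scale_apply x hg, elem_apply h, elem_apply h, map_add, add_mul, hone]
  congr 1
  split_ifs with e
  · rw [e.1, e.2]
  · simp

end scale

end Vale.Agent.P067
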