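import Vale.Agent.P067.Cyc

/-! Cocycles can be made invariant under the row of a row-only vertex. -/

set_option linter.unusedSectionVars false
set_option linter.unusedVariables false

namespace Vale.Agent.P067

open Finset Matrix

variable {ι : Type} [Fintype ι] [DecidableEq ι] {F : Type} [Field F] [Finite F] {s : ℕ}
  {pos : ι → ℤ} {V : Type} [AddCommGroup V] [Module (ZMod 2) V]

/-- Exactness of the link of one colour, from a linear model. -/
theorem exact_link (h2 : (2 : F) ≠ 0) {R : ℕ} (hc : LinCones F ι R) {S T : Finset ι} {a : ι}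
    (ha : a ∈ T) {key ht : ι → ℤ} (hkey : Set.InjOn key T) (hmax : ∀ u ∈ T, key u ≤ key a)
    (P : Finset ι → ι → ι → ℕ → Prop) (PN : ι → ι → ℕ → Prop)
    (hPc : ∀ τ, Closed (P τ)) (hNc : Closed PN)
    (hPS : ∀ τ i j e, P τ i j e → Pat pos S T ∅ i j e)
    (hPd : ∀ τ, a ∈ τ → ∀ i e, ¬ P τ i i e)
    (h1 : ∀ τ, a ∈ τ → τ ⊆ T → ∀ i j, LinRel key T τ i j →
      ht i ≤ ht j ∧ P τ i j (ht j - ht i).toNat)
    (h2' : ∀ τ, a ∈ τ → τ ⊆ T → ∀ i j e, P τ i j e →
      PN i j e ∨ (LinRel key T τ i j ∧ (e : ℤ) = ht j - ht i))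
    (h3 : ∀ τ, a ∈ τ → τ ⊆ T → ∀ i j e, PN i j e → P τ i j e)
    (hl : ∀ i j l e e', P {a} i j e → PN j l e' → PN i l (e + e'))
    (hr : ∀ i j l e e', PN i j e → P {a} j l e' → PN i l (e + e'))
    (ρ : Representation (ZMod 2) (SpecialLinearGroup ι (Rs F s)) V)
    (W : Submodule (ZMod 2) V) (hW : ∀ g ∈ HH F s pos S T ∅, ∀ v ∈ W, ρ g v ∈ W)
    {j : ℕ} (hj : j + 1 ≤ T.card) :
    Exact T (insert a ∅) (fun τ => W ⊓ Fix ρ (grp (mono F s (P τ)))) j := by
  classical
  rcases Nat.eq_zero_or_pos j with rfl | hj0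
  · exact exact_of_lt_card _ (by simp)
  letI : Fintype (SpecialLinearGroup ι F) := Fintype.ofFinite _
  have hσ : insert a (∅ : Finset ι) = {a} := rfl
  rw [hσ]
  have haa : a ∈ ({a} : Finset ι) := Finset.mem_singleton_self a
  have haT : ({a} : Finset ι) ⊆ T := by simpa using ha
  have hsc : ∀ τ, a ∈ τ → τ ⊆ T → ∀ k ∈ LinG F key T τ,
      GoodFor ht k ∧ scale (xx F s) ht k ∈ grp (mono F s (P τ)) :=
    fun τ k1 k2 k hk => scale_mem hkey (h1 τ k1 k2) hk
  have hcone := hc key T hkey a ha hmax {a} haa haT j (by rw [Finset.card_singleton]; exact hj0) hj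
  have hPle : grp (mono F s (P {a})) ≤ HH F s pos S T ∅ :=
    grp_mono (fun i j => mono_le (fun e _ h => hPS _ i j e h))
  have hex := HasCone.exact (LinG_anti key T) (scale (xx F s) ht)
    (fun x hx y hy => scale_mul _ (hsc _ haa haT x hx).1 (hsc _ haa haT y hy).1)
    (odd_card_LinG h2 hkey {a}) ρ (W ⊓ Fix ρ (grp (mono F s PN)))
    (fun x hx v hv => ⟨hW _ (hPle (hsc _ haa haT x hx).2) v hv.1, fun n hn => by
      have hg := (grp (mono F s (P {a}))).inv_mem (hsc _ haa haT x hx).2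
      have := grp_conj_mem (isNet_mono (hPc {a})) (isNet_mono hNc)
        (fun i j l x y hx hy => mono_mul (hl i j l) hx hy)
        (fun i j l x y hx hy => mono_mul (hr i j l) hx hy) hg hn
      have e := hv.2 _ this
      rw [inv_inv] at e
      conv_rhs => rw [← e]
      rw [← Module.End.mul_apply, ← Module.End.mul_apply, ← map_mul, ← map_mul]
      congr 2
      group⟩) hcone
  refine hex.congr (fun τ k1 k2 => ?_)
  have haτ : a ∈ τ := k1 haa
  apply le_antisymm
  · intro v hv
    refine ⟨⟨hv.1, fun n hn => hv.2 n ?_⟩, ?_⟩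
    · exact grp_mono (fun i j => mono_le (fun e _ h => h3 τ haτ k2 i j e h)) hn
    · rintro _ ⟨k, hk, rfl⟩
      exact hv.2 _ (hsc τ haτ k2 k hk).2
  · intro v hv
    refine ⟨hv.1.1, mem_Fix_iff_le_stabv.mpr ?_⟩
    refine grp_mono_le (hPc τ) (hPd τ haτ) _ (fun i j e c _ hp => ?_)
    rcases h2' τ haτ k2 i j e hp with h | ⟨h, he⟩
    · exact hv.1.2 _ (elem_mem_grp (mon_mem_mono h c))
    · refine hv.2 _ ⟨elem i j c, elem_mem_LinG h c, ?_⟩
      rw [scale_elem _ (h1 τ haτ k2 i j h).1, ← he, Int.toNat_natCast]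
      rfl

/-- The pattern in which the crossings of row `t` at the positions in `D` are ignored. -/
def PatD (pos : ι → ℤ) (S T : Finset ι) (t : ι) (D : ℕ → ι → Prop) (τ : Finset ι) (i j : ι)
    (e : ℕ) : Prop :=
  (i = t ∧ j ∈ T ∧ Lt2 pos 0 t e j ∧
    ∀ a ∈ τ, ∀ n, Le2 pos 0 t n a → Lt2 pos n a e j → D n a) ∨ Pat pos (S.erase t) T τ i j e

theorem closed_PatD {S T : Finset ι} {t : ι} (htT : t ∉ T) (D : ℕ → ι → Prop) (τ : Finset ι) :
    Closed (PatD pos S T t D τ) := by
  intro i j l e e' h h'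
  have hjT : j ∈ T := h.elim (fun h => h.2.1) (fun h => h.2.1)
  have h'' : Pat pos (S.erase t) T τ j l e' :=
    h'.resolve_left (fun h => htT (h.1 ▸ hjT))
  rcases h with ⟨rfl, _, h3, h4⟩ | h
  · refine Or.inl ⟨rfl, h''.2.1, lt2_trans h3 h''.2.2.1, fun a ha n k1 k2 => ?_⟩
    by_cases k : Lt2 pos n a e j
    · exact h4 a ha n k1 k
    · refine absurd ⟨n - e, ?_, ?_⟩ (h''.2.2.2 a ha) <;> unfold Lt2 Le2 at * <;> omega
  · exact Or.inr (closed_Pat pos _ _ _ i j l e e' h h'')

theorem PatD.mono {S T : Finset ι} {t : ι} {D D' : ℕ → ι → Prop} {τ τ' : Finset ι}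
    (hτ : τ' ⊆ τ) (hD : ∀ a ∈ τ', ∀ n, D n a → D' n a) {i j : ι} {e : ℕ}
    (h : PatD pos S T t D τ i j e) : PatD pos S T t D' τ' i j e := by
  rcases h with ⟨h1, h2, h3, h4⟩ | ⟨h1, h2, h3, h4⟩
  · exact Or.inl ⟨h1, h2, h3, fun a ha n k1 k2 => hD a ha n (h4 a (hτ ha) n k1 k2)⟩
  · exact Or.inr ⟨h1, h2, h3, fun a ha => h4 a (hτ ha)⟩

theorem PatD.pat {S T : Finset ι} {t : ι} (htS : t ∈ S) {D : ℕ → ι → Prop} {τ : Finset ι}
    {i j : ι} {e : ℕ} (h : PatD pos S T t D τ i j e) : Pat pos S T ∅ i j e := by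
  rcases h with ⟨rfl, h2, h3, _⟩ | ⟨h1, h2, h3, _⟩
  · exact ⟨htS, h2, h3, by simp⟩
  · exact ⟨Finset.mem_of_mem_erase h1, h2, h3, by simp⟩

/-- The fixed-point system of `PatD`. -/
noncomputable def MD (pos : ι → ℤ) (S T : Finset ι) (t : ι)
    (ρ : Representation (ZMod 2) (SpecialLinearGroup ι (Rs F s)) V) (W : Submodule (ZMod 2) V)
    (D : ℕ → ι → Prop) (τ : Finset ι) : Submodule (ZMod 2) V :=
  W ⊓ Fix ρ (grp (mono F s (PatD pos S T t D τ)))

theorem MD_le {S T : Finset ι} {t : ι}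
    (ρ : Representation (ZMod 2) (SpecialLinearGroup ι (Rs F s)) V) (W : Submodule (ZMod 2) V)
    {D D' : ℕ → ι → Prop} {τ τ' : Finset ι} (hτ : τ' ⊆ τ) (hD : ∀ a ∈ τ', ∀ n, D n a → D' n a) :
    MD pos S T t ρ W D' τ' ≤ MD pos S T t ρ W D τ :=
  inf_le_inf_left _ (Fix_anti ρ
    (grp_mono (fun i j => mono_le (fun e _ h => PatD.mono hτ hD h))))

theorem row_step (hpos : Function.Injective pos) (h2 : (2 : F) ≠ 0) {R : ℕ}
    (hc : LinCones F ι R) {S T : Finset ι} (hTS : T ⊆ S) {t : ι} (htS : t ∈ S) (htT : t ∉ T)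
    {j : ℕ} (hj : j + 2 ≤ T.card)
    (ρ : Representation (ZMod 2) (SpecialLinearGroup ι (Rs F s)) V)
    (W : Submodule (ZMod 2) V) (hW : ∀ g ∈ HH F s pos S T ∅, ∀ v ∈ W, ρ g v ∈ W)
    {a : ι} (ha : a ∈ T) {n₀ : ℕ} (hβ : Le2 pos 0 t n₀ a) :
    Surj T ∅ (MD pos S T t ρ W (fun n b => Lt2 pos n b n₀ a))
      (MD pos S T t ρ W (fun n b => Le2 pos n b n₀ a)) j := by
  classical
  obtain ⟨key, hinj, hmax, hkey⟩ := exists_cutKey hpos a
  obtain ⟨M, hM⟩ := exists_pos_bound key
  have hlt_le : ∀ n b, Lt2 pos n b n₀ a → Le2 pos n b n₀ a := by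
    intro n b h; unfold Lt2 Le2 at *; omega
  have hTne : ∀ u ∈ T, u ≠ t := fun u hu h => htT (h ▸ hu)
  have hTe : ∀ u ∈ T, u ∈ S.erase t := fun u hu => Finset.mem_erase.mpr ⟨hTne u hu, hTS hu⟩
  let ht : ι → ℤ := fun i => if i = t then -(n₀ : ℤ) else cutHt pos a i
  let PN : ι → ι → ℕ → Prop := fun i j e => i = t ∧ j ∈ T ∧ Lt2 pos 0 t e j ∧ Le2 pos e j n₀ a
  have hNc : Closed PN := fun i j l e e' h h' => absurd h'.1 (hTne j h.2.1)
  have hcut : ∀ i, cutHt pos a i = 0 ∧ pos a < pos i ∨ cutHt pos a i = 1 ∧ pos i ≤ pos a := by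
    intro i; unfold cutHt; split_ifs <;> omega
  -- the common part of the two linear models
  have common : ∀ (kt : ℤ) (D : ℕ → ι → Prop), (∀ n b, Lt2 pos n b n₀ a → D n b) →
      (∀ τ, a ∈ τ → τ ⊆ T → ∀ j,
        LinRel (fun i => if i = t then kt else if i ∈ S then key i else key a + 1) T τ t j →
        PatD pos S T t D τ t j (ht j - ht t).toNat) →
      (∀ τ, a ∈ τ → τ ⊆ T → ∀ j e, j ∈ T → Lt2 pos 0 t e j →
        (∀ b ∈ τ, ∀ n, Le2 pos 0 t n b → Lt2 pos n b e j → D n b) → PN t j e ∨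
        (LinRel (fun i => if i = t then kt else if i ∈ S then key i else key a + 1) T τ t j ∧
          (e : ℤ) = ht j - ht t)) →
      ∀ j', j' + 1 ≤ T.card → Exact T (insert a ∅) (MD pos S T t ρ W D) j' := by
    intro kt D hD hA hB j' hj'
    set key' : ι → ℤ := fun i => if i = t then kt else if i ∈ S then key i else key a + 1
      with hkey'
    have hkT : ∀ u ∈ T, key' u = key u := fun u hu => by simp [hkey', hTne u hu, hTS hu]
    have hhT : ∀ u, u ≠ t → ht u = cutHt pos a u := fun u hu => by simp [ht, hu]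
    have hrel : ∀ τ, τ ⊆ T → ∀ i ∈ S.erase t, ∀ j, LinRel key' T τ i j ↔ LinRel key T τ i j := by
      intro τ hτ i hi j
      have hi' : key' i = key i := by
        rw [Finset.mem_erase] at hi
        simp [hkey', hi.1, hi.2]
      unfold LinRel
      refine and_congr_right (fun hj => ?_)
      rw [hi', hkT j hj]
      refine and_congr_right (fun _ => and_congr_right (fun _ => ?_))
      exact forall₂_congr (fun b hb => by rw [hkT b (hτ hb)])
    refine exact_link (pos := pos) (S := S) h2 hc ha (key := key') (ht := ht)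
      (fun u hu v hv h => hinj (by rwa [hkT u hu, hkT v hv] at h))
      (fun u hu => by rw [hkT u hu, hkT a ha]; exact hmax u) (PatD pos S T t D) PN
      (closed_PatD htT D) hNc (fun τ i j e h => h.pat htS) ?_ ?_ ?_ ?_ ?_ ?_ ρ W hW hj'
    · intro τ hτ i e h
      rcases h with ⟨rfl, h, _⟩ | h
      · exact htT h
      · exact not_pat_self hτ i e h
    · intro τ hτ hτT i j h
      have hjT := h.1
      by_cases hi : i = t
      · subst hi
        refine ⟨?_, hA τ hτ hτT j h⟩
        have := hcut j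
        simp only [ht, if_true, hTne j hjT, if_false]
        omega
      · have hiS : i ∈ S := by
          by_contra hiS
          have k1 := h.2.2.1
          have k2 := hmax j
          rw [hkT j hjT] at k1
          simp only [hkey', hi, hiS, if_false] at k1
          omega
        have hi' : i ∈ S.erase t := Finset.mem_erase.mpr ⟨hi, hiS⟩
        rw [hrel τ hτT i hi'] at h
        rw [hhT i hi, hhT j (hTne j hjT)]
        have k1 : cutHt pos a i ≤ cutHt pos a j := by
          have := hkey j i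
          have := h.2.2.1
          omega
        exact ⟨k1, Or.inr ((pat_iff_linRel hpos hkey hτ).mpr ⟨hi', h, by omega⟩)⟩
    · intro τ hτ hτT i j e h
      rcases h with ⟨rfl, k1, k2, k3⟩ | h
      · exact hB τ hτ hτT j e k1 k2 k3
      · obtain ⟨k1, k2, k3⟩ := (pat_iff_linRel hpos hkey hτ).mp h
        refine Or.inr ⟨(hrel τ hτT i k1 j).mpr k2, ?_⟩
        rw [hhT i (Finset.mem_erase.mp k1).1, hhT j (hTne j k2.1)]
        exact k3
    · rintro τ hτ hτT i j e ⟨rfl, k1, k2, k3⟩
      refine Or.inl ⟨rfl, k1, k2, fun b _ n _ l2 => hD n b ?_⟩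
      unfold Lt2 Le2 at *; omega
    · intro i j l e e' h h'
      have hjT : j ∈ T := h.elim (fun h => h.2.1) (fun h => h.2.1)
      exact absurd h'.1 (hTne j hjT)
    · rintro i j l e e' ⟨rfl, k1, k2, k3⟩ h'
      have h'' : Pat pos (S.erase i) T {a} j l e' := h'.resolve_left (fun h => hTne j k1 h.1)
      refine ⟨rfl, h''.2.1, lt2_trans k2 h''.2.2.1, ?_⟩
      by_contra hcon
      refine h''.2.2.2 a (Finset.mem_singleton_self a) ⟨n₀ - e, ?_, ?_⟩ <;>
        unfold Lt2 Le2 at * <;> omega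
  refine surj_add_color (a := a) (fun τ τ' h => MD_le ρ W h (fun _ _ _ h => h))
    (fun τ τ' h => MD_le ρ W h (fun _ _ _ h => h))
    (fun τ => MD_le ρ W subset_rfl (fun b _ n h => hlt_le n b h)) ha (Finset.notMem_empty a)
    ?_ ?_ ?_
  · refine (Surj.refl _ _ _ j).congr (fun _ _ _ => rfl) (fun τ _ hτ => ?_)
    refine MD_le ρ W subset_rfl (fun b hb n h => ?_)
    have : pos b ≠ pos a := fun e => (Finset.mem_erase.mp (hτ hb)).1 (hpos e)
    unfold Lt2 Le2 at *; omega
  · refine common (key a - M - 1) _ hlt_le ?_ ?_ (j + 1) (by omega)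
    · intro τ hτ hτT j h
      have hjT := h.1
      have c1 := hcut j
      have e1 : ht j - ht t = cutHt pos a j + n₀ := by simp [ht, hTne j hjT]
      rw [e1]
      refine Or.inl ⟨rfl, hjT, by unfold Lt2 Le2 at *; omega, fun b hb n k1 k2 => ?_⟩
      have k3 := h.2.2.2 b hb
      have hbT := hτT hb
      simp only [if_true, hTne b hbT, hTne j hjT, hTS hbT, hTS hjT, if_false] at k3
      have c2 := hcut b
      have c3 := hkey b j
      have c4 := hM b a
      unfold Lt2 Le2 at *
      omega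
    · intro τ hτ hτT j e hjT k2 k3
      by_cases hle : Le2 pos e j n₀ a
      · exact Or.inl ⟨rfl, hjT, k2, hle⟩
      have c1 := hcut j
      have c0 : ¬ Lt2 pos (n₀ + 1) a e j := fun h => by
        have := k3 a hτ (n₀ + 1) (Or.inl (by omega)) h
        unfold Le2 at this; omega
      have e1 : ht j - ht t = cutHt pos a j + n₀ := by simp [ht, hTne j hjT]
      have he : (e : ℤ) = cutHt pos a j + n₀ := by unfold Lt2 Le2 at *; omega
      refine Or.inr ⟨⟨hjT, (hTne j hjT).symm, ?_, fun b hb hcon => ?_⟩, by rw [e1, he]⟩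
      · have c4 := hM j a
        simp only [if_true, hTne j hjT, hTS hjT, if_false]
        omega
      · have hbT := hτT hb
        simp only [if_true, hTne b hbT, hTne j hjT, hTS hbT, hTS hjT, if_false] at hcon
        have c2 := hcut b
        have c3 := hkey b j
        have := k3 b hb (n₀ + (cutHt pos a b).toNat) (by unfold Lt2 Le2 at *; omega)
          (by unfold Lt2 Le2 at *; omega)
        unfold Le2 at this
        omega
  · refine common (key a + 1) _ (fun _ _ h => h) ?_ ?_ j (by omega)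
    · intro τ hτ hτT j h
      have hjT := h.1
      have k1 := h.2.2.1
      have k2 := hmax j
      simp only [if_true, hTne j hjT, hTS hjT, if_false] at k1
      omega
    · intro τ hτ hτT j e hjT k2 k3
      refine Or.inl ⟨rfl, hjT, k2, ?_⟩
      by_contra hle
      have := k3 a hτ n₀ hβ (by unfold Lt2 Le2 at *; omega)
      unfold Lt2 at this
      omega

theorem row_surj (hpos : Function.Injective pos) (h2 : (2 : F) ≠ 0) {R : ℕ}
    (hc : LinCones F ι R) {S T : Finset ι} (hTS : T ⊆ S) {t : ι} (htS : t ∈ S) (htT : t ∉ T)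
    {j : ℕ} (hj : j + 2 ≤ T.card)
    (ρ : Representation (ZMod 2) (SpecialLinearGroup ι (Rs F s)) V)
    (W : Submodule (ZMod 2) V) (hW : ∀ g ∈ HH F s pos S T ∅, ∀ v ∈ W, ρ g v ∈ W) :
    Surj T ∅ (fun τ => W ⊓ Fix ρ (HH F s pos S T τ))
      (fun τ => W ⊓ Fix ρ (HH F s pos {t} T ∅) ⊓ Fix ρ (HH F s pos (S.erase t) T τ)) j := by
  obtain ⟨M, hM⟩ := exists_pos_bound pos
  have hwt : ∀ n a n' a', wt pos M t a n < wt pos M t a' n' ↔ Lt2 pos n a n' a' := by
    intro n a n' a'
    unfold wt Lt2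
    have k1 := hM a a'
    have k2 := hM a' a
    rcases lt_trichotomy n n' with h | h | h
    · have : (n : ℤ) + 1 ≤ n' := by exact_mod_cast h
      constructor
      · intro _; exact Or.inl h
      · intro _; nlinarith [Int.natCast_nonneg M]
    · subst h
      constructor
      · intro h; exact Or.inr ⟨rfl, by omega⟩
      · intro h; omega
    · have : (n' : ℤ) + 1 ≤ n := by exact_mod_cast h
      constructor
      · intro h'; nlinarith [Int.natCast_nonneg M]
      · intro h'; omega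
  have hwt0 : wt pos M t t 0 = 0 := by simp [wt]
  have key : ∀ k : ℕ, Surj T ∅ (MD pos S T t ρ W (fun n b => wt pos M t b n < 0))
      (MD pos S T t ρ W (fun n b => wt pos M t b n < k)) j := by
    intro k
    induction k with
    | zero => simpa using Surj.refl T ∅ _ j
    | succ k ih =>
      refine ih.trans ?_ (fun τ => MD_le ρ W subset_rfl (fun b _ n h => by omega))
      by_cases hex : ∃ a ∈ T, ∃ n₀, wt pos M t a n₀ = k
      · obtain ⟨a, ha, n₀, hn₀⟩ := hex
        have hβ : Le2 pos 0 t n₀ a := by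
          have := hwt n₀ a 0 t
          unfold Lt2 Le2 at *
          omega
        have e1 : (fun n b => wt pos M t b n < k) = (fun n b => Lt2 pos n b n₀ a) := by
          funext n b; rw [← hwt, hn₀]
        have e2 : (fun n b => wt pos M t b n < ((k + 1 : ℕ) : ℤ)) =
            (fun n b => Le2 pos n b n₀ a) := by
          funext n b
          have := hwt n₀ a n b
          apply propext
          push_cast
          unfold Lt2 Le2 at *
          omega
        rw [e1, e2]
        exact row_step hpos h2 hc hTS htS htT hj ρ W hW ha hβ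
      · push Not at hex
        refine (Surj.refl _ _ _ j).congr (fun _ _ _ => rfl) (fun τ _ hτ => ?_)
        refine MD_le ρ W subset_rfl (fun b hb n h => ?_)
        have := hex b (hτ hb) n
        push_cast at h
        omega
  refine (key (s * (M + 1) + M)).congr (fun τ _ _ => ?_) (fun τ _ _ v hv => ?_)
  · unfold MD HH
    suffices h : Pat pos S T τ = PatD pos S T t (fun n b => wt pos M t b n < 0) τ by rw [h]
    funext i j e
    apply propext
    constructor
    · intro h
      by_cases hi : i = t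
      · subst hi
        exact Or.inl ⟨rfl, h.2.1, h.2.2.1, fun a ha n k1 k2 => absurd ⟨n, k1, k2⟩ (h.2.2.2 a ha)⟩
      · exact Or.inr ⟨Finset.mem_erase.mpr ⟨hi, h.1⟩, h.2⟩
    · rintro (⟨rfl, k1, k2, k3⟩ | h)
      · refine ⟨htS, k1, k2, fun a ha ⟨n, l1, l2⟩ => ?_⟩
        have := k3 a ha n l1 l2
        rw [← hwt0, hwt] at this
        unfold Lt2 Le2 at *
        omega
      · exact ⟨Finset.mem_of_mem_erase h.1, h.2⟩
  · refine ⟨⟨hv.1, Fix_anti ρ ?_ hv.2⟩, Fix_anti ρ ?_ hv.2⟩
    · refine grp_mono (fun i j => mono_le (fun e he h => ?_))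
      have hi : i = t := Finset.mem_singleton.mp h.1
      subst hi
      refine Or.inl ⟨rfl, h.2.1, h.2.2.1, fun a _ n _ k2 => ?_⟩
      rw [← hwt] at k2
      have h1 : (e : ℤ) ≤ s := by exact_mod_cast he.le
      have h3 := hM i j
      unfold wt at k2 ⊢
      push_cast
      nlinarith [Int.natCast_nonneg M]
    · exact grp_mono (fun i j => mono_le (fun e _ h => Or.inr h))

end Vale.Agent.P067
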