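import Mathlib

/-! Coefficient systems on the subsets of a finite colour set, in characteristic two. -/

set_option linter.unusedSectionVars false
set_option linter.unusedVariables false

namespace Vale.Agent.P067

open Finset

variable {ι : Type} [DecidableEq ι]

/-- Coboundary relative to `σ` (only colours outside `σ` are removed). -/
def dd {V : Type} [AddCommMonoid V] (σ : Finset ι) (x : Finset ι → V) (ρ : Finset ι) : V :=
  ∑ b ∈ ρ \ σ, x (ρ.erase b)

variable {V : Type} [AddCommGroup V] [Module (ZMod 2) V]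

/-- `x` is a cocycle at spot `j` (sets of cardinality `j` between `σ` and `I`). -/
def IsCocyc (I σ : Finset ι) (j : ℕ) (x : Finset ι → V) : Prop :=
  ∀ ρ, σ ⊆ ρ → ρ ⊆ I → ρ.card = j + 1 → dd σ x ρ = 0

/-- Every `M`-cocycle at spot `j` is `M`-cohomologous to an `M'`-cochain. -/
def Surj (I σ : Finset ι) (M M' : Finset ι → Submodule (ZMod 2) V) (j : ℕ) : Prop :=
  ∀ x : Finset ι → V, (∀ τ, σ ⊆ τ → τ ⊆ I → τ.card = j → x τ ∈ M τ) → IsCocyc I σ j x →
    ∃ y : Finset ι → V, (∀ τ, σ ⊆ τ → τ ⊆ I → τ.card + 1 = j → y τ ∈ M τ) ∧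
      ∀ τ, σ ⊆ τ → τ ⊆ I → τ.card = j → x τ + dd σ y τ ∈ M' τ

/-- Exactness at spot `j`. -/
def Exact (I σ : Finset ι) (M : Finset ι → Submodule (ZMod 2) V) (j : ℕ) : Prop :=
  Surj I σ M (fun _ => ⊥) j

theorem add_self_two (x : V) : x + x = 0 := by
  have h2 : (2 : ℕ) • x = 0 := ZModModule.char_nsmul_eq_zero 2 x
  rwa [two_smul] at h2

theorem eq_of_add_eq_zero_two {x y : V} (h : x + y = 0) : x = y := by
  have h1 : x + y + y = y := by rw [h, zero_add]
  rwa [add_assoc, add_self_two, add_zero] at h1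

theorem dd_add {W : Type} [AddCommMonoid W] (σ : Finset ι) (x y : Finset ι → W) (ρ : Finset ι) :
    dd σ (x + y) ρ = dd σ x ρ + dd σ y ρ := by
  simp [dd, Finset.sum_add_distrib]

theorem dd_congr {W : Type} [AddCommMonoid W] (σ : Finset ι) {x y : Finset ι → W} {ρ : Finset ι}
    (h : ∀ b ∈ ρ, b ∉ σ → x (ρ.erase b) = y (ρ.erase b)) : dd σ x ρ = dd σ y ρ := by
  unfold dd
  refine Finset.sum_congr rfl (fun b hb => ?_)
  rw [Finset.mem_sdiff] at hb
  exact h b hb.1 hb.2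

theorem dd_zero {W : Type} [AddCommMonoid W] (σ : Finset ι) (ρ : Finset ι) :
    dd σ (fun _ => (0 : W)) ρ = 0 := by
  simp [dd]

theorem dd_eq_zero {W : Type} [AddCommMonoid W] (σ : Finset ι) {x : Finset ι → W} {ρ : Finset ι}
    (h : ∀ b ∈ ρ, b ∉ σ → x (ρ.erase b) = 0) : dd σ x ρ = 0 := by
  rw [← dd_zero σ ρ]
  exact dd_congr σ h

theorem dd_map {W W' : Type} [AddCommMonoid W] [AddCommMonoid W'] (f : W →+ W') (σ : Finset ι)
    (x : Finset ι → W) (ρ : Finset ι) : f (dd σ x ρ) = dd σ (fun τ => f (x τ)) ρ := by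
  simp [dd, map_sum]

theorem dd_apply {α W : Type} [AddCommMonoid W] (σ : Finset ι) (x : Finset ι → α → W)
    (ρ : Finset ι) (g : α) : dd σ x ρ g = dd σ (fun τ => x τ g) ρ := by
  simp [dd, Finset.sum_apply]

/-- Splitting off the colour `a`. -/
theorem dd_split {W : Type} [AddCommMonoid W] {σ ρ : Finset ι} {a : ι} (ha : a ∈ ρ) (haσ : a ∉ σ)
    (x : Finset ι → W) : dd σ x ρ = x (ρ.erase a) + dd (insert a σ) x ρ := by
  unfold dd
  have h : ρ \ σ = insert a (ρ \ insert a σ) := by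
    ext b
    simp only [Finset.mem_sdiff, Finset.mem_insert]
    constructor
    · rintro ⟨h1, h2⟩
      by_cases hb : b = a
      · exact Or.inl hb
      · exact Or.inr ⟨h1, fun h => h.elim hb h2⟩
    · rintro (rfl | ⟨h1, h2⟩)
      · exact ⟨ha, haσ⟩
      · exact ⟨h1, fun h => h2 (Or.inr h)⟩
  rw [h, Finset.sum_insert (by simp)]

theorem dd_insert_erase {W : Type} [AddCommMonoid W] (σ ρ : Finset ι) (a : ι)
    (x : Finset ι → W) :
    dd (insert a σ) (fun τ => x (τ.erase a)) ρ = dd σ x (ρ.erase a) := by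
  unfold dd
  have h : ρ \ insert a σ = ρ.erase a \ σ := by
    ext b
    simp only [Finset.mem_sdiff, Finset.mem_insert, Finset.mem_erase]
    tauto
  rw [h]
  refine Finset.sum_congr rfl (fun b _ => ?_)
  rw [Finset.erase_right_comm]

theorem dd_insert_insert {W : Type} [AddCommMonoid W] (σ : Finset ι) {ρ : Finset ι} {a : ι}
    (ha : a ∉ ρ) (x : Finset ι → W) :
    dd (insert a σ) x (insert a ρ) = dd σ (fun τ => x (insert a τ)) ρ := by
  unfold dd
  have h : insert a ρ \ insert a σ = ρ \ σ := by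
    ext b
    simp only [Finset.mem_sdiff, Finset.mem_insert]
    constructor
    · rintro ⟨h1, h2⟩
      rcases h1 with h1 | h1
      · exact absurd (Or.inl h1) h2
      · exact ⟨h1, fun h => h2 (Or.inr h)⟩
    · rintro ⟨h1, h2⟩
      exact ⟨Or.inr h1, fun h => h.elim (fun h => ha (h ▸ h1)) h2⟩
  rw [h]
  refine Finset.sum_congr rfl (fun b hb => ?_)
  have hb' : b ≠ a := fun h => ha (h ▸ (Finset.mem_sdiff.mp hb).1)
  rw [Finset.erase_insert_of_ne hb'.symm]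

theorem dd_dd (σ : Finset ι) (y : Finset ι → V) (ρ : Finset ι) : dd σ (dd σ y) ρ = 0 := by
  unfold dd
  have h : ∀ b ∈ ρ \ σ, ∑ c ∈ ρ.erase b \ σ, y ((ρ.erase b).erase c) =
      ∑ c ∈ (ρ \ σ).filter (fun c => b ≠ c), y ((ρ.erase b).erase c) := by
    intro b _
    congr 1
    ext c
    simp only [Finset.mem_sdiff, Finset.mem_erase, Finset.mem_filter]
    constructor
    · rintro ⟨⟨h1, h2⟩, h3⟩; exact ⟨⟨h2, h3⟩, fun h => h1 h.symm⟩
    · rintro ⟨⟨h1, h2⟩, h3⟩; exact ⟨⟨fun h => h3 h.symm, h1⟩, h2⟩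
  rw [Finset.sum_congr rfl h, Finset.sum_sigma']
  refine Finset.sum_involution (fun p _ => ⟨p.2, p.1⟩) ?_ ?_ ?_ ?_
  · intro p _
    simp only
    rw [Finset.erase_right_comm]
    exact add_self_two _
  · intro p hp _ h
    simp only [Finset.mem_sigma, Finset.mem_filter] at hp
    exact hp.2.2 (congrArg Sigma.fst h).symm
  · intro p hp
    simp only [Finset.mem_sigma, Finset.mem_filter] at hp ⊢
    exact ⟨hp.2.1, hp.1, fun h => hp.2.2 h.symm⟩
  · intro p _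
    rfl

theorem erase_mem_range {I σ τ : Finset ι} {b : ι} (h1 : σ ⊆ τ) (h2 : τ ⊆ I) (hb : b ∈ τ)
    (hbσ : b ∉ σ) : σ ⊆ τ.erase b ∧ τ.erase b ⊆ I ∧ (τ.erase b).card + 1 = τ.card :=
  ⟨fun c hc => Finset.mem_erase.mpr ⟨fun h => hbσ (h ▸ hc), h1 hc⟩,
    (Finset.erase_subset _ _).trans h2, Finset.card_erase_add_one hb⟩

theorem dd_mem {I σ : Finset ι} {M : Finset ι → Submodule (ZMod 2) V} (hM : Monotone M) {j : ℕ}
    {y : Finset ι → V} (hy : ∀ τ, σ ⊆ τ → τ ⊆ I → τ.card + 1 = j → y τ ∈ M τ) :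
    ∀ τ, σ ⊆ τ → τ ⊆ I → τ.card = j → dd σ y τ ∈ M τ := by
  intro τ h1 h2 h3
  refine Submodule.sum_mem _ (fun b hb => ?_)
  rw [Finset.mem_sdiff] at hb
  obtain ⟨k1, k2, k3⟩ := erase_mem_range h1 h2 hb.1 hb.2
  exact hM (Finset.erase_subset b τ) (hy _ k1 k2 (k3.trans h3))

theorem IsCocyc.add_dd {I σ : Finset ι} {j : ℕ} {x : Finset ι → V} (hx : IsCocyc I σ j x)
    (y : Finset ι → V) : IsCocyc I σ j (x + dd σ y) := by
  intro ρ h1 h2 h3
  rw [dd_add, hx ρ h1 h2 h3, dd_dd, add_zero]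

theorem IsCocyc.congr {I σ : Finset ι} {j : ℕ} {x y : Finset ι → V} (hx : IsCocyc I σ j x)
    (h : ∀ τ, σ ⊆ τ → τ ⊆ I → τ.card = j → y τ = x τ) : IsCocyc I σ j y := by
  intro ρ h1 h2 h3
  rw [← hx ρ h1 h2 h3]
  refine dd_congr σ (fun b hb hbσ => ?_)
  obtain ⟨k1, k2, k3⟩ := erase_mem_range h1 h2 hb hbσ
  exact h _ k1 k2 (by omega)

theorem Surj.congr {I σ : Finset ι} {M₁ M₁' M₂ M₂' : Finset ι → Submodule (ZMod 2) V} {j : ℕ}
    (h : Surj I σ M₁ M₁' j) (h1 : ∀ τ, σ ⊆ τ → τ ⊆ I → M₂ τ = M₁ τ)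
    (h2 : ∀ τ, σ ⊆ τ → τ ⊆ I → M₁' τ ≤ M₂' τ) : Surj I σ M₂ M₂' j := by
  intro x hx hc
  obtain ⟨y, hy1, hy2⟩ := h x (fun τ a b c => h1 τ a b ▸ hx τ a b c) hc
  exact ⟨y, fun τ a b c => (h1 τ a b).symm ▸ hy1 τ a b c, fun τ a b c => h2 τ a b (hy2 τ a b c)⟩

theorem Exact.congr {I σ : Finset ι} {M₁ M₂ : Finset ι → Submodule (ZMod 2) V} {j : ℕ}
    (h : Exact I σ M₁ j) (h1 : ∀ τ, σ ⊆ τ → τ ⊆ I → M₂ τ = M₁ τ) : Exact I σ M₂ j :=
  Surj.congr h h1 (fun _ _ _ => le_rfl)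

theorem Exact.elim {I σ : Finset ι} {M : Finset ι → Submodule (ZMod 2) V} {j : ℕ}
    (h : Exact I σ M j) (x : Finset ι → V) (hx : ∀ τ, σ ⊆ τ → τ ⊆ I → τ.card = j → x τ ∈ M τ)
    (hc : IsCocyc I σ j x) :
    ∃ y : Finset ι → V, (∀ τ, σ ⊆ τ → τ ⊆ I → τ.card + 1 = j → y τ ∈ M τ) ∧
      ∀ τ, σ ⊆ τ → τ ⊆ I → τ.card = j → x τ = dd σ y τ := by
  obtain ⟨y, hy1, hy2⟩ := h x hx hc
  exact ⟨y, hy1, fun τ a b c => eq_of_add_eq_zero_two ((Submodule.mem_bot _).mp (hy2 τ a b c))⟩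

theorem Exact.intro {I σ : Finset ι} {M : Finset ι → Submodule (ZMod 2) V} {j : ℕ}
    (h : ∀ x : Finset ι → V, (∀ τ, σ ⊆ τ → τ ⊆ I → τ.card = j → x τ ∈ M τ) → IsCocyc I σ j x →
      ∃ y : Finset ι → V, (∀ τ, σ ⊆ τ → τ ⊆ I → τ.card + 1 = j → y τ ∈ M τ) ∧
      ∀ τ, σ ⊆ τ → τ ⊆ I → τ.card = j → x τ = dd σ y τ) : Exact I σ M j := by
  intro x hx hc
  obtain ⟨y, hy1, hy2⟩ := h x hx hc
  refine ⟨y, hy1, fun τ a b c => ?_⟩
  rw [hy2 τ a b c, add_self_two]
  exact Submodule.zero_mem _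

theorem Surj.refl (I σ : Finset ι) (M : Finset ι → Submodule (ZMod 2) V) (j : ℕ) :
    Surj I σ M M j := by
  intro x hx _
  refine ⟨fun _ => 0, fun τ _ _ _ => Submodule.zero_mem _, fun τ a b c => ?_⟩
  rw [dd_zero, add_zero]
  exact hx τ a b c

theorem Surj.trans {I σ : Finset ι} {M M' M'' : Finset ι → Submodule (ZMod 2) V} {j : ℕ}
    (h : Surj I σ M M' j) (h' : Surj I σ M' M'' j) (hle : ∀ τ, M' τ ≤ M τ) :
    Surj I σ M M'' j := by
  intro x hx hc
  obtain ⟨y, hy1, hy2⟩ := h x hx hc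
  obtain ⟨z, hz1, hz2⟩ := h' (x + dd σ y) hy2 (hc.add_dd y)
  refine ⟨y + z, fun τ a b c => Submodule.add_mem _ (hy1 τ a b c) (hle τ (hz1 τ a b c)),
    fun τ a b c => ?_⟩
  rw [dd_add, ← add_assoc]
  exact hz2 τ a b c

/-- Adding one colour `a`. -/
theorem surj_add_color {I σ : Finset ι} {M M' : Finset ι → Submodule (ZMod 2) V} {j : ℕ} {a : ι}
    (hM : Monotone M) (hM' : Monotone M') (hle : ∀ τ, M' τ ≤ M τ) (haI : a ∈ I) (haσ : a ∉ σ)
    (hD : Surj (I.erase a) σ M M' j) (hL' : Exact I (insert a σ) M' (j + 1))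
    (hL : Exact I (insert a σ) M j) : Surj I σ M M' j := by
  intro x hx hc
  have hsub : ∀ τ : Finset ι, τ ⊆ I → a ∉ τ → τ ⊆ I.erase a := fun τ h ha c hc' =>
    Finset.mem_erase.mpr ⟨fun h' => ha (h' ▸ hc'), h hc'⟩
  have hins : ∀ τ : Finset ι, σ ⊆ τ → a ∈ τ → insert a σ ⊆ τ := fun τ h ha =>
    Finset.insert_subset ha h
  obtain ⟨yD, hyD1, hyD2⟩ := hD x (fun τ h1 h2 h3 => hx τ h1 (h2.trans (Finset.erase_subset _ _)) h3)
    (fun ρ h1 h2 h3 => hc ρ h1 (h2.trans (Finset.erase_subset _ _)) h3)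
  set y0 : Finset ι → V := fun τ => if a ∈ τ then 0 else yD τ with hy0
  have hy0M : ∀ τ, σ ⊆ τ → τ ⊆ I → τ.card + 1 = j → y0 τ ∈ M τ := by
    intro τ h1 h2 h3
    by_cases ha : a ∈ τ
    · simp [hy0, ha]
    · simpa [hy0, ha] using hyD1 τ h1 (hsub τ h2 ha) h3
  set x1 : Finset ι → V := x + dd σ y0 with hx1
  have hx1M : ∀ τ, σ ⊆ τ → τ ⊆ I → τ.card = j → x1 τ ∈ M τ := fun τ h1 h2 h3 =>
    Submodule.add_mem _ (hx τ h1 h2 h3) (dd_mem hM hy0M τ h1 h2 h3)
  have hx1c : IsCocyc I σ j x1 := hc.add_dd y0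
  have hx1M' : ∀ τ, σ ⊆ τ → τ ⊆ I → τ.card = j → a ∉ τ → x1 τ ∈ M' τ := by
    intro τ h1 h2 h3 ha
    have : dd σ y0 τ = dd σ yD τ := dd_congr σ (fun b _ _ => by
      have : a ∉ τ.erase b := fun h => ha (Finset.mem_of_mem_erase h)
      simp [hy0, this])
    simp only [hx1, Pi.add_apply, this]
    exact hyD2 τ h1 (hsub τ h2 ha) h3
  obtain ⟨u, hu1, hu2⟩ := hL'.elim (fun ρ => x1 (ρ.erase a))
    (fun ρ h1 h2 h3 => by
      have ha : a ∈ ρ := h1 (Finset.mem_insert_self _ _)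
      obtain ⟨k1, k2, k3⟩ := erase_mem_range ((Finset.subset_insert _ _).trans h1) h2 ha haσ
      exact hM' (Finset.erase_subset a ρ) (hx1M' _ k1 k2 (by omega) (Finset.notMem_erase _ _)))
    (fun ρ h1 h2 h3 => by
      have ha : a ∈ ρ := h1 (Finset.mem_insert_self _ _)
      obtain ⟨k1, k2, k3⟩ := erase_mem_range ((Finset.subset_insert _ _).trans h1) h2 ha haσ
      rw [dd_insert_erase]
      exact hx1c _ k1 k2 (by omega))
  obtain ⟨y2, hy21, hy22⟩ := hL.elim (x1 + u)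
    (fun τ h1 h2 h3 => Submodule.add_mem _
      (hx1M τ ((Finset.subset_insert _ _).trans h1) h2 h3) (hle τ (hu1 τ h1 h2 (by omega))))
    (fun ρ h1 h2 h3 => by
      have ha : a ∈ ρ := h1 (Finset.mem_insert_self _ _)
      rw [dd_add, ← hu2 ρ h1 h2 h3, add_comm, ← dd_split ha haσ]
      exact hx1c ρ ((Finset.subset_insert _ _).trans h1) h2 h3)
  set y3 : Finset ι → V := fun τ => if a ∈ τ then y2 τ else 0 with hy3
  refine ⟨y0 + y3, fun τ h1 h2 h3 => Submodule.add_mem _ (hy0M τ h1 h2 h3) ?_, fun τ h1 h2 h3 => ?_⟩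
  · by_cases ha : a ∈ τ
    · simpa [hy3, ha] using hy21 τ (hins τ h1 ha) h2 h3
    · simp [hy3, ha]
  · rw [dd_add, ← add_assoc]
    change x1 τ + dd σ y3 τ ∈ M' τ
    by_cases ha : a ∈ τ
    · have e1 : dd σ y3 τ = dd (insert a σ) y2 τ := by
        rw [dd_split ha haσ]
        have : y3 (τ.erase a) = 0 := by simp [hy3]
        rw [this, zero_add]
        refine dd_congr _ (fun b _ hb => ?_)
        have : a ∈ τ.erase b := Finset.mem_erase.mpr ⟨fun h => hb (h ▸ Finset.mem_insert_self _ _), ha⟩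
        simp [hy3, this]
      rw [e1, ← hy22 τ (hins τ h1 ha) h2 h3, Pi.add_apply, ← add_assoc, add_self_two, zero_add]
      exact hu1 τ (hins τ h1 ha) h2 (by omega)
    · have e1 : dd σ y3 τ = 0 := by
        rw [← dd_zero σ τ]
        refine dd_congr _ (fun b _ _ => ?_)
        have : a ∉ τ.erase b := fun h => ha (Finset.mem_of_mem_erase h)
        simp [hy3, this]
      rw [e1, add_zero]
      exact hx1M' τ h1 h2 h3 ha

/-- The cone formula for a cocycle. -/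
theorem cone_formula {I σ : Finset ι} {u : ι} (huI : u ∈ I) (huσ : u ∉ σ) {j : ℕ}
    {x : Finset ι → V} (hc : IsCocyc I σ j x) (τ : Finset ι) (h1 : σ ⊆ τ) (h2 : τ ⊆ I)
    (h3 : τ.card = j) : x τ = dd σ (fun π => if u ∈ π then 0 else x (insert u π)) τ := by
  by_cases hu : u ∈ τ
  · rw [dd_split hu huσ]
    have e1 : dd (insert u σ) (fun π => if u ∈ π then 0 else x (insert u π)) τ = 0 := by
      refine dd_eq_zero _ (fun b _ hb => ?_)
      have : u ∈ τ.erase b := Finset.mem_erase.mpr ⟨fun h => hb (h ▸ Finset.mem_insert_self _ _), hu⟩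
      simp [this]
    rw [e1, add_zero]
    simp [Finset.insert_erase hu]
  · have h := hc (insert u τ) (h1.trans (Finset.subset_insert _ _)) (Finset.insert_subset huI h2)
      (by rw [Finset.card_insert_of_notMem hu, h3])
    rw [dd_split (Finset.mem_insert_self u τ) huσ, Finset.erase_insert hu, dd_insert_insert σ hu] at h
    rw [eq_of_add_eq_zero_two h]
    refine dd_congr _ (fun b _ _ => ?_)
    have : u ∉ τ.erase b := fun h => hu (Finset.mem_of_mem_erase h)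
    simp [this]

/-- A colour that does not change the system makes it a cone. -/
theorem exact_cone {I σ : Finset ι} {M : Finset ι → Submodule (ZMod 2) V} {u : ι}
    (huI : u ∈ I) (huσ : u ∉ σ) (h : ∀ τ, σ ⊆ τ → τ ⊆ I → M (insert u τ) ≤ M τ) (j : ℕ) :
    Exact I σ M j := by
  refine Exact.intro (fun x hx hc => ⟨fun π => if u ∈ π then 0 else x (insert u π), ?_,
    cone_formula huI huσ hc⟩)
  intro τ h1 h2 h3
  by_cases hu : u ∈ τ
  · simp [hu]
  · simp only [hu, if_false]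
    exact h τ h1 h2 (hx _ (h1.trans (Finset.subset_insert _ _)) (Finset.insert_subset huI h2)
      (by rw [Finset.card_insert_of_notMem hu, h3]))

/-- Redundant colours can be added. -/
theorem surj_add_redundant {I T : Finset ι} {M M' : Finset ι → Submodule (ZMod 2) V} {j : ℕ}
    (hM : Monotone M) (hM' : Monotone M') (hle : ∀ τ, M' τ ≤ M τ) (hTI : T ⊆ I)
    (hred : ∀ b ∈ I, b ∉ T → ∃ u ∈ T, ∀ τ, b ∈ τ →
      M (insert u τ) ≤ M τ ∧ M' (insert u τ) ≤ M' τ)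
    (h : Surj T ∅ M M' j) : Surj I ∅ M M' j := by
  have key : ∀ U : Finset ι, U ⊆ I \ T → Surj (T ∪ U) ∅ M M' j := by
    intro U
    induction U using Finset.induction_on with
    | empty => intro _; simpa using h
    | insert b U hbU ih =>
      intro hU
      have hb := Finset.mem_sdiff.mp (hU (Finset.mem_insert_self b U))
      obtain ⟨u, huT, hu⟩ := hred b hb.1 hb.2
      have hub : u ∉ insert b (∅ : Finset ι) := by
        simp only [Finset.mem_insert, Finset.notMem_empty, or_false]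
        exact fun h => hb.2 (h ▸ huT)
      have huI : u ∈ T ∪ insert b U := Finset.mem_union_left _ huT
      have he : (T ∪ insert b U).erase b = T ∪ U := by
        ext c
        simp only [Finset.mem_erase, Finset.mem_union, Finset.mem_insert]
        constructor
        · rintro ⟨h1, h2 | h2 | h2⟩
          · exact Or.inl h2
          · exact absurd h2 h1
          · exact Or.inr h2
        · rintro (h1 | h1)
          · exact ⟨fun h => hb.2 (h ▸ h1), Or.inl h1⟩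
          · exact ⟨fun h => hbU (h ▸ h1), Or.inr (Or.inr h1)⟩
      refine surj_add_color (a := b) hM hM' hle
        (Finset.mem_union_right _ (Finset.mem_insert_self _ _)) (Finset.notMem_empty _) ?_ ?_ ?_
      · rw [he]
        exact ih ((Finset.subset_insert _ _).trans hU)
      · exact exact_cone huI hub (fun τ h1 _ => (hu τ (h1 (Finset.mem_insert_self _ _))).2) _
      · exact exact_cone huI hub (fun τ h1 _ => (hu τ (h1 (Finset.mem_insert_self _ _))).1) _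
  have := key (I \ T) subset_rfl
  rwa [Finset.union_sdiff_of_subset hTI] at this

theorem exact_of_lt_card {I σ : Finset ι} (M : Finset ι → Submodule (ZMod 2) V) {j : ℕ}
    (h : j < σ.card) : Exact I σ M j := by
  intro x _ _
  refine ⟨fun _ => 0, fun τ _ _ _ => Submodule.zero_mem _, fun τ h1 _ h3 => ?_⟩
  have := Finset.card_le_card h1
  omega

theorem exact_zero {I : Finset ι} (hI : I.Nonempty) (M : Finset ι → Submodule (ZMod 2) V) :
    Exact I ∅ M 0 := by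
  refine Exact.intro (fun x _ hc => ⟨fun _ => 0, fun τ _ _ _ => Submodule.zero_mem _, ?_⟩)
  intro τ _ _ h3
  obtain ⟨a, ha⟩ := hI
  have h := hc {a} (Finset.empty_subset _) (by simpa using ha) (by simp)
  rw [Finset.card_eq_zero.mp h3, dd_zero]
  simpa [dd] using h

/-- Exactness of a join-like system, from compatible retractions. -/
theorem exact_join {I : Finset ι} {M : Finset ι → Submodule (ZMod 2) V} (hM : Monotone M)
    (r : Finset ι → V →+ V) (N : ℕ)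
    (h1 : ∀ ρ a v, v ∈ M (insert a ρ) → r ρ v ∈ M ρ)
    (h2 : ∀ ρ v, v ∈ M ρ → r ρ v = v)
    (h3 : ∀ ρ a b v, ρ ⊆ I → a ∈ I → a ∉ ρ → b ∈ ρ → ρ.card ≤ N →
      v ∈ M (insert a (ρ.erase b)) → r ρ v = r (ρ.erase b) v)
    (σ : Finset ι) (hσ : σ ⊆ I) (c : ℕ) (hc : c ≤ N) (hcI : c + 1 ≤ I.card) : Exact I σ M c := by
  have key : ∀ k : ℕ, ∀ σ : Finset ι, σ ⊆ I → c < σ.card + k → Exact I σ M c := by
    intro k
    induction k with
    | zero => intro σ _ h; exact exact_of_lt_card M (by simpa using h)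
    | succ k ih =>
      intro σ hσ hk
      by_cases hlt : c < σ.card
      · exact exact_of_lt_card M hlt
      have hex : ∃ a ∈ I, a ∉ σ := by
        by_contra hne
        push Not at hne
        have := Finset.card_le_card (show I ⊆ σ from hne)
        omega
      obtain ⟨a, haI, haσ⟩ := hex
      have hL : Exact I (insert a σ) M c := ih _ (Finset.insert_subset haI hσ)
        (by rw [Finset.card_insert_of_notMem haσ]; omega)
      refine Exact.intro (fun x hx hcx => ?_)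
      set y0 : Finset ι → V := fun π => if a ∈ π then 0 else r π (x (insert a π)) with hy0
      have hy0M : ∀ τ, σ ⊆ τ → τ ⊆ I → τ.card + 1 = c → y0 τ ∈ M τ := by
        intro τ k1 k2 k3
        by_cases ha : a ∈ τ
        · simp [hy0, ha]
        · simp only [hy0, ha, if_false]
          exact h1 τ a _ (hx _ (k1.trans (Finset.subset_insert _ _)) (Finset.insert_subset haI k2)
            (by rw [Finset.card_insert_of_notMem ha, k3]))
      have hD : ∀ τ, σ ⊆ τ → τ ⊆ I → τ.card = c → a ∉ τ → x τ = dd σ y0 τ := by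
        intro τ k1 k2 k3 ha
        have e := cone_formula haI haσ hcx τ k1 k2 k3
        rw [← h2 τ _ (hx τ k1 k2 k3), e, dd_map]
        refine dd_congr _ (fun b hb hbσ => ?_)
        have ha' : a ∉ τ.erase b := fun h => ha (Finset.mem_of_mem_erase h)
        obtain ⟨l1, l2, l3⟩ := erase_mem_range k1 k2 hb hbσ
        simp only [hy0, ha', if_false]
        exact h3 τ a b _ k2 haI ha hb (by omega)
          (hx _ (l1.trans (Finset.subset_insert _ _)) (Finset.insert_subset haI l2)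
            (by rw [Finset.card_insert_of_notMem ha']; omega))
      have hx1c : IsCocyc I σ c (x + dd σ y0) := hcx.add_dd y0
      obtain ⟨y2, hy21, hy22⟩ := hL.elim (x + dd σ y0)
        (fun τ k1 k2 k3 => Submodule.add_mem _ (hx τ ((Finset.subset_insert _ _).trans k1) k2 k3)
          (dd_mem hM hy0M τ ((Finset.subset_insert _ _).trans k1) k2 k3))
        (fun ρ k1 k2 k3 => by
          have ha : a ∈ ρ := k1 (Finset.mem_insert_self _ _)
          have e := hx1c ρ ((Finset.subset_insert _ _).trans k1) k2 k3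
          rw [dd_split ha haσ] at e
          obtain ⟨l1, l2, l3⟩ := erase_mem_range ((Finset.subset_insert _ _).trans k1) k2 ha haσ
          have e0 : (x + dd σ y0) (ρ.erase a) = 0 := by
            rw [Pi.add_apply, ← hD _ l1 l2 (by omega) (Finset.notMem_erase _ _), add_self_two]
          rwa [e0, zero_add] at e)
      set y3 : Finset ι → V := fun τ => if a ∈ τ then y2 τ else 0 with hy3
      refine ⟨y0 + y3, fun τ k1 k2 k3 => Submodule.add_mem _ (hy0M τ k1 k2 k3) ?_,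
        fun τ k1 k2 k3 => ?_⟩
      · by_cases ha : a ∈ τ
        · simpa [hy3, ha] using hy21 τ (Finset.insert_subset ha k1) k2 k3
        · simp [hy3, ha]
      · rw [dd_add]
        by_cases ha : a ∈ τ
        · have e1 : dd σ y3 τ = dd (insert a σ) y2 τ := by
            rw [dd_split ha haσ]
            have : y3 (τ.erase a) = 0 := by simp [hy3]
            rw [this, zero_add]
            refine dd_congr _ (fun b _ hb => ?_)
            have : a ∈ τ.erase b :=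
              Finset.mem_erase.mpr ⟨fun h => hb (h ▸ Finset.mem_insert_self _ _), ha⟩
            simp [hy3, this]
          rw [e1, ← hy22 τ (Finset.insert_subset ha k1) k2 k3, Pi.add_apply, add_comm (x τ),
            ← add_assoc, add_self_two, zero_add]
        · have e1 : dd σ y3 τ = 0 := by
            rw [← dd_zero σ τ]
            refine dd_congr _ (fun b _ _ => ?_)
            have : a ∉ τ.erase b := fun h => ha (Finset.mem_of_mem_erase h)
            simp [hy3, this]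
          rw [e1, add_zero]
          exact hD τ k1 k2 k3 ha
  exact key (c + 1) σ hσ (by omega)

theorem dd_comm {W : Type} [AddCommMonoid W] (z : Finset ι → Finset ι → W) (τ ρ : Finset ι) :
    dd ∅ (fun τ' => dd ∅ (z τ') ρ) τ = dd ∅ (fun ρ' => dd ∅ (fun τ' => z τ' ρ') τ) ρ := by
  unfold dd
  exact Finset.sum_comm

/-- The double complex lemma. -/
theorem double_complex {I J : Finset ι} (M : Finset ι → Finset ι → Submodule (ZMod 2) V)
    (hM1 : ∀ ρ, Monotone (fun τ => M τ ρ)) (hM2 : ∀ τ, Monotone (M τ)) (hJ : J.Nonempty) (j : ℕ)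
    (hrow : ∀ τ r, τ ⊆ I → 1 ≤ r → τ.card + r = j → Exact J ∅ (M τ) r)
    (hcol : ∀ ρ p, ρ ⊆ J → 2 ≤ ρ.card → ρ.card + p = j + 1 → Exact I ∅ (fun τ => M τ ρ) p)
    (x : Finset ι → V) (hx : ∀ τ, τ ⊆ I → τ.card = j → x τ ∈ M τ ∅)
    (hb : ∀ t ∈ J, ∃ y : Finset ι → V, (∀ τ, τ ⊆ I → τ.card + 1 = j → y τ ∈ M τ {t}) ∧
      ∀ τ, τ ⊆ I → τ.card = j → x τ = dd ∅ y τ) :
    ∃ y : Finset ι → V, (∀ τ, τ ⊆ I → τ.card + 1 = j → y τ ∈ M τ ∅) ∧
      ∀ τ, τ ⊆ I → τ.card = j → x τ = dd ∅ y τ := by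
  classical
  -- the zig-zag
  have Q : ∀ p r : ℕ, p + r = j + 1 → 1 ≤ r → ∀ z y : Finset ι → Finset ι → V,
      (∀ τ ρ, τ ⊆ I → ρ ⊆ J → τ.card = p → ρ.card = r + 1 → dd ∅ (z τ) ρ = 0) →
      (∀ τ ρ, τ ⊆ I → ρ ⊆ J → τ.card + 1 = p → ρ.card = r → y τ ρ ∈ M τ ρ) →
      (∀ τ ρ, τ ⊆ I → ρ ⊆ J → τ.card = p → ρ.card = r → z τ ρ = dd ∅ (fun τ' => y τ' ρ) τ) →
      ∃ u : Finset ι → Finset ι → V,
        (∀ τ ρ, τ ⊆ I → ρ ⊆ J → τ.card + 1 = p → ρ.card = r → u τ ρ ∈ M τ ρ) ∧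
        (∀ τ ρ, τ ⊆ I → ρ ⊆ J → τ.card + 1 = p → ρ.card = r + 1 → dd ∅ (u τ) ρ = 0) ∧
        (∀ τ ρ, τ ⊆ I → ρ ⊆ J → τ.card = p → ρ.card = r →
          z τ ρ = dd ∅ (fun τ' => u τ' ρ) τ) := by
    intro p
    induction p with
    | zero =>
      intro r _ _ z y _ hy hzy
      exact ⟨y, hy, fun τ ρ _ _ h _ => by omega, hzy⟩
    | succ p ih =>
      intro r hpr hr z y hz hy hzy
      -- the horizontal coboundary of `y`
      set z' : Finset ι → Finset ι → V := fun τ ρ => dd ∅ (y τ) ρ with hz'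
      have hz'M : ∀ τ ρ, τ ⊆ I → ρ ⊆ J → τ.card = p → ρ.card = r + 1 → z' τ ρ ∈ M τ ρ := by
        intro τ ρ k1 k2 k3 k4
        exact dd_mem (I := J) (σ := ∅) (hM2 τ) (j := r + 1)
          (fun π _ l2 l3 => hy τ π k1 l2 (by omega) (by omega)) ρ (Finset.empty_subset _) k2 k4
      have hz'c : ∀ ρ, ρ ⊆ J → ρ.card = r + 1 → IsCocyc I ∅ p (fun τ => z' τ ρ) := by
        intro ρ k2 k4 τ _ k1 k3
        simp only [hz']
        rw [dd_comm, ← hz τ ρ k1 k2 k3 k4]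
        refine dd_congr _ (fun b hb _ => ?_)
        obtain ⟨_, l2, l3⟩ := erase_mem_range (Finset.empty_subset ρ) k2 hb (Finset.notMem_empty _)
        exact (hzy τ _ k1 l2 k3 (by omega)).symm
      have hw : ∀ ρ, ∃ w : Finset ι → V, ρ ⊆ J → ρ.card = r + 1 →
          (∀ τ, τ ⊆ I → τ.card + 1 = p → w τ ∈ M τ ρ) ∧
          ∀ τ, τ ⊆ I → τ.card = p → z' τ ρ = dd ∅ w τ := by
        intro ρ
        by_cases hρ : ρ ⊆ J ∧ ρ.card = r + 1
        · obtain ⟨w, hw1, hw2⟩ := (hcol ρ p hρ.1 (by omega) (by omega)).elim (fun τ => z' τ ρ)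
            (fun τ _ k1 k3 => hz'M τ ρ k1 hρ.1 k3 hρ.2) (hz'c ρ hρ.1 hρ.2)
          exact ⟨w, fun _ _ => ⟨fun τ k1 k3 => hw1 τ (Finset.empty_subset _) k1 k3,
            fun τ k1 k3 => hw2 τ (Finset.empty_subset _) k1 k3⟩⟩
        · exact ⟨fun _ => 0, fun h1 h2 => absurd ⟨h1, h2⟩ hρ⟩
      choose w hw using hw
      obtain ⟨u', hu'1, hu'2, hu'3⟩ := ih (r + 1) (by omega) (by omega) z' (fun τ ρ => w ρ τ)
        (fun τ ρ _ _ _ _ => dd_dd ∅ (y τ) ρ)
        (fun τ ρ k1 k2 k3 k4 => (hw ρ k2 k4).1 τ k1 k3)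
        (fun τ ρ k1 k2 k3 k4 => (hw ρ k2 k4).2 τ k1 k3)
      have hv : ∀ τ, ∃ v : Finset ι → V, τ ⊆ I → τ.card + 1 = p →
          (∀ ρ, ρ ⊆ J → ρ.card = r → v ρ ∈ M τ ρ) ∧
          ∀ ρ, ρ ⊆ J → ρ.card = r + 1 → u' τ ρ = dd ∅ v ρ := by
        intro τ
        by_cases hτ : τ ⊆ I ∧ τ.card + 1 = p
        · obtain ⟨v, hv1, hv2⟩ := (hrow τ (r + 1) hτ.1 (by omega) (by omega)).elim (u' τ)
            (fun ρ _ k2 k4 => hu'1 τ ρ hτ.1 k2 hτ.2 k4)
            (fun ρ _ k2 k4 => hu'2 τ ρ hτ.1 k2 hτ.2 k4)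
          exact ⟨v, fun _ _ => ⟨fun ρ k2 k4 => hv1 ρ (Finset.empty_subset _) k2 (by omega),
            fun ρ k2 k4 => hv2 ρ (Finset.empty_subset _) k2 k4⟩⟩
        · exact ⟨fun _ => 0, fun h1 h2 => absurd ⟨h1, h2⟩ hτ⟩
      choose v hv using hv
      refine ⟨fun τ ρ => y τ ρ + dd ∅ (fun τ' => v τ' ρ) τ, ?_, ?_, ?_⟩
      · intro τ ρ k1 k2 k3 k4
        refine Submodule.add_mem _ (hy τ ρ k1 k2 k3 k4) ?_
        exact dd_mem (I := I) (σ := ∅) (hM1 ρ) (j := p)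
          (fun π _ l1 l3 => (hv π l1 l3).1 ρ k2 k4) τ (Finset.empty_subset _) k1 (by omega)
      · intro τ ρ k1 k2 k3 k4
        have e : dd ∅ (fun ρ' => y τ ρ' + dd ∅ (fun τ' => v τ' ρ') τ) ρ =
            dd ∅ (y τ) ρ + dd ∅ (fun ρ' => dd ∅ (fun τ' => v τ' ρ') τ) ρ :=
          dd_add ∅ (y τ) (fun ρ' => dd ∅ (fun τ' => v τ' ρ') τ) ρ
        rw [e, ← dd_comm]
        have e2 : dd ∅ (fun τ' => dd ∅ (v τ') ρ) τ = z' τ ρ := by
          rw [hu'3 τ ρ k1 k2 (by omega) k4]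
          refine dd_congr _ (fun b hb _ => ?_)
          obtain ⟨_, l2, l3⟩ :=
            erase_mem_range (Finset.empty_subset τ) k1 hb (Finset.notMem_empty _)
          exact ((hv _ l2 (by omega)).2 ρ k2 k4).symm
        rw [e2]
        exact add_self_two _
      · intro τ ρ k1 k2 k3 k4
        have e : dd ∅ (fun τ' => y τ' ρ + dd ∅ (fun τ'' => v τ'' ρ) τ') τ =
            dd ∅ (fun τ' => y τ' ρ) τ + dd ∅ (dd ∅ (fun τ'' => v τ'' ρ)) τ :=
          dd_add ∅ (fun τ' => y τ' ρ) (dd ∅ (fun τ'' => v τ'' ρ)) τ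
        rw [e, dd_dd, add_zero]
        exact hzy τ ρ k1 k2 k3 k4
  have hb' : ∀ ρ : Finset ι, ∃ y : Finset ι → V, ρ ⊆ J → ρ.card = 1 →
      (∀ τ, τ ⊆ I → τ.card + 1 = j → y τ ∈ M τ ρ) ∧
      ∀ τ, τ ⊆ I → τ.card = j → x τ = dd ∅ y τ := by
    intro ρ
    by_cases hρ : ρ ⊆ J ∧ ρ.card = 1
    · obtain ⟨t, rfl⟩ := Finset.card_eq_one.mp hρ.2
      obtain ⟨y, hy⟩ := hb t (hρ.1 (Finset.mem_singleton_self t))
      exact ⟨y, fun _ _ => hy⟩
    · exact ⟨fun _ => 0, fun h1 h2 => absurd ⟨h1, h2⟩ hρ⟩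
  choose y hy using hb'
  obtain ⟨u, hu1, hu2, hu3⟩ := Q j 1 rfl le_rfl (fun τ _ => x τ) (fun τ ρ => y ρ τ)
    (fun τ ρ _ _ _ k4 => by
      simp only [dd, Finset.sdiff_empty, Finset.sum_const, k4]
      rw [add_smul, one_smul]; exact add_self_two _)
    (fun τ ρ k1 k2 k3 k4 => (hy ρ k2 k4).1 τ k1 k3)
    (fun τ ρ k1 k2 k3 k4 => (hy ρ k2 k4).2 τ k1 k3)
  have hu0 : ∀ τ, ∃ u0 : V, τ ⊆ I → τ.card + 1 = j →
      u0 ∈ M τ ∅ ∧ ∀ t ∈ J, u τ {t} = u0 := by
    intro τ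
    by_cases hτ : τ ⊆ I ∧ τ.card + 1 = j
    · obtain ⟨v, hv1, hv2⟩ := (hrow τ 1 hτ.1 le_rfl hτ.2).elim (u τ)
        (fun ρ _ k2 k4 => hu1 τ ρ hτ.1 k2 hτ.2 k4) (fun ρ _ k2 k4 => hu2 τ ρ hτ.1 k2 hτ.2 k4)
      refine ⟨v ∅, fun _ _ => ⟨hv1 ∅ subset_rfl (Finset.empty_subset _) (by simp), fun t ht => ?_⟩⟩
      rw [hv2 {t} (Finset.empty_subset _) (by simpa using ht) (by simp)]
      simp [dd]
    · exact ⟨0, fun h1 h2 => absurd ⟨h1, h2⟩ hτ⟩
  choose u0 hu0 using hu0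
  obtain ⟨t, ht⟩ := hJ
  refine ⟨u0, fun τ k1 k3 => (hu0 τ k1 k3).1, fun τ k1 k3 => ?_⟩
  rw [hu3 τ {t} k1 (by simpa using ht) k3 (by simp)]
  refine dd_congr _ (fun b hb _ => ?_)
  obtain ⟨_, l2, l3⟩ := erase_mem_range (Finset.empty_subset τ) k1 hb (Finset.notMem_empty _)
  exact (hu0 _ l2 (by omega)).2 t ht

theorem dd_image {W : Type} [AddCommMonoid W] {I : Finset ι} {β : ι → ι} (hβ : Set.InjOn β I)
    (y : Finset ι → W) {τ : Finset ι} (hτ : τ ⊆ I) :
    dd ∅ y (τ.image β) = dd ∅ (fun π => y (π.image β)) τ := by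
  unfold dd
  simp only [Finset.sdiff_empty]
  rw [Finset.sum_image (fun a ha b hb h => hβ (hτ ha) (hτ hb) h)]
  refine Finset.sum_congr rfl (fun b hb => ?_)
  congr 1
  ext c
  simp only [Finset.mem_erase, Finset.mem_image]
  constructor
  · rintro ⟨h1, a, ha, rfl⟩
    exact ⟨a, ⟨fun h => h1 (h ▸ rfl), ha⟩, rfl⟩
  · rintro ⟨a, ⟨h1, ha⟩, rfl⟩
    exact ⟨fun h => h1 (hβ (hτ ha) (hτ hb) h), a, ha, rfl⟩

/-- Relabelling the colours along a bijection of `I`. -/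
theorem Surj.relabel {I : Finset ι} {M M' : Finset ι → Submodule (ZMod 2) V} {j : ℕ}
    (β : ι → ι) (hβ : Set.BijOn β I I) (h : Surj I ∅ M M' j) :
    Surj I ∅ (fun τ => M (τ.image β)) (fun τ => M' (τ.image β)) j := by
  intro x hx hc
  let pre : Finset ι → Finset ι := fun τ' => I.filter (fun a => β a ∈ τ')
  have hpre1 : ∀ τ, τ ⊆ I → pre (τ.image β) = τ := by
    intro τ hτ
    ext a
    simp only [pre, Finset.mem_filter, Finset.mem_image]
    constructor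
    · rintro ⟨h1, b, hb, h2⟩
      rwa [← hβ.injOn (hτ hb) h1 h2]
    · intro ha
      exact ⟨hτ ha, a, ha, rfl⟩
  have hpre2 : ∀ τ', τ' ⊆ I → (pre τ').image β = τ' := by
    intro τ' hτ'
    ext b
    simp only [pre, Finset.mem_filter, Finset.mem_image]
    constructor
    · rintro ⟨a, ⟨_, h2⟩, rfl⟩; exact h2
    · intro hb
      obtain ⟨a, ha, rfl⟩ := hβ.surjOn (hτ' hb)
      exact ⟨a, ⟨ha, hb⟩, rfl⟩
  have hpreI : ∀ τ', pre τ' ⊆ I := fun τ' => Finset.filter_subset _ _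
  have hcard : ∀ τ, τ ⊆ I → (τ.image β).card = τ.card := fun τ hτ =>
    Finset.card_image_of_injOn (fun a ha b hb h => hβ.injOn (hτ ha) (hτ hb) h)
  have himI : ∀ τ, τ ⊆ I → τ.image β ⊆ I := by
    intro τ hτ b hb
    obtain ⟨a, ha, rfl⟩ := Finset.mem_image.mp hb
    exact hβ.mapsTo (hτ ha)
  obtain ⟨y, hy1, hy2⟩ := h (fun τ' => x (pre τ'))
    (fun τ' _ k2 k3 => by
      have := hx (pre τ') (Finset.empty_subset _) (hpreI _)
        (by rw [← hcard _ (hpreI _), hpre2 _ k2, k3])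
      simpa only [hpre2 _ k2] using this)
    (fun ρ' _ k2 k3 => by
      rw [← hpre2 _ k2, dd_image hβ.injOn _ (hpreI _),
        ← hc (pre ρ') (Finset.empty_subset _) (hpreI _)
          (by rw [← hcard _ (hpreI _), hpre2 _ k2, k3])]
      refine dd_congr _ (fun b _ _ => ?_)
      rw [hpre1 _ ((Finset.erase_subset _ _).trans (hpreI _))])
  refine ⟨fun τ => y (τ.image β), fun τ _ k2 k3 => ?_, fun τ _ k2 k3 => ?_⟩
  · exact hy1 _ (Finset.empty_subset _) (himI τ k2) (by rw [hcard τ k2, k3])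
  · have := hy2 _ (Finset.empty_subset _) (himI τ k2) (by rw [hcard τ k2, k3])
    rwa [hpre1 τ k2, dd_image hβ.injOn _ k2] at this

end Vale.Agent.P067
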