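import Vale.Agent.P067.Net

/-! The truncated polynomial ring `F[x]/(x^s)` and monomial nets. -/

set_option linter.unusedSectionVars false
set_option linter.unusedVariables false

namespace Vale.Agent.P067

open Finset Matrix

/-- The truncated polynomial ring. -/
abbrev Rs (F : Type) [Field F] (s : ℕ) : Type :=
  AdjoinRoot (Polynomial.X ^ s : Polynomial F)

variable {F : Type} [Field F] {s : ℕ}

instance finite_Rs [Finite F] : Finite (Rs F s) := by
  haveI : Module.Finite F (Rs F s) := (Polynomial.monic_X_pow s).finite_adjoinRoot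
  exact Module.finite_of_finite F

/-- The class of the variable. -/
noncomputable def xx (F : Type) [Field F] (s : ℕ) : Rs F s := AdjoinRoot.root _

/-- The coefficient of `x^e` (zero for `e ≥ s`). -/
noncomputable def co (e : ℕ) : Rs F s →ₗ[F] F :=
  (Polynomial.lcoeff F e).comp (AdjoinRoot.modByMonicHom (Polynomial.monic_X_pow s))

/-- The monomial `c x^e`. -/
noncomputable def mon (s : ℕ) (c : F) (e : ℕ) : Rs F s := algebraMap F (Rs F s) c * xx F s ^ e

theorem co_mk (p : Polynomial F) (e : ℕ) :
    co e (AdjoinRoot.mk (Polynomial.X ^ s : Polynomial F) p) = if e < s then p.coeff e else 0 := by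
  change (p %ₘ (Polynomial.X ^ s)).coeff e = _
  have hm := Polynomial.monic_X_pow (R := F) s
  split_ifs with he
  · conv_rhs => rw [← Polynomial.modByMonic_add_div p (Polynomial.X ^ s)]
    rw [Polynomial.coeff_add, Polynomial.coeff_X_pow_mul']
    simp [not_le.mpr he]
  · apply Polynomial.coeff_eq_zero_of_degree_lt
    refine (Polynomial.degree_modByMonic_lt p hm).trans_le ?_
    rw [Polynomial.degree_X_pow]
    exact_mod_cast not_lt.mp he

theorem lt_of_co_ne_zero {e : ℕ} {r : Rs F s} (h : co e r ≠ 0) : e < s := by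
  induction r using AdjoinRoot.induction_on with
  | ih p =>
    rw [co_mk] at h
    by_contra he
    simp [he] at h

theorem co_mul_ne_zero {e : ℕ} {r r' : Rs F s} (h : co e (r * r') ≠ 0) :
    ∃ e₁ e₂, e₁ + e₂ = e ∧ co e₁ r ≠ 0 ∧ co e₂ r' ≠ 0 := by
  have he := lt_of_co_ne_zero h
  induction r using AdjoinRoot.induction_on with
  | ih p =>
  induction r' using AdjoinRoot.induction_on with
  | ih p' =>
    rw [← map_mul, co_mk, if_pos he, Polynomial.coeff_mul] at h
    obtain ⟨⟨e₁, e₂⟩, h1, h2⟩ := Finset.exists_ne_zero_of_sum_ne_zero h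
    have h3 : e₁ + e₂ = e := by simpa using h1
    refine ⟨e₁, e₂, h3, ?_, ?_⟩
    · rw [co_mk, if_pos (by omega)]; exact left_ne_zero_of_mul h2
    · rw [co_mk, if_pos (by omega)]; exact right_ne_zero_of_mul h2

theorem mon_eq_mk (c : F) (e : ℕ) :
    mon s c e = AdjoinRoot.mk (Polynomial.X ^ s : Polynomial F) (Polynomial.monomial e c) := by
  rw [← Polynomial.C_mul_X_pow_eq_monomial, map_mul, map_pow, AdjoinRoot.mk_C, AdjoinRoot.mk_X]
  rfl

theorem co_mon (c : F) (e e' : ℕ) :
    co e' (mon s c e) = if e' = e ∧ e < s then c else 0 := by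
  rw [mon_eq_mk, co_mk, Polynomial.coeff_monomial]
  by_cases h : e' = e
  · subst h; simp
  · simp [h, Ne.symm h]

theorem ext_co {r r' : Rs F s} (h : ∀ e, e < s → co e r = co e r') : r = r' := by
  induction r using AdjoinRoot.induction_on with
  | ih p =>
  induction r' using AdjoinRoot.induction_on with
  | ih p' =>
    rw [AdjoinRoot.mk_eq_mk, Polynomial.X_pow_dvd_iff]
    intro d hd
    have := h d hd
    rw [co_mk, co_mk, if_pos hd, if_pos hd] at this
    rw [Polynomial.coeff_sub, this, sub_self]

theorem eq_sum_mon (r : Rs F s) : r = ∑ e ∈ range s, mon s (co e r) e := by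
  refine ext_co (fun d hd => ?_)
  rw [map_sum, Finset.sum_eq_single d]
  · rw [co_mon]; simp [hd]
  · intro e _ he
    rw [co_mon]; simp [Ne.symm he]
  · intro h; exact absurd (Finset.mem_range.mpr hd) h

theorem mon_mul (c c' : F) (e e' : ℕ) : mon s c e * mon s c' e' = mon s (c * c') (e + e') := by
  simp only [mon, map_mul, pow_add]; ring

theorem mon_add (c c' : F) (e : ℕ) : mon s (c + c') e = mon s c e + mon s c' e := by
  simp only [mon, map_add]; ring

theorem mon_zero (e : ℕ) : mon s (0 : F) e = 0 := by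
  simp [mon]

theorem mon_neg (c : F) (e : ℕ) : mon s (-c) e = - mon s c e := by
  simp [mon]

theorem mon_eq_zero_of_le (c : F) {e : ℕ} (he : s ≤ e) : mon s c e = 0 := by
  refine ext_co (fun d hd => ?_)
  rw [co_mon, map_zero, if_neg (by omega)]

theorem mon_injective {e : ℕ} (he : e < s) : Function.Injective (fun c : F => mon s c e) := by
  intro c c' h
  have := congrArg (co e) h
  simpa [co_mon, he] using this

theorem isUnit_two_Rs (h2 : (2 : F) ≠ 0) : IsUnit (2 : Rs F s) := by
  have := (Ne.isUnit h2).map (algebraMap F (Rs F s))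
  rwa [map_ofNat] at this

theorem isUnit_one_add {d : Rs F s} (hd : co 0 d = 0) : IsUnit (1 + d) := by
  refine IsNilpotent.isUnit_one_add ?_
  have key : ∀ n e, co e (d ^ n) ≠ 0 → n ≤ e := by
    intro n
    induction n with
    | zero => intro e _; exact Nat.zero_le e
    | succ n ih =>
      intro e he
      rw [pow_succ] at he
      obtain ⟨e₁, e₂, h1, h2, h3⟩ := co_mul_ne_zero he
      have := ih e₁ h2
      have : e₂ ≠ 0 := fun h => h3 (h ▸ hd)
      omega
  refine ⟨s, ext_co (fun e he => ?_)⟩
  by_contra h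
  have := key s e (by simpa using h)
  omega

theorem mon_one_zero : mon s (1 : F) 0 = 1 := by
  simp [mon]

theorem le_card_Rs [Finite F] : s ≤ Nat.card (Rs F s) := by
  have := Nat.card_le_card_of_injective (fun e : Fin s => mon s (1 : F) e) (fun a b h => by
    have := congrArg (co a) h
    simp only [co_mon, a.2, and_self, if_true] at this
    by_contra hab
    rw [if_neg (fun h => hab (Fin.ext h.1))] at this
    exact one_ne_zero this)
  simpa using this

variable {ι : Type} [Fintype ι] [DecidableEq ι]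

/-- The monomial net of a pattern. -/
def mono (F : Type) [Field F] (s : ℕ) (P : ι → ι → ℕ → Prop) (i j : ι) : AddSubgroup (Rs F s) where
  carrier := {r | ∀ e, co e r ≠ 0 → P i j e}
  add_mem' := fun {a b} ha hb e he => by
    by_cases h : co e a = 0
    · exact hb e (by simpa [map_add, h] using he)
    · exact ha e h
  zero_mem' := fun e he => absurd (map_zero _) he
  neg_mem' := fun {a} ha e he => ha e (by simpa using he)

theorem mem_mono {P : ι → ι → ℕ → Prop} {i j : ι} {r : Rs F s} :
    r ∈ mono F s P i j ↔ ∀ e, co e r ≠ 0 → P i j e := Iff.rfl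

theorem mon_mem_mono {P : ι → ι → ℕ → Prop} {i j : ι} {e : ℕ} (h : P i j e) (c : F) :
    mon s c e ∈ mono F s P i j := by
  intro e' he'
  rw [co_mon] at he'
  by_cases hh : e' = e ∧ e < s
  · rw [hh.1]; exact h
  · simp [hh] at he'

theorem mono_le {P Q : ι → ι → ℕ → Prop} {i j i' j' : ι}
    (h : ∀ e, e < s → P i j e → Q i' j' e) : mono F s P i j ≤ mono F s Q i' j' := by
  intro r hr e he
  exact h e (lt_of_co_ne_zero he) (hr e he)

theorem mono_eq_bot {P : ι → ι → ℕ → Prop} {i j : ι} (h : ∀ e, e < s → ¬ P i j e) :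
    mono F s P i j = ⊥ := by
  rw [eq_bot_iff]
  intro r hr
  rw [AddSubgroup.mem_bot]
  refine ext_co (fun e he => ?_)
  by_contra hne
  exact h e he (hr e (by simpa using hne))

theorem mono_mul {P Q S : ι → ι → ℕ → Prop} {i j l : ι}
    (h : ∀ e e', P i j e → Q j l e' → S i l (e + e')) {x y : Rs F s}
    (hx : x ∈ mono F s P i j) (hy : y ∈ mono F s Q j l) : x * y ∈ mono F s S i l := by
  intro e he
  obtain ⟨e₁, e₂, rfl, h2, h3⟩ := co_mul_ne_zero he
  exact h _ _ (hx _ h2) (hy _ h3)

/-- A pattern closed under composition. -/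
def Closed (P : ι → ι → ℕ → Prop) : Prop :=
  ∀ i j l e e', P i j e → P j l e' → P i l (e + e')

theorem isNet_mono {P : ι → ι → ℕ → Prop} (h : Closed P) : IsNet (mono F s P) :=
  fun _ _ _ _ _ hx hy => mono_mul (fun e e' => h _ _ _ e e') hx hy

/-- An elementary matrix with entry in a monomial net is a product of monomial ones. -/
theorem elem_mem_of_mon {P : ι → ι → ℕ → Prop} {i j : ι} {r : Rs F s}
    (hr : r ∈ mono F s P i j) (K : Subgroup (SpecialLinearGroup ι (Rs F s)))
    (hK : ∀ e c, e < s → P i j e → elem i j (mon s c e) ∈ K) : elem i j r ∈ K := by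
  rw [eq_sum_mon r]
  refine Finset.sum_induction _ (fun x => elem i j x ∈ K)
    (fun a b ha hb => by rw [elem_add]; exact K.mul_mem ha hb)
    (by rw [elem_zero]; exact K.one_mem) (fun e he => ?_)
  by_cases h0 : co e r = 0
  · simp only [h0, mon_zero, elem_zero]; exact K.one_mem
  · exact hK e _ (Finset.mem_range.mp he) (hr e h0)

/-- Generation by monomial elementary matrices, for patterns with empty diagonal. -/
theorem grp_mono_le [Finite F] {P : ι → ι → ℕ → Prop} (h : Closed P) (hd : ∀ i e, ¬ P i i e)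
    (K : Subgroup (SpecialLinearGroup ι (Rs F s)))
    (hK : ∀ i j e c, e < s → P i j e → elem i j (mon s c e) ∈ K) : grp (mono F s P) ≤ K := by
  have hbot : ∀ i, mono F s P i i = ⊥ := fun i => mono_eq_bot (fun e _ => hd i e)
  refine grp_le_of_elem (isNet_mono h) univ (by simp) ?_ ?_ K ?_
  · intro i d hd'
    rw [hbot, AddSubgroup.mem_bot] at hd'
    simp [hd']
  · intro i _ l _ _ d hd'
    rw [hbot, AddSubgroup.mem_bot] at hd'
    exact ⟨0, AddSubgroup.zero_mem _, 0, AddSubgroup.zero_mem _, by simp [hd']⟩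
  · intro i j _ r hr
    exact elem_mem_of_mon hr K (fun e c he hp => hK i j e c he hp)

end Vale.Agent.P067
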